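import Crest.Statements.S0316

set_option autoImplicit false
open Crest.GeometryTopology.Quadric

namespace Crest.Agent.Q316

/-- complex five-space -/
abbrev V := Fin 5 → ℂ

theorem herm_add_left (u v w : V) : herm (u + v) w = herm u w + herm v w := by
  simp [herm, add_mul, Finset.sum_add_distrib]

theorem herm_add_right (u v w : V) : herm u (v + w) = herm u v + herm u w := by
  simp [herm, mul_add, Finset.sum_add_distrib]

theorem herm_smul_left (c : ℂ) (u w : V) : herm (c • u) w = starRingEnd ℂ c * herm u w := by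
  simp [herm, Finset.mul_sum, mul_assoc]

theorem herm_smul_right (c : ℂ) (u w : V) : herm u (c • w) = c * herm u w := by
  simp only [herm, Pi.smul_apply, smul_eq_mul, Finset.mul_sum]
  refine Finset.sum_congr rfl fun j _ => by ring

theorem herm_rsmul_left (c : ℝ) (u w : V) : herm (c • u) w = (c : ℂ) * herm u w := by
  have : c • u = (c : ℂ) • u := by ext j; simp
  rw [this, herm_smul_left, Complex.conj_ofReal]

theorem herm_rsmul_right (c : ℝ) (u w : V) : herm u (c • w) = (c : ℂ) * herm u w := by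
  have : c • w = (c : ℂ) • w := by ext j; simp
  rw [this, herm_smul_right]

theorem herm_conj (u w : V) : herm w u = starRingEnd ℂ (herm u w) := by
  simp [herm, map_sum, mul_comm]

theorem herm_im_swap (u w : V) : (herm w u).im = -(herm u w).im := by
  rw [herm_conj, Complex.conj_im]

theorem herm_self_im (u : V) : (herm u u).im = 0 := by
  have := herm_im_swap u u; linarith

theorem herm_bilin : IsBoundedBilinearMap ℝ (fun p : V × V => herm p.1 p.2) where
  add_left u v w := herm_add_left u v w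
  smul_left c u w := by
    show herm (c • u) w = c • herm u w
    rw [herm_rsmul_left, Complex.real_smul]
  add_right u v w := herm_add_right u v w
  smul_right c u w := by
    show herm u (c • w) = c • herm u w
    rw [herm_rsmul_right, Complex.real_smul]
  bound := by
    refine ⟨5, by norm_num, fun u w => ?_⟩
    show ‖herm u w‖ ≤ 5 * ‖u‖ * ‖w‖
    unfold herm
    refine (norm_sum_le _ _).trans ?_
    have : ∀ j ∈ (Finset.univ : Finset (Fin 5)), ‖starRingEnd ℂ (u j) * w j‖ ≤ ‖u‖ * ‖w‖ := by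
      intro j _
      rw [norm_mul, RCLike.norm_conj]
      exact mul_le_mul (norm_le_pi_norm u j) (norm_le_pi_norm w j) (norm_nonneg _) (norm_nonneg _)
    refine (Finset.sum_le_sum this).trans ?_
    simp
    linarith

/-- Hamiltonian isotopies of the linear symplectic space, with extra structure. -/
structure Iso where
  Ψ : ℝ × V → V
  Φ : ℝ × V → V
  H : ℝ × V → ℝ
  sΨ : ContDiff ℝ (⊤ : ℕ∞) Ψ
  sΦ : ContDiff ℝ (⊤ : ℕ∞) Φ
  sH : ContDiff ℝ (⊤ : ℕ∞) H
  ΦΨ : ∀ t z, Φ (t, Ψ (t, z)) = z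
  ΨΦ : ∀ t z, Ψ (t, Φ (t, z)) = z
  zero : ∀ z, Ψ (0, z) = z
  norm : ∀ t z, herm (Ψ (t, z)) (Ψ (t, z)) = herm z z
  quad : ∀ t z, ∑ j, Ψ (t, z) j ^ 2 = ∑ j, z j ^ 2
  equi : ∀ t z (c : ℂ), ‖c‖ = 1 → Ψ (t, c • z) = c • Ψ (t, z)
  inv : ∀ t z (c : ℂ), ‖c‖ = 1 → H (t, c • z) = H (t, z)
  symp : ∀ t z X w, (herm (fderiv ℝ (fun x => Ψ (t, x)) z X)
    (fderiv ℝ (fun x => Ψ (t, x)) z w)).im = (herm X w).im
  ham : ∀ t z w, 2 * (herm (deriv (fun s => Ψ (s, z)) t) w).im =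
    fderiv ℝ (fun x => H (t, x)) (Ψ (t, z)) w

namespace Iso

theorem equiΦ (F : Iso) (t : ℝ) (z : V) (c : ℂ) (hc : ‖c‖ = 1) :
    F.Φ (t, c • z) = c • F.Φ (t, z) := by
  have h := F.equi t (F.Φ (t, z)) c hc
  rw [F.ΨΦ] at h
  rw [← h, F.ΦΨ]

theorem contDiff_slice {E : Type*} [NormedAddCommGroup E] [NormedSpace ℝ E] {f : ℝ × V → E}
    (hf : ContDiff ℝ (⊤ : ℕ∞) f) (t : ℝ) : ContDiff ℝ (⊤ : ℕ∞) (fun x => f (t, x)) :=
  hf.comp (contDiff_const.prodMk contDiff_id)

theorem diff_slice {E : Type*} [NormedAddCommGroup E] [NormedSpace ℝ E] {f : ℝ × V → E}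
    (hf : ContDiff ℝ (⊤ : ℕ∞) f) (t : ℝ) : Differentiable ℝ (fun x => f (t, x)) :=
  (contDiff_slice hf t).differentiable (by simp)

theorem slice_fderiv {E : Type*} [NormedAddCommGroup E] [NormedSpace ℝ E] {f : ℝ × V → E}
    (hf : ContDiff ℝ (⊤ : ℕ∞) f) (t : ℝ) (z w : V) :
    fderiv ℝ (fun x => f (t, x)) z w = fderiv ℝ f (t, z) (0, w) := by
  have h1 : HasFDerivAt f (fderiv ℝ f (t, z)) (t, z) :=
    ((hf.differentiable (by simp)) (t, z)).hasFDerivAt
  have h2 : HasFDerivAt (fun x : V => (t, x)) (ContinuousLinearMap.inr ℝ ℝ V) z :=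
    hasFDerivAt_prodMk_right t z
  have h3 := h1.comp z h2
  have : fderiv ℝ (fun x => f (t, x)) z = (fderiv ℝ f (t, z)).comp (ContinuousLinearMap.inr ℝ ℝ V) :=
    h3.fderiv
  rw [this]; simp

theorem slice_deriv {E : Type*} [NormedAddCommGroup E] [NormedSpace ℝ E] {f : ℝ × V → E}
    (hf : ContDiff ℝ (⊤ : ℕ∞) f) (t : ℝ) (z : V) :
    deriv (fun s => f (s, z)) t = fderiv ℝ f (t, z) (1, 0) := by
  have h1 : HasFDerivAt f (fderiv ℝ f (t, z)) (t, z) :=
    ((hf.differentiable (by simp)) (t, z)).hasFDerivAt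
  have h2 : HasDerivAt (fun s : ℝ => (s, z)) ((1 : ℝ), (0 : V)) t :=
    (hasDerivAt_id t).prodMk (hasDerivAt_const t z)
  exact (h1.comp_hasDerivAt t h2).deriv

/-- Composition of Hamiltonian isotopies. -/
noncomputable def comp (F G : Iso) : Iso where
  Ψ p := F.Ψ (p.1, G.Ψ p)
  Φ p := G.Φ (p.1, F.Φ p)
  H p := F.H p + G.H (p.1, F.Φ p)
  sΨ := F.sΨ.comp (contDiff_fst.prodMk G.sΨ)
  sΦ := G.sΦ.comp (contDiff_fst.prodMk F.sΦ)
  sH := F.sH.add (G.sH.comp (contDiff_fst.prodMk F.sΦ))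
  ΦΨ t z := by simp only [F.ΦΨ, G.ΦΨ]
  ΨΦ t z := by simp only [F.ΨΦ, G.ΨΦ]
  zero z := by simp only [F.zero, G.zero]
  norm t z := by simp only [F.norm, G.norm]
  quad t z := by simp only [F.quad, G.quad]
  equi t z c hc := by simp only [G.equi t z c hc, F.equi t _ c hc]
  inv t z c hc := by simp only [F.inv t z c hc, F.equiΦ t z c hc, G.inv t _ c hc]
  symp t z X w := by
    have h1 : ∀ v, fderiv ℝ (fun x => F.Ψ (t, G.Ψ (t, x))) z v =
        fderiv ℝ (fun x => F.Ψ (t, x)) (G.Ψ (t, z)) (fderiv ℝ (fun x => G.Ψ (t, x)) z v) := by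
      intro v
      have := ((diff_slice F.sΨ t) (G.Ψ (t, z))).hasFDerivAt.comp z
        ((diff_slice G.sΨ t) z).hasFDerivAt
      have h := this.fderiv
      have h' : fderiv ℝ (fun x => F.Ψ (t, G.Ψ (t, x))) z =
        (fderiv ℝ (fun x => F.Ψ (t, x)) (G.Ψ (t, z))).comp (fderiv ℝ (fun x => G.Ψ (t, x)) z) := h
      rw [h']; rfl
    show (herm (fderiv ℝ (fun x => F.Ψ (t, G.Ψ (t, x))) z X)
      (fderiv ℝ (fun x => F.Ψ (t, G.Ψ (t, x))) z w)).im = _
    rw [h1, h1, F.symp, G.symp]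
  ham t z w := by
    set y := G.Ψ (t, z) with hy
    set g := deriv (fun s => G.Ψ (s, z)) t with hg
    have hder : deriv (fun s => F.Ψ (s, G.Ψ (s, z))) t =
        deriv (fun s => F.Ψ (s, y)) t + fderiv ℝ (fun x => F.Ψ (t, x)) y g := by
      have h1 : HasFDerivAt F.Ψ (fderiv ℝ F.Ψ (t, y)) (t, y) :=
        ((F.sΨ.differentiable (by simp)) (t, y)).hasFDerivAt
      have hGd : HasDerivAt (fun s => G.Ψ (s, z)) g t := by
        have : Differentiable ℝ (fun s => G.Ψ (s, z)) :=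
          (G.sΨ.comp (contDiff_id.prodMk contDiff_const)).differentiable (by simp)
        exact (this t).hasDerivAt
      have h2 : HasDerivAt (fun s : ℝ => (s, G.Ψ (s, z))) ((1 : ℝ), g) t :=
        (hasDerivAt_id t).prodMk hGd
      have h3 := (h1.comp_hasDerivAt t h2).deriv
      have h4 : deriv (fun s => F.Ψ (s, G.Ψ (s, z))) t = fderiv ℝ F.Ψ (t, y) (1, g) := h3
      rw [h4, slice_deriv F.sΨ, slice_fderiv F.sΨ, ← map_add]
      simp
    show 2 * (herm (deriv (fun s => F.Ψ (s, G.Ψ (s, z))) t) w).im =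
      fderiv ℝ (fun x => F.H (t, x) + G.H (t, F.Φ (t, x))) (F.Ψ (t, G.Ψ (t, z))) w
    rw [hder, herm_add_left, Complex.add_im, mul_add, F.ham t y w]
    have hsum : fderiv ℝ (fun x => F.H (t, x) + G.H (t, F.Φ (t, x))) (F.Ψ (t, y)) w =
        fderiv ℝ (fun x => F.H (t, x)) (F.Ψ (t, y)) w +
        fderiv ℝ (fun x => G.H (t, x)) y (fderiv ℝ (fun x => F.Φ (t, x)) (F.Ψ (t, y)) w) := by
      have hA := ((diff_slice F.sH t) (F.Ψ (t, y))).hasFDerivAt
      have hB0 := ((diff_slice F.sΦ t) (F.Ψ (t, y))).hasFDerivAt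
      have hB1 : HasFDerivAt (fun x => G.H (t, x)) (fderiv ℝ (fun x => G.H (t, x)) y)
          (F.Φ (t, F.Ψ (t, y))) := by
        rw [F.ΦΨ]; exact ((diff_slice G.sH t) y).hasFDerivAt
      have hB := hB1.comp (F.Ψ (t, y)) hB0
      have hAB := (hA.add hB).fderiv
      have : fderiv ℝ (fun x => F.H (t, x) + G.H (t, F.Φ (t, x))) (F.Ψ (t, y)) =
          fderiv ℝ (fun x => F.H (t, x)) (F.Ψ (t, y)) +
          (fderiv ℝ (fun x => G.H (t, x)) y).comp (fderiv ℝ (fun x => F.Φ (t, x)) (F.Ψ (t, y))) := hAB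
      rw [this]; rfl
    rw [hsum]
    congr 1
    rw [← G.ham t z]
    set v := fderiv ℝ (fun x => F.Φ (t, x)) (F.Ψ (t, y)) w with hv
    have hinv : fderiv ℝ (fun x => F.Ψ (t, x)) y v = w := by
      have hA1 : HasFDerivAt (fun x => F.Ψ (t, x)) (fderiv ℝ (fun x => F.Ψ (t, x)) y)
          (F.Φ (t, F.Ψ (t, y))) := by
        rw [F.ΦΨ]; exact ((diff_slice F.sΨ t) y).hasFDerivAt
      have hB0 := ((diff_slice F.sΦ t) (F.Ψ (t, y))).hasFDerivAt
      have hc := hA1.comp (F.Ψ (t, y)) hB0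
      have hid : ((fun x => F.Ψ (t, x)) ∘ fun x => F.Φ (t, x)) = id := by
        funext x; exact F.ΨΦ t x
      rw [hid] at hc
      have := hc.unique (hasFDerivAt_id _)
      have h2 := DFunLike.congr_fun this w
      simpa using h2
    rw [← hinv, F.symp]

/-- A Hamiltonian cone lift from an isotopy. -/
noncomputable def lift (F : Iso) : HamiltonianConeLift where
  Ψ := F.Ψ
  H := F.H
  smooth_Ψ := F.sΨ
  smooth_H := F.sH
  mapsTo_cone t z hz := by
    refine ⟨?_, ?_⟩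
    · rw [F.norm]; exact hz.1
    · rw [F.quad]; exact hz.2
  compatible t z _ c hc := ⟨c, F.equi t z c hc⟩
  start z _ := ⟨1, by rw [F.zero]; simp⟩
  invariant t z _ c hc := F.inv t z c hc
  hamilton t _ z _ w _ := F.ham t z w

end Iso

end Crest.Agent.Q316
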