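import Crest.Agent.Q316A

set_option autoImplicit false
open Crest.GeometryTopology.Quadric

namespace Crest.Agent.Q316

/-- Generators of plane rotations. -/
structure Gen where
  J : V →L[ℝ] V
  hc : ∀ (c : ℂ) z, J (c • z) = c • J z
  skew : ∀ u w, herm (J u) w = - herm u (J w)
  cube : ∀ u, J (J (J u)) = - J u
  qskew : ∀ u w, ∑ j, J u j * w j = - ∑ j, u j * J w j

namespace Gen

variable (G : Gen)

noncomputable def rot (θ : ℝ) (z : V) : V :=
  z + (1 - Real.cos θ) • G.J (G.J z) + Real.sin θ • G.J z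

theorem rot_zero (z : V) : G.rot 0 z = z := by simp [rot]

theorem J_rot (θ : ℝ) (z : V) : G.J (G.rot θ z) = G.rot θ (G.J z) := by
  simp only [rot, map_add, map_smul]

theorem rot_add' (θ : ℝ) (u w : V) : G.rot θ (u + w) = G.rot θ u + G.rot θ w := by
  simp only [rot, map_add, smul_add]; abel

theorem rot_smul (θ : ℝ) (c : ℂ) (z : V) : G.rot θ (c • z) = c • G.rot θ z := by
  simp only [rot, G.hc, smul_add]
  rw [smul_comm c (1 - Real.cos θ), smul_comm c (Real.sin θ)]

theorem rot_rot (θ φ : ℝ) (z : V) : G.rot θ (G.rot φ z) = G.rot (θ + φ) z := by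
  simp only [rot, map_add, map_smul, G.cube, map_neg, Real.cos_add, Real.sin_add]
  ext j
  simp only [Pi.add_apply, Pi.smul_apply, Pi.neg_apply, Complex.real_smul]
  push_cast
  ring

theorem rot_bil (B : V → V → ℂ) (hal : ∀ u v w, B (u + v) w = B u w + B v w)
    (har : ∀ u v w, B u (v + w) = B u v + B u w)
    (hsl : ∀ (c : ℝ) u w, B (c • u) w = (c : ℂ) * B u w)
    (hsr : ∀ (c : ℝ) u w, B u (c • w) = (c : ℂ) * B u w)
    (hsk : ∀ u w, B (G.J u) w = - B u (G.J w)) (θ : ℝ) (u w : V) :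
    B (G.rot θ u) (G.rot θ w) = B u w := by
  have hneg : ∀ u w, B u (-w) = - B u w := by
    intro u w
    have := hsr (-1) u w
    simpa using this
  simp only [rot, hal, har, hsl, hsr, hsk, G.cube, map_neg, hneg]
  have h1 : ((Real.cos θ : ℝ) : ℂ) ^ 2 + ((Real.sin θ : ℝ) : ℂ) ^ 2 = 1 := by
    have := Real.cos_sq_add_sin_sq θ
    exact_mod_cast congrArg (fun x : ℝ => (x : ℂ)) this
  push_cast at h1 ⊢
  linear_combination (-B u (G.J (G.J w))) * h1

theorem rot_herm (θ : ℝ) (u w : V) : herm (G.rot θ u) (G.rot θ w) = herm u w :=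
  G.rot_bil herm herm_add_left herm_add_right herm_rsmul_left herm_rsmul_right G.skew θ u w

theorem rot_quad (θ : ℝ) (u w : V) :
    ∑ j, G.rot θ u j * G.rot θ w j = ∑ j, u j * w j := by
  refine G.rot_bil (fun u w => ∑ j, u j * w j) ?_ ?_ ?_ ?_ G.qskew θ u w
  · intro u v w; simp [add_mul, Finset.sum_add_distrib]
  · intro u v w; simp [mul_add, Finset.sum_add_distrib]
  · intro c u w; simp [Finset.mul_sum, mul_assoc]
  · intro c u w
    simp only [Pi.smul_apply, Complex.real_smul, Finset.mul_sum]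
    exact Finset.sum_congr rfl fun j _ => by ring

/-- the moment function -/
noncomputable def K (z : V) : ℝ := (herm (G.J z) z).im

theorem K_rot (θ : ℝ) (z : V) : G.K (G.rot θ z) = G.K z := by
  unfold K; rw [J_rot, rot_herm]

theorem K_smul (c : ℂ) (hc : ‖c‖ = 1) (z : V) : G.K (c • z) = G.K z := by
  unfold K
  rw [G.hc, herm_smul_left, herm_smul_right, ← mul_assoc]
  have : starRingEnd ℂ c * c = 1 := by
    rw [mul_comm, Complex.mul_conj, Complex.normSq_eq_norm_sq, hc]; simp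
  rw [this, one_mul]

theorem contDiff_K : ContDiff ℝ (⊤ : ℕ∞) G.K := by
  have h1 : ContDiff ℝ (⊤ : ℕ∞) (fun z : V => herm (G.J z) z) :=
    herm_bilin.contDiff.comp (G.J.contDiff.prodMk contDiff_id)
  exact Complex.imCLM.contDiff.comp h1

theorem herm_J_swap (z w : V) : (herm (G.J w) z).im = (herm (G.J z) w).im := by
  rw [G.skew, Complex.neg_im, herm_im_swap, neg_neg]

theorem fderiv_K (z w : V) : fderiv ℝ G.K z w = 2 * (herm (G.J z) w).im := by
  have h1 : HasFDerivAt (fun z : V => herm (G.J z) z)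
      ((herm_bilin.deriv (G.J z, z)).comp (G.J.prod (ContinuousLinearMap.id ℝ V))) z := by
    have h0 : HasFDerivAt (fun z : V => (G.J z, z)) (G.J.prod (ContinuousLinearMap.id ℝ V)) z :=
      G.J.hasFDerivAt.prodMk (hasFDerivAt_id z)
    exact HasFDerivAt.comp (f := fun z : V => (G.J z, z)) z
      (herm_bilin.hasFDerivAt (G.J z, z)) h0
  have h2 : HasFDerivAt G.K (Complex.imCLM.comp
      ((herm_bilin.deriv (G.J z, z)).comp (G.J.prod (ContinuousLinearMap.id ℝ V)))) z :=
    Complex.imCLM.hasFDerivAt.comp z h1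
  rw [h2.fderiv]
  simp only [ContinuousLinearMap.comp_apply, ContinuousLinearMap.prod_apply,
    ContinuousLinearMap.id_apply, IsBoundedBilinearMap.deriv_apply, Complex.imCLM_apply,
    Complex.add_im]
  rw [G.herm_J_swap z w]; ring

theorem contDiff_rot {ρ : ℝ → ℝ} (hρ : ContDiff ℝ (⊤ : ℕ∞) ρ) (σ : ℝ) :
    ContDiff ℝ (⊤ : ℕ∞) (fun p : ℝ × V => G.rot (σ * p.1 * ρ (G.K p.2)) p.2) := by
  have hθ : ContDiff ℝ (⊤ : ℕ∞) (fun p : ℝ × V => σ * p.1 * ρ (G.K p.2)) :=
    (contDiff_const.mul contDiff_fst).mul (hρ.comp (G.contDiff_K.comp contDiff_snd))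
  have hJ : ContDiff ℝ (⊤ : ℕ∞) (fun p : ℝ × V => G.J p.2) := G.J.contDiff.comp contDiff_snd
  have hJJ : ContDiff ℝ (⊤ : ℕ∞) (fun p : ℝ × V => G.J (G.J p.2)) := G.J.contDiff.comp hJ
  unfold rot
  exact (contDiff_snd.add ((contDiff_const.sub (Real.contDiff_cos.comp hθ)).smul hJJ)).add
    ((Real.contDiff_sin.comp hθ).smul hJ)

theorem fderiv_rot {ρ : ℝ → ℝ} (hρ : ContDiff ℝ (⊤ : ℕ∞) ρ) (t : ℝ) (z w : V) :
    fderiv ℝ (fun x : V => G.rot (t * ρ (G.K x)) x) z w =
      G.rot (t * ρ (G.K z)) w +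
        (t * (deriv ρ (G.K z) * (2 * (herm (G.J z) w).im))) • G.J (G.rot (t * ρ (G.K z)) z) := by
  have hK : HasFDerivAt G.K (fderiv ℝ G.K z) z :=
    ((G.contDiff_K.differentiable (by simp)) z).hasFDerivAt
  have hρd : HasDerivAt ρ (deriv ρ (G.K z)) (G.K z) :=
    ((hρ.differentiable (by simp)) _).hasDerivAt
  have hθ : HasFDerivAt (fun x : V => t * ρ (G.K x)) (t • (deriv ρ (G.K z) • fderiv ℝ G.K z)) z :=
    (hρd.comp_hasFDerivAt z hK).const_mul t
  set dθ := t • (deriv ρ (G.K z) • fderiv ℝ G.K z) with hdθ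
  have hdθw : dθ w = t * (deriv ρ (G.K z) * (2 * (herm (G.J z) w).im)) := by
    simp [hdθ, G.fderiv_K]
  have hcos : HasFDerivAt (fun x : V => 1 - Real.cos (t * ρ (G.K x)))
      (-(-Real.sin (t * ρ (G.K z)) • dθ)) z :=
    ((Real.hasDerivAt_cos _).comp_hasFDerivAt z hθ).const_sub 1
  have hsin : HasFDerivAt (fun x : V => Real.sin (t * ρ (G.K x)))
      (Real.cos (t * ρ (G.K z)) • dθ) z :=
    (Real.hasDerivAt_sin _).comp_hasFDerivAt z hθ
  have hJ : HasFDerivAt (fun x : V => G.J x) G.J z := G.J.hasFDerivAt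
  have hJJ : HasFDerivAt (fun x : V => G.J (G.J x)) (G.J.comp G.J) z :=
    G.J.hasFDerivAt.comp z hJ
  have hall := ((hasFDerivAt_id z).add (hcos.smul hJJ)).add (hsin.smul hJ)
  have hfd : fderiv ℝ (fun x : V => G.rot (t * ρ (G.K x)) x) z = _ := hall.fderiv
  rw [hfd]
  rw [J_rot, ← hdθw]
  simp only [rot, _root_.add_apply, _root_.smul_apply,
    ContinuousLinearMap.smulRight_apply, ContinuousLinearMap.id_apply,
    ContinuousLinearMap.comp_apply, _root_.neg_apply, G.cube]
  ext j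
  simp only [Pi.add_apply, Pi.smul_apply, Pi.neg_apply, Complex.real_smul, smul_eq_mul]
  push_cast
  ring

theorem deriv_rot (ω : ℝ) (t : ℝ) (z : V) :
    deriv (fun s : ℝ => G.rot (s * ω) z) t = ω • G.J (G.rot (t * ω) z) := by
  have hθ : HasDerivAt (fun s : ℝ => s * ω) ω t := by simpa using (hasDerivAt_id t).mul_const ω
  have hcos : HasDerivAt (fun s : ℝ => 1 - Real.cos (s * ω)) (-(-Real.sin (t * ω) * ω)) t :=
    ((Real.hasDerivAt_cos _).comp t hθ).const_sub 1
  have hsin : HasDerivAt (fun s : ℝ => Real.sin (s * ω)) (Real.cos (t * ω) * ω) t :=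
    (Real.hasDerivAt_sin _).comp t hθ
  have hall := ((hasDerivAt_const t z).add (hcos.smul_const (G.J (G.J z)))).add
    (hsin.smul_const (G.J z))
  have hfd : deriv (fun s : ℝ => G.rot (s * ω) z) t = _ := hall.deriv
  rw [hfd, J_rot]
  simp only [rot, G.cube]
  ext j
  simp only [Pi.add_apply, Pi.smul_apply, Pi.neg_apply, Complex.real_smul, smul_eq_mul,
    Pi.zero_apply]
  push_cast
  ring

/-- The basic Hamiltonian isotopy. -/
noncomputable def block (χ ρ : ℝ → ℝ) (hχ : ContDiff ℝ (⊤ : ℕ∞) χ) (hρ : ContDiff ℝ (⊤ : ℕ∞) ρ)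
    (hd : ∀ x, HasDerivAt χ (ρ x) x) : Iso where
  Ψ p := G.rot (p.1 * ρ (G.K p.2)) p.2
  Φ p := G.rot (-(p.1 * ρ (G.K p.2))) p.2
  H p := χ (G.K p.2)
  sΨ := by
    have := G.contDiff_rot hρ 1
    simpa using this
  sΦ := by
    have := G.contDiff_rot hρ (-1)
    simpa [neg_mul] using this
  sH := hχ.comp (G.contDiff_K.comp contDiff_snd)
  ΦΨ t z := by
    simp only [K_rot, rot_rot]
    simp [rot_zero]
  ΨΦ t z := by
    simp only [K_rot, rot_rot]
    simp [rot_zero]
  zero z := by simp [rot_zero]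
  norm t z := by simp only [rot_herm]
  quad t z := by
    have := G.rot_quad (t * ρ (G.K z)) z z
    simp only [sq]; exact this
  equi t z c hc := by simp only [G.K_smul c hc, rot_smul]
  inv t z c hc := by simp only [G.K_smul c hc]
  symp t z X w := by
    simp only
    rw [G.fderiv_rot hρ, G.fderiv_rot hρ]
    set θ := t * ρ (G.K z)
    set q := deriv ρ (G.K z)
    rw [G.J_rot]
    simp only [herm_add_left, herm_add_right, herm_rsmul_left, herm_rsmul_right, G.rot_herm]
    have h1 : (herm X (G.J z)).im = -(herm (G.J z) X).im := herm_im_swap _ _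
    have h2 : (herm (G.J z) (G.J z)).im = 0 := herm_self_im _
    simp only [Complex.add_im, Complex.mul_im, Complex.ofReal_im, Complex.ofReal_re, h1, h2]
    ring
  ham t z w := by
    simp only
    rw [G.deriv_rot]
    have hK : HasFDerivAt G.K (fderiv ℝ G.K (G.rot (t * ρ (G.K z)) z)) (G.rot (t * ρ (G.K z)) z) :=
      ((G.contDiff_K.differentiable (by simp)) _).hasFDerivAt
    have hH := ((hd (G.K (G.rot (t * ρ (G.K z)) z))).comp_hasFDerivAt _ hK).fderiv
    have hH' : fderiv ℝ (fun x => χ (G.K x)) (G.rot (t * ρ (G.K z)) z) = _ := hH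
    rw [hH']
    simp only [_root_.smul_apply, G.fderiv_K, K_rot, herm_rsmul_left, smul_eq_mul]
    simp only [Complex.mul_im, Complex.ofReal_im, Complex.ofReal_re]
    ring

end Gen

end Crest.Agent.Q316
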