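import Crest.Agent.Q316B

set_option autoImplicit false
open Crest.GeometryTopology.Quadric

namespace Crest.Agent.Q316

/-- infinitesimal rotation in the plane `(i, j)` -/
noncomputable def Jp (i j : Fin 5) : V →L[ℝ] V :=
  ContinuousLinearMap.pi fun k =>
    if k = i then -(ContinuousLinearMap.proj (R := ℝ) (φ := fun _ : Fin 5 => ℂ) j)
    else if k = j then ContinuousLinearMap.proj (R := ℝ) (φ := fun _ : Fin 5 => ℂ) i else 0

theorem Jp_apply (i j : Fin 5) (z : V) (k : Fin 5) :
    Jp i j z k = if k = i then -z j else if k = j then z i else 0 := by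
  unfold Jp
  rw [ContinuousLinearMap.pi_apply]
  split_ifs <;> simp

noncomputable def gen (i j : Fin 5) (h : i ≠ j) : Gen where
  J := Jp i j
  hc c z := by
    ext k; simp only [Jp_apply, Pi.smul_apply, smul_eq_mul]
    split_ifs <;> simp
  skew u w := by
    unfold herm
    simp only [Jp_apply]
    revert h
    fin_cases i <;> fin_cases j <;> intro h <;>
      first
        | exact absurd rfl h
        | (simp [Fin.sum_univ_five]; try ring)
  cube u := by
    ext k; simp only [Jp_apply, Pi.neg_apply]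
    have h' : j ≠ i := fun e => h e.symm
    split_ifs <;> simp_all
  qskew u w := by
    simp only [Jp_apply]
    revert h
    fin_cases i <;> fin_cases j <;> intro h <;>
      first
        | exact absurd rfl h
        | (simp [Fin.sum_univ_five]; try ring)

/-- twice the imaginary part of `conj a * b` -/
def kk (a b : ℂ) : ℝ := 2 * (a.re * b.im - a.im * b.re)

theorem gen_K (i j : Fin 5) (h : i ≠ j) (z : V) : (gen i j h).K z = kk (z i) (z j) := by
  unfold Gen.K herm gen kk
  simp only [Jp_apply]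
  revert h
  fin_cases i <;> fin_cases j <;> intro h <;>
    first
      | exact absurd rfl h
      | (simp [Fin.sum_univ_five]; ring)

theorem gen_rot (i j : Fin 5) (h : i ≠ j) (θ : ℝ) (z : V) (k : Fin 5) :
    (gen i j h).rot θ z k =
      if k = i then (Real.cos θ : ℂ) * z i - (Real.sin θ : ℂ) * z j
      else if k = j then (Real.sin θ : ℂ) * z i + (Real.cos θ : ℂ) * z j else z k := by
  unfold Gen.rot gen
  simp only [Pi.add_apply, Pi.smul_apply, Jp_apply, Complex.real_smul]
  have h' : j ≠ i := fun e => h e.symm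
  by_cases hi : k = i
  · subst hi; simp [h']; ring
  · by_cases hj : k = j
    · subst hj; simp [hi]; ring
    · simp [hi, hj]

/-- antiderivative of arctan -/
noncomputable def Gf (y : ℝ) : ℝ := y * Real.arctan y - Real.log (1 + y ^ 2) / 2

theorem Gf_deriv (y : ℝ) : HasDerivAt Gf (Real.arctan y) y := by
  have h1 : HasDerivAt (fun y : ℝ => y * Real.arctan y) (1 * Real.arctan y + y * (1 / (1 + y ^ 2))) y :=
    (hasDerivAt_id y).mul (Real.hasDerivAt_arctan y)
  have h2 : HasDerivAt (fun y : ℝ => 1 + y ^ 2) (2 * y) y := by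
    have := ((hasDerivAt_id y).pow 2).const_add 1
    simpa using this
  have h3 : HasDerivAt (fun y : ℝ => Real.log (1 + y ^ 2) / 2) ((2 * y) / (1 + y ^ 2) / 2) y :=
    (h2.log (by positivity)).div_const 2
  have h4 := h1.sub h3
  have e : 1 * Real.arctan y + y * (1 / (1 + y ^ 2)) - (2 * y) / (1 + y ^ 2) / 2 =
      Real.arctan y := by
    have : (1 + y ^ 2) ≠ 0 := by positivity
    field_simp
    ring
  rw [e] at h4
  exact h4

theorem Gf_smooth : ContDiff ℝ (⊤ : ℕ∞) Gf := by
  unfold Gf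
  refine (contDiff_id.mul Real.contDiff_arctan).sub (ContDiff.div_const (ContDiff.log ?_ ?_) 2)
  · exact contDiff_const.add (contDiff_id.pow 2)
  · intro x; positivity

noncomputable def ρf (κ e f : ℝ) (x : ℝ) : ℝ := κ + 2 * Real.arctan (e + f * x)

noncomputable def χf (κ e f : ℝ) (x : ℝ) : ℝ := κ * x + 2 / f * Gf (e + f * x)

theorem ρf_smooth (κ e f : ℝ) : ContDiff ℝ (⊤ : ℕ∞) (ρf κ e f) := by
  unfold ρf
  exact contDiff_const.add (contDiff_const.mul
    (Real.contDiff_arctan.comp (contDiff_const.add (contDiff_const.mul contDiff_id))))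

theorem χf_smooth (κ e f : ℝ) : ContDiff ℝ (⊤ : ℕ∞) (χf κ e f) := by
  unfold χf
  exact (contDiff_const.mul contDiff_id).add (contDiff_const.mul
    (Gf_smooth.comp (contDiff_const.add (contDiff_const.mul contDiff_id))))

theorem χf_deriv (κ e f : ℝ) (hf : f ≠ 0) (x : ℝ) : HasDerivAt (χf κ e f) (ρf κ e f x) x := by
  have h1 : HasDerivAt (fun x : ℝ => e + f * x) f x := by
    simpa using ((hasDerivAt_id x).const_mul f).const_add e
  have h2 : HasDerivAt (fun x : ℝ => Gf (e + f * x)) (Real.arctan (e + f * x) * f) x :=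
    HasDerivAt.comp (h := fun x : ℝ => e + f * x) (h₂ := Gf) x (Gf_deriv (e + f * x)) h1
  have h3 : HasDerivAt (fun x : ℝ => κ * x) κ x := by
    simpa using (hasDerivAt_id x).const_mul κ
  have h4 := h3.add (h2.const_mul (2 / f))
  have e1 : κ + 2 / f * (Real.arctan (e + f * x) * f) = ρf κ e f x := by
    unfold ρf; field_simp
  rw [e1] at h4
  exact h4

noncomputable def blk (i j : Fin 5) (h : i ≠ j) (κ e f : ℝ) (hf : f ≠ 0) : Iso :=
  (gen i j h).block (χf κ e f) (ρf κ e f) (χf_smooth κ e f) (ρf_smooth κ e f) (χf_deriv κ e f hf)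

/-- The full isotopy. -/
noncomputable def FF (m : ℝ) (hm : m ≠ 0) : Iso :=
  (blk 0 1 (by decide) Real.pi (m / 2) m hm).comp
    ((blk 2 3 (by decide) Real.pi (m / 2) (-m) (neg_ne_zero.mpr hm)).comp
      ((blk 1 2 (by decide) 0 (m / 2) (-m) (neg_ne_zero.mpr hm)).comp
        (blk 0 3 (by decide) 0 (-m / 2) m hm)))

/-- cosine of twice the arctangent -/
noncomputable def Cc (y : ℝ) : ℝ := (1 - y ^ 2) / (1 + y ^ 2)
/-- sine of twice the arctangent -/
noncomputable def Ss (y : ℝ) : ℝ := 2 * y / (1 + y ^ 2)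

theorem cos_two_arctan (y : ℝ) : Real.cos (2 * Real.arctan y) = Cc y := by
  rw [Real.cos_two_mul, Real.cos_sq_arctan]
  unfold Cc
  have : (1 + y ^ 2) ≠ 0 := by positivity
  field_simp; ring

theorem sin_two_arctan (y : ℝ) : Real.sin (2 * Real.arctan y) = Ss y := by
  rw [Real.sin_two_mul]
  have h1 : Real.sin (Real.arctan y) = y * Real.cos (Real.arctan y) := by
    have hc : Real.cos (Real.arctan y) ≠ 0 := (Real.cos_arctan_pos y).ne'
    have := Real.tan_arctan y
    rw [Real.tan_eq_sin_div_cos] at this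
    field_simp at this
    linarith
  rw [h1]
  have h2 := Real.cos_sq_arctan y
  unfold Ss
  calc 2 * (y * Real.cos (Real.arctan y)) * Real.cos (Real.arctan y)
      = 2 * y * Real.cos (Real.arctan y) ^ 2 := by ring
    _ = 2 * y / (1 + y ^ 2) := by rw [h2]; ring

theorem Cc_Ss (y : ℝ) : Cc y ^ 2 + Ss y ^ 2 = 1 := by
  rw [← cos_two_arctan, ← sin_two_arctan]; exact Real.cos_sq_add_sin_sq _

/-- first half of the time-one map -/
noncomputable def Bm (m : ℝ) (z : V) : V := fun k =>
  if k = 0 then (Cc (-m / 2 + m * kk (z 0) (z 3)) : ℂ) * z 0 - (Ss (-m / 2 + m * kk (z 0) (z 3)) : ℂ) * z 3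
  else if k = 3 then (Ss (-m / 2 + m * kk (z 0) (z 3)) : ℂ) * z 0 + (Cc (-m / 2 + m * kk (z 0) (z 3)) : ℂ) * z 3
  else if k = 1 then (Cc (m / 2 - m * kk (z 1) (z 2)) : ℂ) * z 1 - (Ss (m / 2 - m * kk (z 1) (z 2)) : ℂ) * z 2
  else if k = 2 then (Ss (m / 2 - m * kk (z 1) (z 2)) : ℂ) * z 1 + (Cc (m / 2 - m * kk (z 1) (z 2)) : ℂ) * z 2
  else z k

/-- second half -/
noncomputable def Am (m : ℝ) (z : V) : V := fun k =>
  if k = 0 then -((Cc (m / 2 + m * kk (z 0) (z 1)) : ℂ) * z 0 - (Ss (m / 2 + m * kk (z 0) (z 1)) : ℂ) * z 1)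
  else if k = 1 then -((Ss (m / 2 + m * kk (z 0) (z 1)) : ℂ) * z 0 + (Cc (m / 2 + m * kk (z 0) (z 1)) : ℂ) * z 1)
  else if k = 2 then -((Cc (m / 2 - m * kk (z 2) (z 3)) : ℂ) * z 2 - (Ss (m / 2 - m * kk (z 2) (z 3)) : ℂ) * z 3)
  else if k = 3 then -((Ss (m / 2 - m * kk (z 2) (z 3)) : ℂ) * z 2 + (Cc (m / 2 - m * kk (z 2) (z 3)) : ℂ) * z 3)
  else z k

theorem blk_one (i j : Fin 5) (h : i ≠ j) (κ e f : ℝ) (hf : f ≠ 0) (z : V) (k : Fin 5) :
    (blk i j h κ e f hf).Ψ (1, z) k =
      if k = i then (Real.cos (κ + 2 * Real.arctan (e + f * kk (z i) (z j))) : ℂ) * z i -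
          (Real.sin (κ + 2 * Real.arctan (e + f * kk (z i) (z j))) : ℂ) * z j
      else if k = j then (Real.sin (κ + 2 * Real.arctan (e + f * kk (z i) (z j))) : ℂ) * z i +
          (Real.cos (κ + 2 * Real.arctan (e + f * kk (z i) (z j))) : ℂ) * z j else z k := by
  show (gen i j h).rot (1 * ρf κ e f ((gen i j h).K z)) z k = _
  rw [gen_rot, gen_K, one_mul]
  rfl

theorem Psi_one (m : ℝ) (hm : m ≠ 0) (z : V) : (FF m hm).Ψ (1, z) = Am m (Bm m z) := by
  have hB : (blk 1 2 (by decide) 0 (m / 2) (-m) (neg_ne_zero.mpr hm)).Ψ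
      (1, (blk 0 3 (by decide) 0 (-m / 2) m hm).Ψ (1, z)) = Bm m z := by
    funext k
    rw [blk_one]
    simp only [blk_one, Bm]
    simp only [zero_add, cos_two_arctan, sin_two_arctan]
    fin_cases k <;> simp [sub_eq_add_neg]
  have hA : ∀ w : V, (blk 0 1 (by decide) Real.pi (m / 2) m hm).Ψ
      (1, (blk 2 3 (by decide) Real.pi (m / 2) (-m) (neg_ne_zero.mpr hm)).Ψ (1, w)) = Am m w := by
    intro w
    have hcos : ∀ x, Real.cos (Real.pi + x) = - Real.cos x := by
      intro x; rw [add_comm, Real.cos_add_pi]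
    have hsin : ∀ x, Real.sin (Real.pi + x) = - Real.sin x := by
      intro x; rw [add_comm, Real.sin_add_pi]
    funext k
    rw [blk_one]
    simp only [blk_one, Am]
    simp only [hcos, hsin, cos_two_arctan, sin_two_arctan]
    fin_cases k <;> simp [sub_eq_add_neg] <;> ring
  show (blk 0 1 (by decide) Real.pi (m / 2) m hm).Ψ
      (1, (blk 2 3 (by decide) Real.pi (m / 2) (-m) (neg_ne_zero.mpr hm)).Ψ
      (1, (blk 1 2 (by decide) 0 (m / 2) (-m) (neg_ne_zero.mpr hm)).Ψ
      (1, (blk 0 3 (by decide) 0 (-m / 2) m hm).Ψ (1, z)))) = _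
  rw [hB, hA]

end Crest.Agent.Q316
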