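import Crest.Agent.Q316C

set_option autoImplicit false
open Crest.GeometryTopology.Quadric

namespace Crest.Agent.Q316

theorem kk_lin (p q r s : ℝ) (a b c d : ℂ) :
    kk ((p : ℂ) * a + (q : ℂ) * b) ((r : ℂ) * c + (s : ℂ) * d) =
      p * r * kk a c + p * s * kk a d + q * r * kk b c + q * s * kk b d := by
  simp [kk]; ring

theorem kk_mul (c a b : ℂ) : kk (c * a) (c * b) = (c.re ^ 2 + c.im ^ 2) * kk a b := by
  simp [kk]; ring

theorem kk_swap (a b : ℂ) : kk b a = - kk a b := by simp [kk]; ring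

theorem kk_self (a : ℂ) : kk a a = 0 := by simp [kk]; ring

theorem kk_le (a b : ℂ) : |kk a b| ≤ a.re ^ 2 + a.im ^ 2 + b.re ^ 2 + b.im ^ 2 := by
  unfold kk
  rw [abs_le]
  constructor
  · nlinarith [sq_nonneg (a.re + b.im), sq_nonneg (a.im - b.re)]
  · nlinarith [sq_nonneg (a.re - b.im), sq_nonneg (a.im + b.re)]

/-- The `K`-equations of a fixed point. -/
theorem core_eqs (z0 z1 z2 z3 w0 w1 w2 w3 c : ℂ) (hc : c.re ^ 2 + c.im ^ 2 = 1)
    (ca sa cb sb cg sg cd sd : ℝ) (ha : ca ^ 2 + sa ^ 2 = 1) (hb : cb ^ 2 + sb ^ 2 = 1)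
    (hw0 : w0 = cd * z0 - sd * z3) (hw3 : w3 = sd * z0 + cd * z3)
    (hw1 : w1 = cg * z1 - sg * z2) (hw2 : w2 = sg * z1 + cg * z2)
    (h0 : -(ca * w0 - sa * w1) = c * z0) (h1 : -(sa * w0 + ca * w1) = c * z1)
    (h2 : -(cb * w2 - sb * w3) = c * z2) (h3 : -(sb * w2 + cb * w3) = c * z3) :
    kk w0 w1 = kk z0 z1 ∧ kk w2 w3 = kk z2 z3 ∧
    (cd * cg * kk z0 z1 - cd * sg * kk z0 z2 + sd * cg * kk z1 z3 - sd * sg * kk z2 z3 = kk z0 z1) ∧
    (-(sg * sd) * kk z0 z1 + sg * cd * kk z1 z3 - cg * sd * kk z0 z2 + cg * cd * kk z2 z3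
      = kk z2 z3) ∧
    ((-(ca * sb)) * kk z0 z2 + ca * cb * kk z0 z3 - sa * sb * kk z1 z2 + sa * cb * kk z1 z3
      = (cd ^ 2 + sd ^ 2) * kk z0 z3) ∧
    ((-(sa * cb)) * kk z0 z2 - sa * sb * kk z0 z3 + ca * cb * kk z1 z2 + ca * sb * kk z1 z3
      = (cg ^ 2 + sg ^ 2) * kk z1 z2) ∧
    (cd * sg * kk z0 z1 + cd * cg * kk z0 z2 + sd * sg * kk z1 z3 + sd * cg * kk z2 z3 =
      ca * cb * kk z0 z2 + ca * sb * kk z0 z3 + sa * cb * kk z1 z2 + sa * sb * kk z1 z3) ∧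
    (-(cg * sd) * kk z0 z1 + cg * cd * kk z1 z3 + sg * sd * kk z0 z2 - sg * cd * kk z2 z3 =
      sa * sb * kk z0 z2 - sa * cb * kk z0 z3 - ca * sb * kk z1 z2 + ca * cb * kk z1 z3) := by
  have haC : (ca : ℂ) ^ 2 + (sa : ℂ) ^ 2 = 1 := by exact_mod_cast congrArg (fun x : ℝ => (x : ℂ)) ha
  have hbC : (cb : ℂ) ^ 2 + (sb : ℂ) ^ 2 = 1 := by exact_mod_cast congrArg (fun x : ℝ => (x : ℂ)) hb
  have a0 : w0 = c * (((-ca : ℝ) : ℂ) * z0 + ((-sa : ℝ) : ℂ) * z1) := by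
    push_cast; linear_combination (-w0) * haC - ca * h0 - sa * h1
  have a1 : w1 = c * (((sa : ℝ) : ℂ) * z0 + ((-ca : ℝ) : ℂ) * z1) := by
    push_cast; linear_combination (-w1) * haC + sa * h0 - ca * h1
  have a2 : w2 = c * (((-cb : ℝ) : ℂ) * z2 + ((-sb : ℝ) : ℂ) * z3) := by
    push_cast; linear_combination (-w2) * hbC - cb * h2 - sb * h3
  have a3 : w3 = c * (((sb : ℝ) : ℂ) * z2 + ((-cb : ℝ) : ℂ) * z3) := by
    push_cast; linear_combination (-w3) * hbC + sb * h2 - cb * h3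
  have b0 : w0 = ((cd : ℝ) : ℂ) * z0 + ((-sd : ℝ) : ℂ) * z3 := by rw [hw0]; push_cast; ring
  have b1 : w1 = ((cg : ℝ) : ℂ) * z1 + ((-sg : ℝ) : ℂ) * z2 := by rw [hw1]; push_cast; ring
  have A01 : kk w0 w1 = kk z0 z1 := by
    rw [a0, a1, kk_mul, kk_lin, hc, kk_self, kk_self, kk_swap z0 z1]
    linear_combination (kk z0 z1) * ha
  have A23 : kk w2 w3 = kk z2 z3 := by
    rw [a2, a3, kk_mul, kk_lin, hc, kk_self, kk_self, kk_swap z2 z3]
    linear_combination (kk z2 z3) * hb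
  have B01 : kk w0 w1 = cd * cg * kk z0 z1 - cd * sg * kk z0 z2 + sd * cg * kk z1 z3
      - sd * sg * kk z2 z3 := by
    rw [b0, b1, kk_lin, kk_swap z1 z3, kk_swap z2 z3]; ring
  have B23 : kk w2 w3 = -(sg * sd) * kk z0 z1 + sg * cd * kk z1 z3 - cg * sd * kk z0 z2
      + cg * cd * kk z2 z3 := by
    rw [hw2, hw3, kk_lin, kk_swap z0 z1, kk_swap z0 z2]; ring
  have B03 : kk w0 w3 = (cd ^ 2 + sd ^ 2) * kk z0 z3 := by
    rw [b0, hw3, kk_lin, kk_self, kk_self, kk_swap z0 z3]; ring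
  have A03 : kk w0 w3 = (-(ca * sb)) * kk z0 z2 + ca * cb * kk z0 z3 - sa * sb * kk z1 z2
      + sa * cb * kk z1 z3 := by
    rw [a0, a3, kk_mul, kk_lin, hc]; ring
  have B12 : kk w1 w2 = (cg ^ 2 + sg ^ 2) * kk z1 z2 := by
    rw [b1, hw2, kk_lin, kk_self, kk_self, kk_swap z1 z2]; ring
  have A12 : kk w1 w2 = (-(sa * cb)) * kk z0 z2 - sa * sb * kk z0 z3 + ca * cb * kk z1 z2
      + ca * sb * kk z1 z3 := by
    rw [a1, a2, kk_mul, kk_lin, hc]; ring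
  have B02 : kk w0 w2 = cd * sg * kk z0 z1 + cd * cg * kk z0 z2 + sd * sg * kk z1 z3
      + sd * cg * kk z2 z3 := by
    rw [b0, hw2, kk_lin, kk_swap z1 z3, kk_swap z2 z3]; ring
  have A02 : kk w0 w2 = ca * cb * kk z0 z2 + ca * sb * kk z0 z3 + sa * cb * kk z1 z2
      + sa * sb * kk z1 z3 := by
    rw [a0, a2, kk_mul, kk_lin, hc]; ring
  have B13 : kk w1 w3 = -(cg * sd) * kk z0 z1 + cg * cd * kk z1 z3 + sg * sd * kk z0 z2
      - sg * cd * kk z2 z3 := by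
    rw [b1, hw3, kk_lin, kk_swap z0 z1, kk_swap z0 z2]; ring
  have A13 : kk w1 w3 = sa * sb * kk z0 z2 - sa * cb * kk z0 z3 - ca * sb * kk z1 z2
      + ca * cb * kk z1 z3 := by
    rw [a1, a3, kk_mul, kk_lin, hc]; ring
  exact ⟨A01, A23, B01 ▸ A01, B23 ▸ A23, A03 ▸ B03, A12 ▸ B12, B02 ▸ A02, B13 ▸ A13⟩

/-- The triangle lemma. -/
theorem tri (x1 x2 x3 NB MB NA MA CB SB CA SA : ℝ) (hB : 0 < NB ^ 2 + MB ^ 2)
    (hA : 0 < NA ^ 2 + MA ^ 2)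
    (hCB : CB * (NB ^ 2 + MB ^ 2) = NB ^ 2 - MB ^ 2) (hSB : SB * (NB ^ 2 + MB ^ 2) = 2 * NB * MB)
    (hCA : CA * (NA ^ 2 + MA ^ 2) = NA ^ 2 - MA ^ 2) (hSA : SA * (NA ^ 2 + MA ^ 2) = 2 * NA * MA)
    (e1 : CB * x1 - SB * x2 = x1) (e3 : CA * x3 - SA * x2 = x3)
    (e2 : SB * x1 + CB * x2 = CA * x2 + SA * x3) :
    (MA = 0 ∧ MB = 0) ∨ (MB * x1 + NB * x2 = 0 ∧ MA * x3 + NA * x2 = 0) := by
  have f1 : MB * (MB * x1 + NB * x2) = 0 := by
    linear_combination (-1/2) * (NB ^ 2 + MB ^ 2) * e1 + (x1 / 2) * hCB - (x2 / 2) * hSB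
  have f3 : MA * (MA * x3 + NA * x2) = 0 := by
    linear_combination (-1/2) * (NA ^ 2 + MA ^ 2) * e3 + (x3 / 2) * hCA - (x2 / 2) * hSA
  have f2 : (NA ^ 2 + MA ^ 2) * (2 * NB * MB * x1 + (NB ^ 2 - MB ^ 2) * x2) =
      (NB ^ 2 + MB ^ 2) * ((NA ^ 2 - MA ^ 2) * x2 + 2 * NA * MA * x3) := by
    linear_combination (NA ^ 2 + MA ^ 2) * (NB ^ 2 + MB ^ 2) * e2
      - (NA ^ 2 + MA ^ 2) * x1 * hSB - (NA ^ 2 + MA ^ 2) * x2 * hCB
      + (NB ^ 2 + MB ^ 2) * x2 * hCA + (NB ^ 2 + MB ^ 2) * x3 * hSA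
  by_cases hMB : MB = 0
  · by_cases hMA : MA = 0
    · exact Or.inl ⟨hMA, hMB⟩
    · right
      subst hMB
      have hNB : NB ≠ 0 := by
        intro h; rw [h] at hB; simp at hB
      have g3 : MA * x3 + NA * x2 = 0 := (mul_eq_zero.mp f3).resolve_left hMA
      have g2 : MA * (MA * x2 - NA * x3) = 0 := by
        have h0 : NB ^ 2 ≠ 0 := pow_ne_zero 2 hNB
        have : NB ^ 2 * (2 * (MA * (MA * x2 - NA * x3))) = 0 := by linear_combination f2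
        have := (mul_eq_zero.mp this).resolve_left h0
        linarith
      have g2' : MA * x2 - NA * x3 = 0 := (mul_eq_zero.mp g2).resolve_left hMA
      have hx3 : (NA ^ 2 + MA ^ 2) * x3 = 0 := by linear_combination MA * g3 - NA * g2'
      have hx3' : x3 = 0 := (mul_eq_zero.mp hx3).resolve_left hA.ne'
      have hx2 : MA * x2 = 0 := by rw [hx3'] at g2'; linarith
      have hx2' : x2 = 0 := (mul_eq_zero.mp hx2).resolve_left hMA
      refine ⟨?_, g3⟩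
      rw [hx2']; ring
  · right
    have g1 : MB * x1 + NB * x2 = 0 := (mul_eq_zero.mp f1).resolve_left hMB
    by_cases hMA : MA = 0
    · subst hMA
      have hNA : NA ≠ 0 := by
        intro h; rw [h] at hA; simp at hA
      have g2 : MB * (NB * x1 - MB * x2) = 0 := by
        have h0 : NA ^ 2 ≠ 0 := pow_ne_zero 2 hNA
        have : NA ^ 2 * (2 * (MB * (NB * x1 - MB * x2))) = 0 := by linear_combination f2
        have := (mul_eq_zero.mp this).resolve_left h0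
        linarith
      have g2' : NB * x1 - MB * x2 = 0 := (mul_eq_zero.mp g2).resolve_left hMB
      have hx1 : (NB ^ 2 + MB ^ 2) * x2 = 0 := by linear_combination NB * g1 - MB * g2'
      have hx2' : x2 = 0 := (mul_eq_zero.mp hx1).resolve_left hB.ne'
      refine ⟨g1, ?_⟩
      rw [hx2']; ring
    · exact ⟨g1, (mul_eq_zero.mp f3).resolve_left hMA⟩

/-- Converse of the triangle lemma. -/
theorem tri' (x1 x2 x3 NB MB NA MA CB SB CA SA : ℝ) (hB : 0 < NB ^ 2 + MB ^ 2)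
    (hA : 0 < NA ^ 2 + MA ^ 2)
    (hCB : CB * (NB ^ 2 + MB ^ 2) = NB ^ 2 - MB ^ 2) (hSB : SB * (NB ^ 2 + MB ^ 2) = 2 * NB * MB)
    (hCA : CA * (NA ^ 2 + MA ^ 2) = NA ^ 2 - MA ^ 2) (hSA : SA * (NA ^ 2 + MA ^ 2) = 2 * NA * MA)
    (g1 : MB * x1 + NB * x2 = 0) (g3 : MA * x3 + NA * x2 = 0) :
    CB * x1 - SB * x2 = x1 ∧ CA * x3 - SA * x2 = x3 ∧ SB * x1 + CB * x2 = CA * x2 + SA * x3 := by
  refine ⟨?_, ?_, ?_⟩
  · have : (NB ^ 2 + MB ^ 2) * (CB * x1 - SB * x2 - x1) = 0 := by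
      linear_combination x1 * hCB - x2 * hSB - 2 * MB * g1
    have := (mul_eq_zero.mp this).resolve_left hB.ne'
    linarith
  · have : (NA ^ 2 + MA ^ 2) * (CA * x3 - SA * x2 - x3) = 0 := by
      linear_combination x3 * hCA - x2 * hSA - 2 * MA * g3
    have := (mul_eq_zero.mp this).resolve_left hA.ne'
    linarith
  · have h1 : (NB ^ 2 + MB ^ 2) * (SB * x1 + CB * x2 + x2) = 0 := by
      linear_combination x1 * hSB + x2 * hCB + 2 * NB * g1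
    have h1 := (mul_eq_zero.mp h1).resolve_left hB.ne'
    have h2 : (NA ^ 2 + MA ^ 2) * (SA * x3 + CA * x2 + x2) = 0 := by
      linear_combination x3 * hSA + x2 * hCA + 2 * NA * g3
    have h2 := (mul_eq_zero.mp h2).resolve_left hA.ne'
    linarith

end Crest.Agent.Q316
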