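import Crest.Agent.Q316D

set_option autoImplicit false

namespace Crest.Agent.Q316

theorem bnd (n x y : ℝ) (hn0 : 0 < n) (hn1 : n < 9 / 100) (hx0 : 0 ≤ x) (hx2 : x ≤ 2)
    (hy : y ^ 2 ≤ 1) :
    -(9 / 100) ≤ n * (x ^ 2 - y ^ 2) ∧ n * (x ^ 2 - y ^ 2) ≤ 36 / 100 := by
  have hx4 : x ^ 2 ≤ 4 := by nlinarith
  have h1 : -1 ≤ x ^ 2 - y ^ 2 := by nlinarith [sq_nonneg x]
  have h2 : x ^ 2 - y ^ 2 ≤ 4 := by nlinarith [sq_nonneg y]
  constructor
  · nlinarith [mul_nonneg hn0.le (by linarith : 0 ≤ x ^ 2 - y ^ 2 + 1)]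
  · nlinarith [mul_nonneg hn0.le (by linarith : 0 ≤ 4 - (x ^ 2 - y ^ 2))]

theorem uni (s u b : ℝ) (hU : s ^ 2 + u ^ 2 + (1 - b) ^ 2 = 1) :
    s ^ 2 ≤ 1 ∧ u ^ 2 ≤ 1 ∧ 0 ≤ b ∧ b ≤ 2 := by
  have h1 := sq_nonneg s
  have h2 := sq_nonneg u
  have h3 := sq_nonneg (1 - b)
  have hb1 : (1 - b) ^ 2 ≤ 1 := by linarith
  have := abs_le_of_sq_le_sq' (by simpa using hb1 : (1 - b) ^ 2 ≤ 1 ^ 2) zero_le_one
  exact ⟨by linarith, by linarith, by linarith [this.2], by linarith [this.1]⟩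

theorem brk (n a b p q u v : ℝ) (hn0 : 0 < n) (hn1 : n < 9 / 100)
    (ha0 : 0 ≤ a) (ha2 : a ≤ 2) (hb0 : 0 ≤ b) (hb2 : b ≤ 2) (hu1 : u ^ 2 ≤ 1) (hv1 : v ^ 2 ≤ 1)
    (hpl : -(9 / 100) ≤ p) (hpu : p ≤ 36 / 100) (hql : -(9 / 100) ≤ q) (hqu : q ≤ 36 / 100) :
    0 < 1 + q - n * (v * (u + v)) ∧ 0 < (1 - q ^ 2) * (1 + q - n * (v * (u + v))) -
        2 * n * (b * (a - 1) * (p + q)) * (1 + q) := by
  have h1q : 0 < 1 + q := by linarith
  have h1 : v * (u + v) ≤ 2 := by nlinarith [sq_nonneg (u - v)]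
  have h2 : n * (v * (u + v)) ≤ 9 / 50 := by
    by_cases h : 0 ≤ v * (u + v)
    · nlinarith
    · have : n * (v * (u + v)) ≤ 0 := mul_nonpos_of_nonneg_of_nonpos hn0.le (not_le.mp h).le
      linarith
  have h3 : q ^ 2 ≤ 13 / 100 := by nlinarith
  have h4 : b * (a - 1) * (p + q) ≤ 144 / 100 := by
    have hA : |a - 1| ≤ 1 := by rw [abs_le]; constructor <;> linarith
    have hB : |b| ≤ 2 := by rw [abs_le]; constructor <;> linarith
    have hC : |p + q| ≤ 72 / 100 := by rw [abs_le]; constructor <;> linarith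
    calc b * (a - 1) * (p + q) ≤ |b * (a - 1) * (p + q)| := le_abs_self _
      _ = |b| * |a - 1| * |p + q| := by rw [abs_mul, abs_mul]
      _ ≤ 2 * 1 * (72 / 100) := by
        apply mul_le_mul (mul_le_mul hB hA (abs_nonneg _) (by norm_num)) hC (abs_nonneg _)
          (by norm_num)
      _ = 144 / 100 := by norm_num
  have h5 : 2 * n * (b * (a - 1) * (p + q)) ≤ 26 / 100 := by
    by_cases h : 0 ≤ b * (a - 1) * (p + q)
    · nlinarith
    · have : n * (b * (a - 1) * (p + q)) ≤ 0 :=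
        mul_nonpos_of_nonneg_of_nonpos hn0.le (not_le.mp h).le
      linarith
  have h6 : 2 * n * (b * (a - 1) * (p + q)) * (1 + q) ≤ 26 / 100 * (1 + q) :=
    mul_le_mul_of_nonneg_right h5 h1q.le
  have h7 : 0 < 1 + q - n * (v * (u + v)) := by linarith
  have h8 : (87 / 100) * (1 + q - n * (v * (u + v))) ≤
      (1 - q ^ 2) * (1 + q - n * (v * (u + v))) :=
    mul_le_mul_of_nonneg_right (by linarith) h7.le
  exact ⟨h7, by linarith⟩

theorem same (m n s u a p : ℝ) (hn : n = 50 / 567) (hm : m ^ 2 = 4 * n) (hs : s ≠ 0)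
    (hp : p = n * (a ^ 2 - s ^ 2)) (ha0 : 0 ≤ a)
    (hU : s ^ 2 + u ^ 2 + (1 - a) ^ 2 = 1) (h1p : 0 < 1 + p) (h1p' : 0 < 1 - p)
    (E1 : (1 + p) * u = m * s ^ 2) (P' : s ^ 2 * (1 - p) = a * (a - 1) * (1 + p)) :
    a = 7 / 5 ∧ s ^ 2 = 7 / 10 ∧ 10 * u = 9 * m * s ^ 2 := by
  have hs2 : 0 < s ^ 2 := by positivity
  have ha1' : 1 < a := by
    by_contra hcon
    push Not at hcon
    have h1 : a * (a - 1) * (1 + p) ≤ 0 := by
      apply mul_nonpos_of_nonpos_of_nonneg _ h1p.le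
      exact mul_nonpos_of_nonneg_of_nonpos ha0 (by linarith)
    have h2 : 0 < s ^ 2 * (1 - p) := mul_pos hs2 h1p'
    linarith
  have hE : (1 + p) * (a ^ 2 - a + s ^ 2) = 2 * s ^ 2 := by
    linear_combination (-1 : ℝ) * P'
  have hE0 : 0 < a ^ 2 - a + s ^ 2 := by nlinarith
  have hN : (2 * a - a ^ 2 - s ^ 2) * (1 + p) ^ 2 = 4 * n * s ^ 4 := by
    have h2 : 2 * a - a ^ 2 - s ^ 2 = u ^ 2 := by linear_combination -hU
    rw [h2]
    calc u ^ 2 * (1 + p) ^ 2 = ((1 + p) * u) ^ 2 := by ring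
      _ = m ^ 2 * s ^ 4 := by rw [E1]; ring
      _ = _ := by rw [hm]
  have hN2 : 2 * a - a ^ 2 - s ^ 2 = n * (a ^ 2 - a + s ^ 2) ^ 2 := by
    have h : 4 * s ^ 4 * (2 * a - a ^ 2 - s ^ 2) =
        4 * s ^ 4 * (n * (a ^ 2 - a + s ^ 2) ^ 2) := by
      calc 4 * s ^ 4 * (2 * a - a ^ 2 - s ^ 2)
          = (2 * a - a ^ 2 - s ^ 2) * (2 * s ^ 2) ^ 2 := by ring
        _ = (2 * a - a ^ 2 - s ^ 2) * ((1 + p) * (a ^ 2 - a + s ^ 2)) ^ 2 := by rw [hE]
        _ = ((2 * a - a ^ 2 - s ^ 2) * (1 + p) ^ 2) * (a ^ 2 - a + s ^ 2) ^ 2 := by ring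
        _ = _ := by rw [hN]; ring
    exact mul_left_cancel₀ (by positivity) h
  have hstar : n * (a ^ 2 - s ^ 2) * (a ^ 2 - a + s ^ 2) = a - (a ^ 2 - s ^ 2) := by
    rw [← hp]; linear_combination hE
  have hD : a * (2 * s ^ 2 - a) = 0 := by
    linear_combination (-(a ^ 2 - s ^ 2)) * hN2 - (a ^ 2 - a + s ^ 2) * hstar
  have ha00 : a ≠ 0 := by linarith
  have hs2a : s ^ 2 = a / 2 := by
    have := (mul_eq_zero.mp hD).resolve_left ha00
    linarith
  have hcub : (a - 7 / 5) * (50 * a ^ 2 + 20 * a + 1215 / 2) = 0 := by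
    have h1 : n * (a ^ 2 - a / 2) ^ 2 = 3 / 2 * a - a ^ 2 := by
      rw [hs2a] at hN2; linear_combination -hN2
    rw [hn] at h1
    have h2 : a * ((a - 7 / 5) * (50 * a ^ 2 + 20 * a + 1215 / 2)) = 0 := by
      linear_combination 567 * h1
    exact (mul_eq_zero.mp h2).resolve_left ha00
  have ha : a = 7 / 5 := by
    have := (mul_eq_zero.mp hcub).resolve_right (by positivity)
    linarith
  refine ⟨ha, by rw [hs2a, ha]; norm_num, ?_⟩
  have hp9 : p = 1 / 9 := by rw [hp, hs2a, ha, hn]; norm_num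
  rw [hp9] at E1
  linear_combination 9 * E1

theorem opp (m n s u a p : ℝ) (hn0 : 0 < n) (hn1 : n < 9 / 100) (hm : m ^ 2 = 4 * n) (hs : s ≠ 0)
    (hp : p = n * (a ^ 2 - s ^ 2)) (ha0 : 0 ≤ a)
    (hU : s ^ 2 + u ^ 2 + (1 - a) ^ 2 = 1) (hpl : -(9 / 100) ≤ p) (h1p' : 0 < 1 - p)
    (E1 : (1 + p) * u = -(m * s ^ 2)) (P' : s ^ 2 * (1 - p) = a * (1 - a) * (1 + p)) :
    False := by
  have hs2 : 0 < s ^ 2 := by positivity
  have hs1 : s ^ 2 ≤ 1 := (uni s u a hU).1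
  have h1p : 0 < 1 + p := by linarith
  have ha1' : a < 1 := by
    by_contra hcon
    push Not at hcon
    have h1 : a * (1 - a) * (1 + p) ≤ 0 := by
      apply mul_nonpos_of_nonpos_of_nonneg _ h1p.le
      exact mul_nonpos_of_nonneg_of_nonpos ha0 (by linarith)
    have h2 : 0 < s ^ 2 * (1 - p) := mul_pos hs2 h1p'
    linarith
  have ha0' : 0 < a := by
    rcases ha0.lt_or_eq with h | h
    · exact h
    · exfalso
      have h2 : 0 < s ^ 2 * (1 - p) := mul_pos hs2 h1p'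
      rw [P', ← h] at h2
      simp at h2
  have hpn : p ≤ 9 / 100 := by
    have h1 : a ^ 2 - s ^ 2 ≤ 1 := by nlinarith
    rw [hp]; nlinarith [mul_nonneg hn0.le (by linarith : 0 ≤ 1 - (a ^ 2 - s ^ 2))]
  have h2 : 2 * a - a ^ 2 - s ^ 2 = u ^ 2 := by linear_combination -hU
  have h3 : u ^ 2 * (1 + p) ^ 2 = 4 * n * s ^ 4 := by
    calc u ^ 2 * (1 + p) ^ 2 = ((1 + p) * u) ^ 2 := by ring
      _ = m ^ 2 * s ^ 4 := by rw [E1]; ring
      _ = _ := by rw [hm]
  have hx : 0 ≤ a * (1 - a) := mul_nonneg ha0 (by linarith)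
  have h4 : s ^ 2 * (91 / 100) ≤ 109 / 100 * (a * (1 - a)) := by
    have e1 : s ^ 2 * (91 / 100) ≤ s ^ 2 * (1 - p) :=
      mul_le_mul_of_nonneg_left (by linarith) (sq_nonneg s)
    have e2 : a * (1 - a) * (1 + p) ≤ a * (1 - a) * (109 / 100) :=
      mul_le_mul_of_nonneg_left (by linarith) hx
    linarith
  have h5 : u ^ 2 * (91 / 100) ^ 2 ≤ 36 / 100 * s ^ 2 := by
    have hx : (91 / 100 : ℝ) ^ 2 ≤ (1 + p) ^ 2 := by
      apply pow_le_pow_left₀ (by norm_num); linarith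
    have hy : u ^ 2 * (91 / 100) ^ 2 ≤ u ^ 2 * (1 + p) ^ 2 :=
      mul_le_mul_of_nonneg_left hx (sq_nonneg u)
    have hz1 : s ^ 4 ≤ s ^ 2 := by
      calc s ^ 4 = s ^ 2 * s ^ 2 := by ring
        _ ≤ s ^ 2 * 1 := mul_le_mul_of_nonneg_left hs1 (sq_nonneg s)
        _ = s ^ 2 := by ring
    have hz : 4 * n * s ^ 4 ≤ 36 / 100 * s ^ 2 := by
      calc 4 * n * s ^ 4 ≤ 4 * n * s ^ 2 := mul_le_mul_of_nonneg_left hz1 (by linarith)
        _ ≤ 36 / 100 * s ^ 2 := mul_le_mul_of_nonneg_right (by linarith) (sq_nonneg s)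
    linarith
  have h7 := sq_nonneg a
  linarith

theorem alg (m n s u b t v a p q : ℝ) (hn : n = 50 / 567) (hm : m ^ 2 = 4 * n)
    (hp : p = n * (a ^ 2 - s ^ 2)) (hq : q = n * (b ^ 2 - t ^ 2))
    (hU : s ^ 2 + u ^ 2 + (1 - b) ^ 2 = 1) (hV : t ^ 2 + v ^ 2 + (1 - a) ^ 2 = 1)
    (E1 : -m * t * s + (1 + q) * u = 0) (E2 : m * a * (1 - b) + (1 - p) * u = 0)
    (E3 : m * b * (1 - a) + (1 - q) * v = 0) (E4 : -m * s * t + (1 + p) * v = 0) :
    (s = 0 ∧ u = 0 ∧ b = 0 ∧ t = 0 ∧ v = 0 ∧ a = 0) ∨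
    (a = 7 / 5 ∧ b = 7 / 5 ∧ t = s ∧ s ^ 2 = 7 / 10 ∧ v = u ∧ 10 * u = 9 * m * s ^ 2) := by
  have hn0 : 0 < n := by rw [hn]; norm_num
  have hn1 : n < 9 / 100 := by rw [hn]; norm_num
  have hm0 : m ≠ 0 := by
    intro h; rw [h] at hm; norm_num at hm; linarith
  obtain ⟨hs1, hu1, hb0, hb2⟩ := uni s u b hU
  obtain ⟨ht1, hv1, ha0, ha2⟩ := uni t v a hV
  obtain ⟨hpl, hpu⟩ := bnd n a s hn0 hn1 ha0 ha2 hs1
  obtain ⟨hql, hqu⟩ := bnd n b t hn0 hn1 hb0 hb2 ht1
  rw [← hp] at hpl hpu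
  rw [← hq] at hql hqu
  have h1p : 0 < 1 + p := by linarith
  have h1q : 0 < 1 + q := by linarith
  have h1p' : 0 < 1 - p := by linarith
  have h1q' : 0 < 1 - q := by linarith
  by_cases hst : s * t = 0
  · left
    have hu : u = 0 := by
      have : (1 + q) * u = 0 := by linear_combination E1 + m * hst
      exact (mul_eq_zero.mp this).resolve_left h1q.ne'
    have hv : v = 0 := by
      have : (1 + p) * v = 0 := by linear_combination E4 + m * hst
      exact (mul_eq_zero.mp this).resolve_left h1p.ne'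
    have e2 : a * (1 - b) = 0 := by
      have : m * (a * (1 - b)) = 0 := by rw [hu] at E2; linarith
      exact (mul_eq_zero.mp this).resolve_left hm0
    have e3 : b * (1 - a) = 0 := by
      have : m * (b * (1 - a)) = 0 := by rw [hv] at E3; linarith
      exact (mul_eq_zero.mp this).resolve_left hm0
    rcases mul_eq_zero.mp e2 with ha | hb
    · have hb : b = 0 := by rw [ha] at e3; linarith
      have hs : s ^ 2 = 0 := by rw [hu, hb] at hU; linarith
      have ht : t ^ 2 = 0 := by rw [hv, ha] at hV; linarith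
      exact ⟨(pow_eq_zero_iff two_ne_zero).mp hs, hu, hb,
        (pow_eq_zero_iff two_ne_zero).mp ht, hv, ha⟩
    · exfalso
      have hb' : b = 1 := by linarith
      have ha' : a = 1 := by rw [hb'] at e3; linarith
      have hs : s ^ 2 = 1 := by rw [hu, hb'] at hU; linarith
      have ht : t ^ 2 = 1 := by rw [hv, ha'] at hV; linarith
      have : (s * t) ^ 2 = 1 := by rw [mul_pow, hs, ht]; norm_num
      rw [hst] at this; norm_num at this
  · right
    have hs : s ≠ 0 := left_ne_zero_of_mul hst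
    have ht : t ≠ 0 := right_ne_zero_of_mul hst
    have P : s * t * (1 - p) + a * (1 - b) * (1 + q) = 0 := by
      have : m * (s * t * (1 - p) + a * (1 - b) * (1 + q)) = 0 := by
        linear_combination (1 + q) * E2 - (1 - p) * E1
      exact (mul_eq_zero.mp this).resolve_left hm0
    have Q : s * t * (1 - q) + b * (1 - a) * (1 + p) = 0 := by
      have : m * (s * t * (1 - q) + b * (1 - a) * (1 + p)) = 0 := by
        linear_combination (1 + p) * E3 - (1 - q) * E4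
      exact (mul_eq_zero.mp this).resolve_left hm0
    have X : (a - b) * (1 - q ^ 2) = b * (a - 1) * (p + q) * (p - q) := by
      linear_combination (1 - q) * P - (1 - p) * Q
    have huv : (u - v) * (1 + q) = v * (p - q) := by linear_combination E1 - E4
    have hpq : p - q = n * (2 * (a - b) + (u ^ 2 - v ^ 2)) := by
      rw [hp, hq]; linear_combination n * hV - n * hU
    have Y : (p - q) * (1 + q - n * (v * (u + v))) = 2 * n * (a - b) * (1 + q) := by
      linear_combination (1 + q) * hpq + n * (u + v) * huv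
    obtain ⟨hfac, hbr⟩ := brk n a b p q u v hn0 hn1 ha0 ha2 hb0 hb2 hu1 hv1 hpl hpu hql hqu
    have Z : (a - b) * ((1 - q ^ 2) * (1 + q - n * (v * (u + v))) -
        2 * n * (b * (a - 1) * (p + q)) * (1 + q)) = 0 := by
      linear_combination (1 + q - n * (v * (u + v))) * X + b * (a - 1) * (p + q) * Y
    have hab : a = b := by
      have := (mul_eq_zero.mp Z).resolve_right hbr.ne'
      linarith
    have hpq0 : p = q := by
      have : (p - q) * (1 + q - n * (v * (u + v))) = 0 := by rw [Y, hab]; ring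
      have := (mul_eq_zero.mp this).resolve_right hfac.ne'
      linarith
    have huv0 : u = v := by
      have : (u - v) * (1 + q) = 0 := by rw [huv, hpq0]; ring
      have := (mul_eq_zero.mp this).resolve_right h1q.ne'
      linarith
    have hst2 : s ^ 2 = t ^ 2 := by
      have h : n * (a ^ 2 - s ^ 2) = n * (b ^ 2 - t ^ 2) := by rw [← hp, ← hq, hpq0]
      have h' := mul_left_cancel₀ hn0.ne' h
      rw [hab] at h'; linarith
    subst hab
    subst hpq0
    subst huv0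
    rcases sq_eq_sq_iff_eq_or_eq_neg.mp hst2 with hts | hts
    · subst hts
      obtain ⟨r1, r2, r3⟩ := same m n s u a p hn hm hs hp ha0 hU h1p h1p'
        (by linear_combination E1) (by linear_combination P)
      exact ⟨r1, r1, rfl, r2, rfl, r3⟩
    · exfalso
      have hts' : t = -s := by linarith
      subst hts'
      exact opp m n s u a p hn0 hn1 hm hs hp ha0 hU hpl h1p'
        (by linear_combination E1) (by linear_combination -P)

end Crest.Agent.Q316
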