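import Crest.Agent.Q316E

set_option autoImplicit false
open Crest.GeometryTopology.Quadric

namespace Crest.Agent.Q316

theorem cone_xy (z : V) (hz : z ∈ unitCone) :
    ((z 0).re ^ 2 + (z 1).re ^ 2 + (z 2).re ^ 2 + (z 3).re ^ 2 + (z 4).re ^ 2 = 1 / 2) ∧
    ((z 0).im ^ 2 + (z 1).im ^ 2 + (z 2).im ^ 2 + (z 3).im ^ 2 + (z 4).im ^ 2 = 1 / 2) ∧
    ((z 0).re * (z 0).im + (z 1).re * (z 1).im + (z 2).re * (z 2).im + (z 3).re * (z 3).im +
      (z 4).re * (z 4).im = 0) := by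
  obtain ⟨h1, h2⟩ := hz
  have h1r := congrArg Complex.re h1
  have h2r := congrArg Complex.re h2
  have h2i := congrArg Complex.im h2
  simp [herm, Fin.sum_univ_five, sq] at h1r h2r h2i
  refine ⟨by linarith, by linarith, by linarith⟩

theorem cone_mk (z : V)
    (h1 : (z 0).re ^ 2 + (z 1).re ^ 2 + (z 2).re ^ 2 + (z 3).re ^ 2 + (z 4).re ^ 2 = 1 / 2)
    (h2 : (z 0).im ^ 2 + (z 1).im ^ 2 + (z 2).im ^ 2 + (z 3).im ^ 2 + (z 4).im ^ 2 = 1 / 2)
    (h3 : (z 0).re * (z 0).im + (z 1).re * (z 1).im + (z 2).re * (z 2).im + (z 3).re * (z 3).im +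
      (z 4).re * (z 4).im = 0) : z ∈ unitCone := by
  refine ⟨?_, ?_⟩
  · apply Complex.ext
    · simp [herm, Fin.sum_univ_five]; linarith
    · simp [herm, Fin.sum_univ_five]; ring
  · apply Complex.ext
    · simp [Fin.sum_univ_five, sq]; linarith
    · simp [Fin.sum_univ_five, sq]; linarith

/-- Two cone points with the same `K` data are proportional. -/
theorem K_lemma (z z' : V) (hz : z ∈ unitCone) (hz' : z' ∈ unitCone)
    (h : ∀ i j, kk (z i) (z j) = kk (z' i) (z' j)) : z' = herm z z' • z := by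
  have key : ∀ (x : V), x ∈ unitCone → ∀ i j, x i * starRingEnd ℂ (x j) =
      ⟨(1/2) * (kk (x i) (x 0) * kk (x j) (x 0) + kk (x i) (x 1) * kk (x j) (x 1) +
        kk (x i) (x 2) * kk (x j) (x 2) + kk (x i) (x 3) * kk (x j) (x 3) +
        kk (x i) (x 4) * kk (x j) (x 4)), -(1/2) * kk (x i) (x j)⟩ := by
    intro x hx i j
    obtain ⟨h1, h2, h3⟩ := cone_xy x hx
    apply Complex.ext
    · simp only [Complex.mul_re, Complex.conj_re, Complex.conj_im, kk]
      linear_combination (-2 * (x i).re * (x j).re) * h2 +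
        (2 * ((x i).re * (x j).im + (x i).im * (x j).re)) * h3 - (2 * (x i).im * (x j).im) * h1
    · simp only [Complex.mul_im, Complex.conj_re, Complex.conj_im, kk]
      ring
  have hij : ∀ i j, z i * starRingEnd ℂ (z j) = z' i * starRingEnd ℂ (z' j) := by
    intro i j
    rw [key z hz, key z' hz']
    simp only [h]
  have hn : ∑ j, starRingEnd ℂ (z' j) * z' j = 1 := hz'.1
  funext i
  show z' i = herm z z' * z i
  calc z' i = z' i * ∑ j, starRingEnd ℂ (z' j) * z' j := by rw [hn, mul_one]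
    _ = ∑ j, (z' i * starRingEnd ℂ (z' j)) * z' j := by
        rw [Finset.mul_sum]; exact Finset.sum_congr rfl fun j _ => by ring
    _ = ∑ j, (z i * starRingEnd ℂ (z j)) * z' j := by simp only [hij]
    _ = herm z z' * z i := by
        unfold herm; rw [Finset.sum_mul]; exact Finset.sum_congr rfl fun j _ => by ring

theorem kk_all (z z' : V) (h4 : z 4 = 0) (h4' : z' 4 = 0)
    (h01 : kk (z 0) (z 1) = kk (z' 0) (z' 1)) (h02 : kk (z 0) (z 2) = kk (z' 0) (z' 2))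
    (h03 : kk (z 0) (z 3) = kk (z' 0) (z' 3)) (h12 : kk (z 1) (z 2) = kk (z' 1) (z' 2))
    (h13 : kk (z 1) (z 3) = kk (z' 1) (z' 3)) (h23 : kk (z 2) (z 3) = kk (z' 2) (z' 3)) :
    ∀ i j, kk (z i) (z j) = kk (z' i) (z' j) := by
  have hz1 : ∀ a : ℂ, kk a 0 = 0 := by intro a; simp [kk]
  have hz2 : ∀ a : ℂ, kk 0 a = 0 := by intro a; simp [kk]
  have s10 := kk_swap (z 0) (z 1)
  have s20 := kk_swap (z 0) (z 2)
  have s30 := kk_swap (z 0) (z 3)
  have s21 := kk_swap (z 1) (z 2)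
  have s31 := kk_swap (z 1) (z 3)
  have s32 := kk_swap (z 2) (z 3)
  have s10' := kk_swap (z' 0) (z' 1)
  have s20' := kk_swap (z' 0) (z' 2)
  have s30' := kk_swap (z' 0) (z' 3)
  have s21' := kk_swap (z' 1) (z' 2)
  have s31' := kk_swap (z' 1) (z' 3)
  have s32' := kk_swap (z' 2) (z' 3)
  intro i j
  fin_cases i <;> fin_cases j <;>
    simp only [Fin.zero_eta, Fin.mk_one, Fin.reduceFinMk, h4, h4', hz1, hz2, kk_self] <;> linarith

theorem add_C (y y' : ℝ) : (Cc y * Cc y' - Ss y * Ss y') * ((1 - y * y') ^ 2 + (y + y') ^ 2) =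
    (1 - y * y') ^ 2 - (y + y') ^ 2 := by
  unfold Cc Ss
  have h1 : (1 + y ^ 2) ≠ 0 := by positivity
  have h2 : (1 + y' ^ 2) ≠ 0 := by positivity
  field_simp
  ring

theorem add_S (y y' : ℝ) : (Ss y * Cc y' + Cc y * Ss y') * ((1 - y * y') ^ 2 + (y + y') ^ 2) =
    2 * (1 - y * y') * (y + y') := by
  unfold Cc Ss
  have h1 : (1 + y ^ 2) ≠ 0 := by positivity
  have h2 : (1 + y' ^ 2) ≠ 0 := by positivity
  field_simp
  ring

theorem sub_C (y y' : ℝ) : (Cc y * Cc y' + Ss y * Ss y') * ((1 + y * y') ^ 2 + (y - y') ^ 2) =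
    (1 + y * y') ^ 2 - (y - y') ^ 2 := by
  unfold Cc Ss
  have h1 : (1 + y ^ 2) ≠ 0 := by positivity
  have h2 : (1 + y' ^ 2) ≠ 0 := by positivity
  field_simp
  ring

theorem sub_S (y y' : ℝ) : (Ss y * Cc y' - Cc y * Ss y') * ((1 + y * y') ^ 2 + (y - y') ^ 2) =
    2 * (1 + y * y') * (y - y') := by
  unfold Cc Ss
  have h1 : (1 + y ^ 2) ≠ 0 := by positivity
  have h2 : (1 + y' ^ 2) ≠ 0 := by positivity
  field_simp
  ring

theorem add_pos' (y y' : ℝ) : 0 < (1 - y * y') ^ 2 + (y + y') ^ 2 := by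
  have : (1 - y * y') ^ 2 + (y + y') ^ 2 = (1 + y ^ 2) * (1 + y' ^ 2) := by ring
  rw [this]; positivity

theorem sub_pos' (y y' : ℝ) : 0 < (1 + y * y') ^ 2 + (y - y') ^ 2 := by
  have : (1 + y * y') ^ 2 + (y - y') ^ 2 = (1 + y ^ 2) * (1 + y' ^ 2) := by ring
  rw [this]; positivity

/-- norm identities for the two factor spheres -/
theorem UVnorm (z : V) (hz : z ∈ unitCone) (h4 : z 4 = 0) :
    ((kk (z 2) (z 3) + kk (z 0) (z 1)) ^ 2 + (kk (z 0) (z 2) - kk (z 1) (z 3)) ^ 2 +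
      (kk (z 1) (z 2) + kk (z 0) (z 3)) ^ 2 = 1) ∧
    ((kk (z 1) (z 2) - kk (z 0) (z 3)) ^ 2 + (-kk (z 1) (z 3) - kk (z 0) (z 2)) ^ 2 +
      (kk (z 2) (z 3) - kk (z 0) (z 1)) ^ 2 = 1) := by
  obtain ⟨h1, h2, h3⟩ := cone_xy z hz
  rw [h4] at h1 h2 h3
  simp only [Complex.zero_re, Complex.zero_im] at h1 h2 h3
  unfold kk
  constructor
  · linear_combination
      (4 * ((z 0).im ^ 2 + (z 1).im ^ 2 + (z 2).im ^ 2 + (z 3).im ^ 2)) * h1 + 2 * h2 -
      (4 * ((z 0).re * (z 0).im + (z 1).re * (z 1).im + (z 2).re * (z 2).im +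
        (z 3).re * (z 3).im)) * h3
  · linear_combination
      (4 * ((z 0).im ^ 2 + (z 1).im ^ 2 + (z 2).im ^ 2 + (z 3).im ^ 2)) * h1 + 2 * h2 -
      (4 * ((z 0).re * (z 0).im + (z 1).re * (z 1).im + (z 2).re * (z 2).im +
        (z 3).re * (z 3).im)) * h3

theorem sq_add_zero {x y : ℝ} (h : x ^ 2 + y ^ 2 = 0) : x = 0 ∧ y = 0 := by
  have hx := sq_nonneg x
  have hy := sq_nonneg y
  have hx0 : x ^ 2 = 0 := by linarith
  have hy0 : y ^ 2 = 0 := by linarith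
  exact ⟨(pow_eq_zero_iff two_ne_zero).mp hx0, (pow_eq_zero_iff two_ne_zero).mp hy0⟩

theorem fin0 (k01 k02 k03 k12 k13 k23 : ℝ)
    (nU : (k23 + k01) ^ 2 + (k02 - k13) ^ 2 + (k12 + k03) ^ 2 = 1)
    (nV : (k12 - k03) ^ 2 + (-k13 - k02) ^ 2 + (k23 - k01) ^ 2 = 1)
    (h1 : 1 - (k23 - k01) = 0) (h2 : 1 - (k12 + k03) = 0) :
    (k01 = -1/2 ∧ k02 = 0 ∧ k03 = 1/2 ∧ k12 = 1/2 ∧ k13 = 0 ∧ k23 = 1/2) := by
  have ha : k23 - k01 = 1 := by linarith
  have hb : k12 + k03 = 1 := by linarith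
  rw [ha] at nV
  rw [hb] at nU
  obtain ⟨e1, e2⟩ := sq_add_zero (x := k12 - k03) (y := -k13 - k02) (by linarith)
  obtain ⟨e3, e4⟩ := sq_add_zero (x := k23 + k01) (y := k02 - k13) (by linarith)
  refine ⟨by linarith, by linarith, by linarith, by linarith, by linarith, by linarith⟩

set_option maxHeartbeats 1000000 in
/-- Consequences of the `K`-equations. -/
theorem char (z : V) (hz : z ∈ unitCone) (h4 : z 4 = 0) (m n : ℝ) (hn : n = 50 / 567)
    (hm : m ^ 2 = 4 * n) (c : ℂ) (hc : c.re ^ 2 + c.im ^ 2 = 1)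
    (hfix : Am m (Bm m z) = c • z) :
    (kk (z 0) (z 1) = -1/2 ∧ kk (z 0) (z 2) = 0 ∧ kk (z 0) (z 3) = 1/2 ∧ kk (z 1) (z 2) = 1/2 ∧
      kk (z 1) (z 3) = 0 ∧ kk (z 2) (z 3) = 1/2) ∨
    ∃ s u : ℝ, s ^ 2 = 7 / 10 ∧ 10 * u = 9 * m * s ^ 2 ∧
      (kk (z 0) (z 1) = (2/5 + s)/2 ∧ kk (z 0) (z 2) = 0 ∧ kk (z 0) (z 3) = -(2/5 + s)/2 ∧
      kk (z 1) (z 2) = (s - 2/5)/2 ∧ kk (z 1) (z 3) = -u ∧ kk (z 2) (z 3) = (s - 2/5)/2) := by
  set w := Bm m z with hw
  have g0 := congrFun hfix 0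
  have g1 := congrFun hfix 1
  have g2 := congrFun hfix 2
  have g3 := congrFun hfix 3
  simp [Am] at g0 g1 g2 g3
  have w0 : w 0 = (Cc (-m / 2 + m * kk (z 0) (z 3)) : ℂ) * z 0 - (Ss (-m / 2 + m * kk (z 0) (z 3)) : ℂ) * z 3 := by
    simp [hw, Bm]
  have w1 : w 1 = (Cc (m / 2 - m * kk (z 1) (z 2)) : ℂ) * z 1 - (Ss (m / 2 - m * kk (z 1) (z 2)) : ℂ) * z 2 := by
    simp [hw, Bm]
  have w2 : w 2 = (Ss (m / 2 - m * kk (z 1) (z 2)) : ℂ) * z 1 + (Cc (m / 2 - m * kk (z 1) (z 2)) : ℂ) * z 2 := by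
    simp [hw, Bm]
  have w3 : w 3 = (Ss (-m / 2 + m * kk (z 0) (z 3)) : ℂ) * z 0 + (Cc (-m / 2 + m * kk (z 0) (z 3)) : ℂ) * z 3 := by
    simp [hw, Bm]
  obtain ⟨A01, A23, e01, e23, e03, e12, e02, e13⟩ := core_eqs (z 0) (z 1) (z 2) (z 3) (w 0) (w 1)
    (w 2) (w 3) c hc (Cc (m / 2 + m * kk (w 0) (w 1))) (Ss (m / 2 + m * kk (w 0) (w 1)))
    (Cc (m / 2 - m * kk (w 2) (w 3))) (Ss (m / 2 - m * kk (w 2) (w 3)))
    (Cc (m / 2 - m * kk (z 1) (z 2))) (Ss (m / 2 - m * kk (z 1) (z 2)))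
    (Cc (-m / 2 + m * kk (z 0) (z 3))) (Ss (-m / 2 + m * kk (z 0) (z 3)))
    (Cc_Ss _) (Cc_Ss _) w0 w3 w1 w2 (by linear_combination g0) (by linear_combination g1)
    (by linear_combination g2) (by linear_combination g3)
  rw [A01, A23] at e03 e12 e02 e13
  rw [Cc_Ss, one_mul] at e03 e12
  clear w0 w1 w2 w3 g0 g1 g2 g3 hfix A01 A23
  clear_value w
  obtain ⟨nU, nV⟩ := UVnorm z hz h4
  set k01 := kk (z 0) (z 1) with hk01
  set k02 := kk (z 0) (z 2) with hk02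
  set k03 := kk (z 0) (z 3) with hk03
  set k12 := kk (z 1) (z 2) with hk12
  set k13 := kk (z 1) (z 3) with hk13
  set k23 := kk (z 2) (z 3) with hk23
  clear_value k01 k02 k03 k12 k13 k23
  have hm0 : m ≠ 0 := by
    intro h; rw [h, hn] at hm; norm_num at hm
  set ya := m / 2 + m * k01 with hya
  set yb := m / 2 - m * k23 with hyb
  set yg := m / 2 - m * k12 with hyg
  set yd := -m / 2 + m * k03 with hyd
  have triU := tri (k23 + k01) (k02 - k13) (k12 + k03) (1 - yg * yd) (yg + yd) (1 - ya * yb) (ya + yb)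
    (Cc yg * Cc yd - Ss yg * Ss yd) (Ss yg * Cc yd + Cc yg * Ss yd)
    (Cc ya * Cc yb - Ss ya * Ss yb) (Ss ya * Cc yb + Cc ya * Ss yb)
    (add_pos' _ _) (add_pos' _ _) (add_C _ _) (add_S _ _) (add_C _ _) (add_S _ _)
    (by linear_combination e01 + e23) (by linear_combination e03 + e12)
    (by linear_combination e02 - e13)
  have triV := tri (k23 - k01) (-k13 - k02) (k12 - k03) (1 + yg * yd) (yg - yd) (1 + yb * ya) (yb - ya)
    (Cc yg * Cc yd + Ss yg * Ss yd) (Ss yg * Cc yd - Cc yg * Ss yd)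
    (Cc yb * Cc ya + Ss yb * Ss ya) (Ss yb * Cc ya - Cc yb * Ss ya)
    (sub_pos' _ _) (sub_pos' _ _) (sub_C _ _) (sub_S _ _) (sub_C _ _) (sub_S _ _)
    (by linear_combination e23 - e01) (by linear_combination e12 - e03)
    (by linear_combination -e02 - e13)
  have hMB : yg + yd = -m * (k12 - k03) := by rw [hyg, hyd]; ring
  have hMA : ya + yb = m * (1 - (k23 - k01)) := by rw [hya, hyb]; ring
  have hMB' : yg - yd = m * (1 - (k12 + k03)) := by rw [hyg, hyd]; ring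
  have hMA' : yb - ya = -m * (k23 + k01) := by rw [hya, hyb]; ring
  have hp : ya * yb = n * ((1 - (k23 - k01)) ^ 2 - (k23 + k01) ^ 2) := by
    rw [hya, hyb]; linear_combination ((1/2 + k01) * (1/2 - k23)) * hm
  have hq : -(yg * yd) = n * ((1 - (k12 + k03)) ^ 2 - (k12 - k03) ^ 2) := by
    rw [hyg, hyd]; linear_combination ((1/2 - k12) * (1/2 - k03)) * hm
  have conv : ∀ x : ℝ, m * x = 0 → x = 0 := fun x hx => (mul_eq_zero.mp hx).resolve_left hm0
  -- the degenerate outcome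
  have degU : (1 - (k23 - k01) = 0 ∧ k12 - k03 = 0 ∧ 1 - (k12 + k03) = 0) ∨
      ((yg + yd) * (k23 + k01) + (1 - yg * yd) * (k02 - k13) = 0 ∧
        (ya + yb) * (k12 + k03) + (1 - ya * yb) * (k02 - k13) = 0) := by
    rcases triU with ⟨h1, h2⟩ | h
    · left
      rw [hMA] at h1
      rw [hMB] at h2
      have a0 := conv _ h1
      have t0 : k12 - k03 = 0 := conv _ (by linarith)
      have v0 : -k13 - k02 = 0 := by
        have : (-k13 - k02) ^ 2 = 0 := by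
          have ha : k23 - k01 = 1 := by linarith
          rw [t0, ha] at nV; linarith
        exact (pow_eq_zero_iff two_ne_zero).mp this
      refine ⟨a0, t0, ?_⟩
      rcases triV with ⟨h3, h4'⟩ | ⟨h3, h4'⟩
      · rw [hMB'] at h4'; exact conv _ h4'
      · rw [hMB', v0] at h3
        have ha : k23 - k01 = 1 := by linarith
        rw [ha] at h3
        exact conv _ (by linarith)
    · right; exact h
  have degV : (1 - (k12 + k03) = 0 ∧ k23 + k01 = 0 ∧ 1 - (k23 - k01) = 0) ∨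
      ((yg - yd) * (k23 - k01) + (1 + yg * yd) * (-k13 - k02) = 0 ∧
        (yb - ya) * (k12 - k03) + (1 + yb * ya) * (-k13 - k02) = 0) := by
    rcases triV with ⟨h1, h2⟩ | h
    · left
      rw [hMA'] at h1
      rw [hMB'] at h2
      have b0 := conv _ h2
      have s0 : k23 + k01 = 0 := conv _ (by linarith)
      have u0 : k02 - k13 = 0 := by
        have : (k02 - k13) ^ 2 = 0 := by
          have ha : k12 + k03 = 1 := by linarith
          rw [s0, ha] at nU; linarith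
        exact (pow_eq_zero_iff two_ne_zero).mp this
      refine ⟨b0, s0, ?_⟩
      rcases triU with ⟨h3, h4'⟩ | ⟨h3, h4'⟩
      · rw [hMA] at h3; exact conv _ h3
      · rw [hMA, u0] at h4'
        have ha : k12 + k03 = 1 := by linarith
        rw [ha] at h4'
        exact conv _ (by linarith)
    · right; exact h
  -- all degenerate cases give the point p0
  have fin0 := fin0 k01 k02 k03 k12 k13 k23 nU nV
  rcases degU with ⟨h1, _, h3⟩ | ⟨hE1, hE2⟩
  · exact Or.inl (fin0 h1 h3)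
  rcases degV with ⟨h1, _, h3⟩ | ⟨hE3, hE4⟩
  · exact Or.inl (fin0 h3 h1)
  have := alg m n (k23 + k01) (k02 - k13) (1 - (k12 + k03)) (k12 - k03) (-k13 - k02)
    (1 - (k23 - k01)) (ya * yb) (-(yg * yd)) hn hm hp hq
    (by linear_combination nU) (by linear_combination nV)
    (by rw [hMB] at hE1; linear_combination hE1)
    (by rw [hMA] at hE2; linear_combination hE2)
    (by rw [hMB'] at hE3; linear_combination hE3)
    (by rw [hMA'] at hE4; linear_combination hE4)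
  rcases this with ⟨r1, r2, r3, r4, r5, r6⟩ | ⟨r1, r2, r3, r4, r5, r6⟩
  · exact Or.inl (fin0 r6 r3)
  · right
    refine ⟨k23 + k01, k02 - k13, r4, r6, ?_, ?_, ?_, ?_, ?_, ?_⟩ <;> linarith

end Crest.Agent.Q316
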