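import Crest.Agent.Q316F

set_option autoImplicit false
open Crest.GeometryTopology.Quadric

namespace Crest.Agent.Q316

theorem Bm_zero (m : ℝ) (z : V) : Bm m z 0 = (Cc (-m / 2 + m * kk (z 0) (z 3)) : ℂ) * z 0 - (Ss (-m / 2 + m * kk (z 0) (z 3)) : ℂ) * z 3 := by simp [Bm]
theorem Bm_one (m : ℝ) (z : V) : Bm m z 1 = (Cc (m / 2 - m * kk (z 1) (z 2)) : ℂ) * z 1 - (Ss (m / 2 - m * kk (z 1) (z 2)) : ℂ) * z 2 := by simp [Bm]
theorem Bm_two (m : ℝ) (z : V) : Bm m z 2 = (Ss (m / 2 - m * kk (z 1) (z 2)) : ℂ) * z 1 + (Cc (m / 2 - m * kk (z 1) (z 2)) : ℂ) * z 2 := by simp [Bm]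
theorem Bm_three (m : ℝ) (z : V) : Bm m z 3 = (Ss (-m / 2 + m * kk (z 0) (z 3)) : ℂ) * z 0 + (Cc (-m / 2 + m * kk (z 0) (z 3)) : ℂ) * z 3 := by simp [Bm]
theorem Bm_four (m : ℝ) (z : V) : Bm m z 4 = z 4 := by simp [Bm]

theorem Am_zero (m : ℝ) (z : V) : Am m z 0 = -((Cc (m / 2 + m * kk (z 0) (z 1)) : ℂ) * z 0 - (Ss (m / 2 + m * kk (z 0) (z 1)) : ℂ) * z 1) := by simp [Am]
theorem Am_one (m : ℝ) (z : V) : Am m z 1 = -((Ss (m / 2 + m * kk (z 0) (z 1)) : ℂ) * z 0 + (Cc (m / 2 + m * kk (z 0) (z 1)) : ℂ) * z 1) := by simp [Am]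
theorem Am_two (m : ℝ) (z : V) : Am m z 2 = -((Cc (m / 2 - m * kk (z 2) (z 3)) : ℂ) * z 2 - (Ss (m / 2 - m * kk (z 2) (z 3)) : ℂ) * z 3) := by simp [Am]
theorem Am_three (m : ℝ) (z : V) : Am m z 3 = -((Ss (m / 2 - m * kk (z 2) (z 3)) : ℂ) * z 2 + (Cc (m / 2 - m * kk (z 2) (z 3)) : ℂ) * z 3) := by simp [Am]
theorem Am_four (m : ℝ) (z : V) : Am m z 4 = z 4 := by simp [Am]

/-- rotations of two pairs preserve the cone -/
theorem rot_cone (z w : V) (hz : z ∈ unitCone) (i j k l : Fin 5) (c s c' s' : ℝ)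
    (hc : c ^ 2 + s ^ 2 = 1) (hc' : c' ^ 2 + s' ^ 2 = 1)
    (hsum : ∀ f : Fin 5 → ℝ, f 0 + f 1 + f 2 + f 3 + f 4 = f i + f j + f k + f l + f 4)
    (hi : w i = (c : ℂ) * z i - (s : ℂ) * z j) (hj : w j = (s : ℂ) * z i + (c : ℂ) * z j)
    (hk : w k = (c' : ℂ) * z k - (s' : ℂ) * z l) (hl : w l = (s' : ℂ) * z k + (c' : ℂ) * z l)
    (h4 : w 4 = z 4) : w ∈ unitCone := by
  obtain ⟨h1, h2, h3⟩ := cone_xy z hz
  have f1 := hsum (fun a => (z a).re ^ 2)
  have f2 := hsum (fun a => (z a).im ^ 2)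
  have f3 := hsum (fun a => (z a).re * (z a).im)
  have g1 := hsum (fun a => (w a).re ^ 2)
  have g2 := hsum (fun a => (w a).im ^ 2)
  have g3 := hsum (fun a => (w a).re * (w a).im)
  apply cone_mk
  · rw [g1, hi, hj, hk, hl, h4]
    simp
    linear_combination h1 - f1 + ((z i).re ^ 2 + (z j).re ^ 2) * hc + ((z k).re ^ 2 + (z l).re ^ 2) * hc'
  · rw [g2, hi, hj, hk, hl, h4]
    simp
    linear_combination h2 - f2 + ((z i).im ^ 2 + (z j).im ^ 2) * hc + ((z k).im ^ 2 + (z l).im ^ 2) * hc'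
  · rw [g3, hi, hj, hk, hl, h4]
    simp
    linear_combination h3 - f3 + ((z i).re * (z i).im + (z j).re * (z j).im) * hc +
      ((z k).re * (z k).im + (z l).re * (z l).im) * hc'

theorem Bm_cone (m : ℝ) (z : V) (hz : z ∈ unitCone) : Bm m z ∈ unitCone := by
  refine rot_cone z (Bm m z) hz 0 3 1 2 _ _ _ _ (Cc_Ss _) (Cc_Ss _) ?_ (Bm_zero m z) (Bm_three m z)
    (Bm_one m z) (Bm_two m z) (Bm_four m z)
  intro f; ring

theorem normsq_le (z : V) (hz : z ∈ unitCone) :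
    (z 0).re ^ 2 + (z 0).im ^ 2 + ((z 1).re ^ 2 + (z 1).im ^ 2) + ((z 2).re ^ 2 + (z 2).im ^ 2) +
      ((z 3).re ^ 2 + (z 3).im ^ 2) ≤ 1 := by
  obtain ⟨h1, h2, h3⟩ := cone_xy z hz
  have := sq_nonneg (z 4).re
  have := sq_nonneg (z 4).im
  linarith

theorem Cc_pos (m k : ℝ) (hm : m ^ 2 = 200 / 567) (hk : |k| ≤ 1) (y : ℝ)
    (hy : y ^ 2 = m ^ 2 * (1 / 2 + k) ^ 2) : 0 < Cc y := by
  unfold Cc
  have hk1 := abs_le.mp hk
  have h1 : (1 / 2 + k) ^ 2 ≤ 9 / 4 := by nlinarith [hk1.1, hk1.2]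
  have h2 : y ^ 2 < 1 := by rw [hy, hm]; nlinarith
  apply div_pos (by linarith) (by positivity)

/-- no fixed point off the surface -/
theorem off (z : V) (hz : z ∈ unitCone) (m : ℝ) (hm : m ^ 2 = 200 / 567) (c : ℂ)
    (hfix : Am m (Bm m z) = c • z) : z 4 = 0 := by
  by_contra h4
  have hw := Bm_cone m z hz
  set w := Bm m z with hwdef
  have g4 := congrFun hfix 4
  rw [Am_four] at g4
  have w4 : w 4 = z 4 := Bm_four m z
  have hc1 : c = 1 := by
    rw [w4] at g4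
    have : c * z 4 = 1 * z 4 := by rw [one_mul]; exact g4.symm
    exact mul_right_cancel₀ h4 this
  have g0 := congrFun hfix 0
  have g1 := congrFun hfix 1
  have g2 := congrFun hfix 2
  have g3 := congrFun hfix 3
  rw [Am_zero] at g0
  rw [Am_one] at g1
  rw [Am_two] at g2
  rw [Am_three] at g3
  simp only [Pi.smul_apply, hc1, one_smul] at g0 g1 g2 g3
  have w0 : w 0 = _ := Bm_zero m z
  have w1 : w 1 = _ := Bm_one m z
  have w2 : w 2 = _ := Bm_two m z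
  have w3 : w 3 = _ := Bm_three m z
  have nz := normsq_le z hz
  have nw := normsq_le w hw
  have sqs : ∀ a : ℂ, 0 ≤ a.re ^ 2 + a.im ^ 2 := fun a => by positivity
  -- positivity of the cosines
  have cd : 0 < Cc (-m / 2 + m * kk (z 0) (z 3)) := by
    refine Cc_pos m (-kk (z 0) (z 3)) hm ?_ _ (by ring)
    rw [abs_neg]
    refine (kk_le _ _).trans ?_
    have := sqs (z 1); have := sqs (z 2); linarith
  have cg : 0 < Cc (m / 2 - m * kk (z 1) (z 2)) := by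
    refine Cc_pos m (-kk (z 1) (z 2)) hm ?_ _ (by ring)
    rw [abs_neg]
    refine (kk_le _ _).trans ?_
    have := sqs (z 0); have := sqs (z 3); linarith
  have ca : 0 < Cc (m / 2 + m * kk (w 0) (w 1)) := by
    refine Cc_pos m (kk (w 0) (w 1)) hm ?_ _ (by ring)
    refine (kk_le _ _).trans ?_
    have := sqs (w 2); have := sqs (w 3); linarith
  have cb : 0 < Cc (m / 2 - m * kk (w 2) (w 3)) := by
    refine Cc_pos m (-kk (w 2) (w 3)) hm ?_ _ (by ring)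
    rw [abs_neg]
    refine (kk_le _ _).trans ?_
    have := sqs (w 0); have := sqs (w 1); linarith
  have qa := Cc_Ss (m / 2 + m * kk (w 0) (w 1))
  have qb := Cc_Ss (m / 2 - m * kk (w 2) (w 3))
  generalize Cc (m / 2 + m * kk (w 0) (w 1)) = Ca at *
  generalize Ss (m / 2 + m * kk (w 0) (w 1)) = Sa at *
  generalize Cc (m / 2 - m * kk (w 2) (w 3)) = Cb at *
  generalize Ss (m / 2 - m * kk (w 2) (w 3)) = Sb at *
  generalize Cc (-m / 2 + m * kk (z 0) (z 3)) = Cd at *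
  generalize Ss (-m / 2 + m * kk (z 0) (z 3)) = Sd at *
  generalize Cc (m / 2 - m * kk (z 1) (z 2)) = Cg at *
  generalize Ss (m / 2 - m * kk (z 1) (z 2)) = Sg at *
  have r0 := congrArg Complex.re g0
  have i0 := congrArg Complex.im g0
  have r1 := congrArg Complex.re g1
  have i1 := congrArg Complex.im g1
  have r2 := congrArg Complex.re g2
  have i2 := congrArg Complex.im g2
  have r3 := congrArg Complex.re g3
  have i3 := congrArg Complex.im g3
  have a0 := congrArg Complex.re w0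
  have b0 := congrArg Complex.im w0
  have a1 := congrArg Complex.re w1
  have b1 := congrArg Complex.im w1
  have a2 := congrArg Complex.re w2
  have b2 := congrArg Complex.im w2
  have a3 := congrArg Complex.re w3
  have b3 := congrArg Complex.im w3
  simp at r0 i0 r1 i1 r2 i2 r3 i3 a0 b0 a1 b1 a2 b2 a3 b3
  -- w in terms of z by inverting
  have p0 : (w 0).re = -(Ca * (z 0).re + Sa * (z 1).re) := by
    linear_combination (-(w 0).re) * qa - Ca * r0 - Sa * r1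
  have p0' : (w 0).im = -(Ca * (z 0).im + Sa * (z 1).im) := by
    linear_combination (-(w 0).im) * qa - Ca * i0 - Sa * i1
  have p1 : (w 1).re = -(-Sa * (z 0).re + Ca * (z 1).re) := by
    linear_combination (-(w 1).re) * qa + Sa * r0 - Ca * r1
  have p1' : (w 1).im = -(-Sa * (z 0).im + Ca * (z 1).im) := by
    linear_combination (-(w 1).im) * qa + Sa * i0 - Ca * i1
  have p2 : (w 2).re = -(Cb * (z 2).re + Sb * (z 3).re) := by
    linear_combination (-(w 2).re) * qb - Cb * r2 - Sb * r3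
  have p2' : (w 2).im = -(Cb * (z 2).im + Sb * (z 3).im) := by
    linear_combination (-(w 2).im) * qb - Cb * i2 - Sb * i3
  have p3 : (w 3).re = -(-Sb * (z 2).re + Cb * (z 3).re) := by
    linear_combination (-(w 3).re) * qb + Sb * r2 - Cb * r3
  have p3' : (w 3).im = -(-Sb * (z 2).im + Cb * (z 3).im) := by
    linear_combination (-(w 3).im) * qb + Sb * i2 - Cb * i3
  have key : Cd * ((z 0).re ^ 2 + (z 0).im ^ 2 + ((z 3).re ^ 2 + (z 3).im ^ 2)) +
      Cg * ((z 1).re ^ 2 + (z 1).im ^ 2 + ((z 2).re ^ 2 + (z 2).im ^ 2)) +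
      Ca * ((z 0).re ^ 2 + (z 0).im ^ 2 + ((z 1).re ^ 2 + (z 1).im ^ 2)) +
      Cb * ((z 2).re ^ 2 + (z 2).im ^ 2 + ((z 3).re ^ 2 + (z 3).im ^ 2)) = 0 := by
    linear_combination (z 0).re * (p0 - a0) + (z 0).im * (p0' - b0) + (z 1).re * (p1 - a1) +
      (z 1).im * (p1' - b1) + (z 2).re * (p2 - a2) + (z 2).im * (p2' - b2) +
      (z 3).re * (p3 - a3) + (z 3).im * (p3' - b3)
  have s0 := sqs (z 0)
  have s1 := sqs (z 1)
  have s2 := sqs (z 2)
  have s3 := sqs (z 3)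
  have t1 := mul_nonneg cd.le (add_nonneg s0 s3)
  have t2 := mul_nonneg cg.le (add_nonneg s1 s2)
  have t3 := mul_nonneg ca.le (add_nonneg s0 s1)
  have t4 := mul_nonneg cb.le (add_nonneg s2 s3)
  have u1 : (z 0).re ^ 2 + (z 0).im ^ 2 + ((z 3).re ^ 2 + (z 3).im ^ 2) = 0 := by
    have : Cd * ((z 0).re ^ 2 + (z 0).im ^ 2 + ((z 3).re ^ 2 + (z 3).im ^ 2)) = 0 := by linarith
    exact (mul_eq_zero.mp this).resolve_left cd.ne'
  have u2 : (z 1).re ^ 2 + (z 1).im ^ 2 + ((z 2).re ^ 2 + (z 2).im ^ 2) = 0 := by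
    have : Cg * ((z 1).re ^ 2 + (z 1).im ^ 2 + ((z 2).re ^ 2 + (z 2).im ^ 2)) = 0 := by linarith
    exact (mul_eq_zero.mp this).resolve_left cg.ne'
  obtain ⟨k1, k2, k3⟩ := cone_xy z hz
  have v : ∀ j : Fin 5, 0 ≤ (z j).re ^ 2 ∧ 0 ≤ (z j).im ^ 2 := fun j => ⟨sq_nonneg _, sq_nonneg _⟩
  have zr : ∀ x : ℝ, x ^ 2 = 0 → x = 0 := fun x hx => (pow_eq_zero_iff two_ne_zero).mp hx
  have c0 := v 0
  have c1 := v 1
  have c2 := v 2
  have c3 := v 3
  have y0 := zr _ (by linarith : (z 0).re ^ 2 = 0)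
  have y1 := zr _ (by linarith : (z 1).re ^ 2 = 0)
  have y2 := zr _ (by linarith : (z 2).re ^ 2 = 0)
  have y3 := zr _ (by linarith : (z 3).re ^ 2 = 0)
  have x0 := zr _ (by linarith : (z 0).im ^ 2 = 0)
  have x1 := zr _ (by linarith : (z 1).im ^ 2 = 0)
  have x2 := zr _ (by linarith : (z 2).im ^ 2 = 0)
  have x3 := zr _ (by linarith : (z 3).im ^ 2 = 0)
  rw [y0, y1, y2, y3] at k1
  rw [x0, x1, x2, x3] at k2
  rw [y0, y1, y2, y3] at k3
  have e1 : (z 4).re ^ 2 = 1 / 2 := by linarith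
  have e2 : (z 4).im ^ 2 = 1 / 2 := by linarith
  have e3 : (z 4).re * (z 4).im = 0 := by linarith
  have : ((z 4).re * (z 4).im) ^ 2 = 1 / 4 := by rw [mul_pow, e1, e2]; norm_num
  rw [e3] at this
  norm_num at this

end Crest.Agent.Q316
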