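import Crest.Agent.Q316G

set_option autoImplicit false
open Crest.GeometryTopology.Quadric

namespace Crest.Agent.Q316

set_option maxHeartbeats 1000000 in
theorem exist (z : V) (hz : z ∈ unitCone) (h4 : z 4 = 0) (m : ℝ) (ya yb yg yd : ℝ)
    (hya : ya = m / 2 + m * kk (z 0) (z 1)) (hyb : yb = m / 2 - m * kk (z 2) (z 3))
    (hyg : yg = m / 2 - m * kk (z 1) (z 2)) (hyd : yd = -m / 2 + m * kk (z 0) (z 3))
    (E1 : (yg + yd) * (kk (z 2) (z 3) + kk (z 0) (z 1)) +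
      (1 - yg * yd) * (kk (z 0) (z 2) - kk (z 1) (z 3)) = 0)
    (E2 : (ya + yb) * (kk (z 1) (z 2) + kk (z 0) (z 3)) +
      (1 - ya * yb) * (kk (z 0) (z 2) - kk (z 1) (z 3)) = 0)
    (E3 : (yg - yd) * (kk (z 2) (z 3) - kk (z 0) (z 1)) +
      (1 + yg * yd) * (-kk (z 1) (z 3) - kk (z 0) (z 2)) = 0)
    (E4 : (yb - ya) * (kk (z 1) (z 2) - kk (z 0) (z 3)) +
      (1 + yb * ya) * (-kk (z 1) (z 3) - kk (z 0) (z 2)) = 0) :
    ∃ c : ℂ, Am m (Bm m z) = c • z := by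
  have hw := Bm_cone m z hz
  have w0 := Bm_zero m z
  have w1 := Bm_one m z
  have w2 := Bm_two m z
  have w3 := Bm_three m z
  have w4 := Bm_four m z
  rw [← hyd] at w0 w3
  rw [← hyg] at w1 w2
  set w := Bm m z with hwdef
  clear_value w
  let w' : V := ![(Cc ya : ℂ) * z 0 - ((-Ss ya : ℝ) : ℂ) * z 1,
    ((-Ss ya : ℝ) : ℂ) * z 0 + (Cc ya : ℂ) * z 1,
    (Cc yb : ℂ) * z 2 - ((-Ss yb : ℝ) : ℂ) * z 3,
    ((-Ss yb : ℝ) : ℂ) * z 2 + (Cc yb : ℂ) * z 3, z 4]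
  have v0 : w' 0 = (Cc ya : ℂ) * z 0 - ((-Ss ya : ℝ) : ℂ) * z 1 := rfl
  have v1 : w' 1 = ((-Ss ya : ℝ) : ℂ) * z 0 + (Cc ya : ℂ) * z 1 := rfl
  have v2 : w' 2 = (Cc yb : ℂ) * z 2 - ((-Ss yb : ℝ) : ℂ) * z 3 := rfl
  have v3 : w' 3 = ((-Ss yb : ℝ) : ℂ) * z 2 + (Cc yb : ℂ) * z 3 := rfl
  have v4 : w' 4 = z 4 := rfl
  clear_value w'
  have qa := Cc_Ss ya
  have qb := Cc_Ss yb
  have qg := Cc_Ss yg
  have qd := Cc_Ss yd
  have hw' : w' ∈ unitCone := by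
    refine rot_cone z w' hz 0 1 2 3 _ _ _ _ ?_ ?_ ?_ v0 v1 v2 v3 v4
    · rw [neg_sq]; exact qa
    · rw [neg_sq]; exact qb
    · intro f; ring
  obtain ⟨e1U, e3U, e2U⟩ := tri' (kk (z 2) (z 3) + kk (z 0) (z 1)) (kk (z 0) (z 2) - kk (z 1) (z 3))
    (kk (z 1) (z 2) + kk (z 0) (z 3)) (1 - yg * yd) (yg + yd) (1 - ya * yb) (ya + yb)
    (Cc yg * Cc yd - Ss yg * Ss yd) (Ss yg * Cc yd + Cc yg * Ss yd)
    (Cc ya * Cc yb - Ss ya * Ss yb) (Ss ya * Cc yb + Cc ya * Ss yb)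
    (add_pos' _ _) (add_pos' _ _) (add_C _ _) (add_S _ _) (add_C _ _) (add_S _ _) E1 E2
  obtain ⟨e1V, e3V, e2V⟩ := tri' (kk (z 2) (z 3) - kk (z 0) (z 1)) (-kk (z 1) (z 3) - kk (z 0) (z 2))
    (kk (z 1) (z 2) - kk (z 0) (z 3)) (1 + yg * yd) (yg - yd) (1 + yb * ya) (yb - ya)
    (Cc yg * Cc yd + Ss yg * Ss yd) (Ss yg * Cc yd - Cc yg * Ss yd)
    (Cc yb * Cc ya + Ss yb * Ss ya) (Ss yb * Cc ya - Cc yb * Ss ya)
    (sub_pos' _ _) (sub_pos' _ _) (sub_C _ _) (sub_S _ _) (sub_C _ _) (sub_S _ _) E3 E4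
  have b0 : w 0 = ((Cc yd : ℝ) : ℂ) * z 0 + ((-Ss yd : ℝ) : ℂ) * z 3 := by
    rw [w0]; push_cast; ring
  have b1 : w 1 = ((Cc yg : ℝ) : ℂ) * z 1 + ((-Ss yg : ℝ) : ℂ) * z 2 := by
    rw [w1]; push_cast; ring
  have a0 : w' 0 = ((Cc ya : ℝ) : ℂ) * z 0 + ((Ss ya : ℝ) : ℂ) * z 1 := by
    rw [v0]; push_cast; ring
  have a2 : w' 2 = ((Cc yb : ℝ) : ℂ) * z 2 + ((Ss yb : ℝ) : ℂ) * z 3 := by
    rw [v2]; push_cast; ring
  have A01 : kk (w' 0) (w' 1) = kk (z 0) (z 1) := by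
    rw [a0, v1, kk_lin, kk_self, kk_self, kk_swap (z 0) (z 1)]
    linear_combination (kk (z 0) (z 1)) * qa
  have B01 : kk (w 0) (w 1) = kk (z 0) (z 1) := by
    rw [b0, b1, kk_lin, kk_swap (z 1) (z 3), kk_swap (z 2) (z 3)]
    linear_combination (1 / 2) * e1U - (1 / 2) * e1V
  have A23 : kk (w' 2) (w' 3) = kk (z 2) (z 3) := by
    rw [a2, v3, kk_lin, kk_self, kk_self, kk_swap (z 2) (z 3)]
    linear_combination (kk (z 2) (z 3)) * qb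
  have B23 : kk (w 2) (w 3) = kk (z 2) (z 3) := by
    rw [w2, w3, kk_lin, kk_swap (z 0) (z 1), kk_swap (z 0) (z 2)]
    linear_combination (1 / 2) * e1U + (1 / 2) * e1V
  have B03 : kk (w 0) (w 3) = kk (z 0) (z 3) := by
    rw [b0, w3, kk_lin, kk_self, kk_self, kk_swap (z 0) (z 3)]
    linear_combination (kk (z 0) (z 3)) * qd
  have A03 : kk (w' 0) (w' 3) = kk (z 0) (z 3) := by
    rw [a0, v3, kk_lin]
    linear_combination (1 / 2) * e3U - (1 / 2) * e3V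
  have B12 : kk (w 1) (w 2) = kk (z 1) (z 2) := by
    rw [b1, w2, kk_lin, kk_self, kk_self, kk_swap (z 1) (z 2)]
    linear_combination (kk (z 1) (z 2)) * qg
  have A12 : kk (w' 1) (w' 2) = kk (z 1) (z 2) := by
    rw [v1, a2, kk_lin]
    linear_combination (1 / 2) * e3U + (1 / 2) * e3V
  have AB02 : kk (w 0) (w 2) = kk (w' 0) (w' 2) := by
    rw [b0, w2, a0, a2, kk_lin, kk_lin, kk_swap (z 1) (z 3), kk_swap (z 2) (z 3)]
    linear_combination (1 / 2) * e2U - (1 / 2) * e2V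
  have AB13 : kk (w 1) (w 3) = kk (w' 1) (w' 3) := by
    rw [b1, w3, v1, v3, kk_lin, kk_lin, kk_swap (z 0) (z 1), kk_swap (z 0) (z 2)]
    linear_combination (-1 / 2) * e2U - (1 / 2) * e2V
  have hK := kk_all w w' (by rw [w4, h4]) (by rw [v4, h4]) (by rw [A01, B01]) AB02
    (by rw [A03, B03]) (by rw [A12, B12]) AB13 (by rw [A23, B23])
  have hd := K_lemma w w' hw hw' hK
  set d := herm w w' with hddef
  have hd0 : d ≠ 0 := by
    intro h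
    rw [h, zero_smul] at hd
    have := hw'.1
    rw [hd] at this
    simp [herm] at this
  have hA : d • Am m w = -z := by
    have d0 : d * w 0 = w' 0 := by rw [hd]; rfl
    have d1 : d * w 1 = w' 1 := by rw [hd]; rfl
    have d2 : d * w 2 = w' 2 := by rw [hd]; rfl
    have d3 : d * w 3 = w' 3 := by rw [hd]; rfl
    have qaC : (Cc ya : ℂ) ^ 2 + (Ss ya : ℂ) ^ 2 = 1 := by
      exact_mod_cast congrArg (fun x : ℝ => (x : ℂ)) qa
    have qbC : (Cc yb : ℂ) ^ 2 + (Ss yb : ℂ) ^ 2 = 1 := by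
      exact_mod_cast congrArg (fun x : ℝ => (x : ℂ)) qb
    push_cast at v0 v1 v2 v3
    funext k
    fin_cases k
    · show d * Am m w 0 = -z 0
      rw [Am_zero, B01, ← hya]
      linear_combination (-(Cc ya : ℂ)) * (d0 + v0) + (Ss ya : ℂ) * (d1 + v1) - z 0 * qaC
    · show d * Am m w 1 = -z 1
      rw [Am_one, B01, ← hya]
      linear_combination (-(Ss ya : ℂ)) * (d0 + v0) - (Cc ya : ℂ) * (d1 + v1) - z 1 * qaC
    · show d * Am m w 2 = -z 2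
      rw [Am_two, B23, ← hyb]
      linear_combination (-(Cc yb : ℂ)) * (d2 + v2) + (Ss yb : ℂ) * (d3 + v3) - z 2 * qbC
    · show d * Am m w 3 = -z 3
      rw [Am_three, B23, ← hyb]
      linear_combination (-(Ss yb : ℂ)) * (d2 + v2) - (Cc yb : ℂ) * (d3 + v3) - z 3 * qbC
    · show d * Am m w 4 = -z 4
      rw [Am_four, w4, h4]; simp
  refine ⟨-d⁻¹, ?_⟩
  have : Am m w = d⁻¹ • (d • Am m w) := by rw [smul_smul, inv_mul_cancel₀ hd0, one_smul]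
  rw [this, hA, smul_neg, neg_smul]

/-- the degenerate fixed point -/
noncomputable def zp : V := ![1 / 2, -Complex.I / 2, 1 / 2, Complex.I / 2, 0]

/-- the other two -/
noncomputable def zs (s κ : ℝ) : V :=
  ![((2 / 5 + s) / 2 : ℝ), ⟨κ / 2, 1 / 2⟩, ((2 / 5 - s) / 2 : ℝ), ⟨κ / 2, -1 / 2⟩, 0]

theorem zp_cone : zp ∈ unitCone := by
  apply cone_mk <;> simp [zp] <;> norm_num

theorem zs_cone (s κ : ℝ) (hs : s ^ 2 = 7 / 10) (hκ : κ ^ 2 = 7 / 50) : zs s κ ∈ unitCone := by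
  apply cone_mk
  · simp only [zs, Matrix.cons_val_zero, Matrix.cons_val_one, Matrix.cons_val, Complex.ofReal_re,
      Complex.zero_re]
    linear_combination (1 / 2) * hs + (1 / 2) * hκ
  · simp only [zs, Matrix.cons_val_zero, Matrix.cons_val_one, Matrix.cons_val, Complex.ofReal_im,
      Complex.zero_im]
    norm_num
  · simp only [zs, Matrix.cons_val_zero, Matrix.cons_val_one, Matrix.cons_val, Complex.ofReal_im,
      Complex.ofReal_re, Complex.zero_im, Complex.zero_re]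
    ring

theorem zp_K : kk (zp 0) (zp 1) = -1/2 ∧ kk (zp 0) (zp 2) = 0 ∧ kk (zp 0) (zp 3) = 1/2 ∧
    kk (zp 1) (zp 2) = 1/2 ∧ kk (zp 1) (zp 3) = 0 ∧ kk (zp 2) (zp 3) = 1/2 := by
  refine ⟨?_, ?_, ?_, ?_, ?_, ?_⟩ <;> simp [zp, kk] <;> norm_num

theorem zs_K (s κ : ℝ) : kk (zs s κ 0) (zs s κ 1) = (2/5 + s)/2 ∧ kk (zs s κ 0) (zs s κ 2) = 0 ∧
    kk (zs s κ 0) (zs s κ 3) = -(2/5 + s)/2 ∧
    kk (zs s κ 1) (zs s κ 2) = (s - 2/5)/2 ∧ kk (zs s κ 1) (zs s κ 3) = -κ ∧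
    kk (zs s κ 2) (zs s κ 3) = (s - 2/5)/2 := by
  refine ⟨?_, ?_, ?_, ?_, ?_, ?_⟩ <;> simp [zs, kk] <;> ring

end Crest.Agent.Q316
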