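import Crest.Agent.Q316H

set_option autoImplicit false
open Crest.GeometryTopology.Quadric

namespace Crest.Agent.Q316

theorem comp_fderiv (F G : Iso) (t : ℝ) (z v : V) :
    fderiv ℝ (fun x => (F.comp G).Ψ (t, x)) z v =
      fderiv ℝ (fun x => F.Ψ (t, x)) (G.Ψ (t, z)) (fderiv ℝ (fun x => G.Ψ (t, x)) z v) := by
  have := ((Iso.diff_slice F.sΨ t) (G.Ψ (t, z))).hasFDerivAt.comp z
    ((Iso.diff_slice G.sΨ t) z).hasFDerivAt
  have h' : fderiv ℝ (fun x => (F.comp G).Ψ (t, x)) z =
    (fderiv ℝ (fun x => F.Ψ (t, x)) (G.Ψ (t, z))).comp (fderiv ℝ (fun x => G.Ψ (t, x)) z) :=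
    this.fderiv
  rw [h']; rfl

theorem gen_herm (i j : Fin 5) (h : i ≠ j) (z w : V) :
    herm ((gen i j h).J z) w = -(starRingEnd ℂ (z j) * w i) + starRingEnd ℂ (z i) * w j := by
  unfold herm gen
  simp only [Jp_apply]
  revert h
  fin_cases i <;> fin_cases j <;> intro h <;>
    first
      | exact absurd rfl h
      | (simp [Fin.sum_univ_five]; try ring)

theorem blk_fderiv (i j : Fin 5) (h : i ≠ j) (κ e f : ℝ) (hf : f ≠ 0) (z w : V)
    (hw : (herm ((gen i j h).J z) w).im = 0) :
    fderiv ℝ (fun x => (blk i j h κ e f hf).Ψ (1, x)) z w =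
      (gen i j h).rot (ρf κ e f (kk (z i) (z j))) w := by
  have := (gen i j h).fderiv_rot (ρf_smooth κ e f) 1 z w
  rw [hw, gen_K, one_mul] at this
  simp only [mul_zero, zero_smul, add_zero] at this
  exact this

theorem blk_Psi (i j : Fin 5) (h : i ≠ j) (κ e f : ℝ) (hf : f ≠ 0) (z : V) :
    (blk i j h κ e f hf).Ψ (1, z) = (gen i j h).rot (ρf κ e f (kk (z i) (z j))) z := by
  show (gen i j h).rot (1 * ρf κ e f ((gen i j h).K z)) z = _
  rw [gen_K, one_mul]

/-- kernel direction -/
noncomputable def wp : V := ![Complex.I / 2, 1 / 2, -Complex.I / 2, 1 / 2, 0]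

theorem degen (m : ℝ) (hm : m ≠ 0) :
    fderiv ℝ (fun x => (FF m hm).Ψ (1, x)) zp wp = -wp := by
  obtain ⟨k01, k02, k03, k12, k13, k23⟩ := zp_K
  have hne : (-m) ≠ 0 := neg_ne_zero.mpr hm
  -- block 03
  have r03 : ρf 0 (-m / 2) m (kk (zp 0) (zp 3)) = 0 := by
    rw [k03]; unfold ρf
    have : -m / 2 + m * (1 / 2) = 0 := by ring
    rw [this]; simp
  have P03 : (blk 0 3 (by decide) 0 (-m / 2) m hm).Ψ (1, zp) = zp := by
    rw [blk_Psi, r03, Gen.rot_zero]
  have D03 : fderiv ℝ (fun x => (blk 0 3 (by decide) 0 (-m / 2) m hm).Ψ (1, x)) zp wp = wp := by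
    rw [blk_fderiv, r03, Gen.rot_zero]
    rw [gen_herm]; simp [zp, wp, map_ofNat]
  -- block 12
  have r12 : ρf 0 (m / 2) (-m) (kk (zp 1) (zp 2)) = 0 := by
    rw [k12]; unfold ρf
    have : m / 2 + -m * (1 / 2) = 0 := by ring
    rw [this]; simp
  have P12 : (blk 1 2 (by decide) 0 (m / 2) (-m) hne).Ψ (1, zp) = zp := by
    rw [blk_Psi, r12, Gen.rot_zero]
  have D12 : fderiv ℝ (fun x => (blk 1 2 (by decide) 0 (m / 2) (-m) hne).Ψ (1, x)) zp wp = wp := by
    rw [blk_fderiv, r12, Gen.rot_zero]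
    rw [gen_herm]; simp [zp, wp, map_ofNat]
  -- block 23
  have r23 : ρf Real.pi (m / 2) (-m) (kk (zp 2) (zp 3)) = Real.pi := by
    rw [k23]; unfold ρf
    have : m / 2 + -m * (1 / 2) = 0 := by ring
    rw [this]; simp
  have P23 : (blk 2 3 (by decide) Real.pi (m / 2) (-m) hne).Ψ (1, zp) =
      (gen 2 3 (by decide)).rot Real.pi zp := by
    rw [blk_Psi, r23]
  have D23 : fderiv ℝ (fun x => (blk 2 3 (by decide) Real.pi (m / 2) (-m) hne).Ψ (1, x)) zp wp =
      (gen 2 3 (by decide)).rot Real.pi wp := by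
    rw [blk_fderiv, r23]
    rw [gen_herm]; simp [zp, wp, map_ofNat]
  set z1 := (gen 2 3 (by decide)).rot Real.pi zp with hz1
  set w1 := (gen 2 3 (by decide)).rot Real.pi wp with hw1
  have z10 : z1 0 = zp 0 := by rw [hz1, gen_rot]; simp
  have z11 : z1 1 = zp 1 := by rw [hz1, gen_rot]; simp
  have w10 : w1 0 = wp 0 := by rw [hw1, gen_rot]; simp
  have w11 : w1 1 = wp 1 := by rw [hw1, gen_rot]; simp
  have r01 : ρf Real.pi (m / 2) m (kk (z1 0) (z1 1)) = Real.pi := by
    rw [z10, z11, k01]; unfold ρf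
    have : m / 2 + m * (-1 / 2) = 0 := by ring
    rw [this]; simp
  have D01 : fderiv ℝ (fun x => (blk 0 1 (by decide) Real.pi (m / 2) m hm).Ψ (1, x)) z1 w1 =
      (gen 0 1 (by decide)).rot Real.pi w1 := by
    rw [blk_fderiv, r01]
    rw [gen_herm, z10, z11, w10, w11]; simp [zp, wp, map_ofNat]
  unfold FF
  rw [comp_fderiv, comp_fderiv, comp_fderiv]
  have c1 : ((blk 1 2 (by decide) 0 (m / 2) (-m) (neg_ne_zero.mpr hm)).comp
      (blk 0 3 (by decide) 0 (-m / 2) m hm)).Ψ (1, zp) = zp := by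
    show (blk 1 2 (by decide) 0 (m / 2) (-m) (neg_ne_zero.mpr hm)).Ψ
      (1, (blk 0 3 (by decide) 0 (-m / 2) m hm).Ψ (1, zp)) = zp
    rw [P03, P12]
  have c2 : ((blk 2 3 (by decide) Real.pi (m / 2) (-m) (neg_ne_zero.mpr hm)).comp
      ((blk 1 2 (by decide) 0 (m / 2) (-m) (neg_ne_zero.mpr hm)).comp
        (blk 0 3 (by decide) 0 (-m / 2) m hm))).Ψ (1, zp) = z1 := by
    show (blk 2 3 (by decide) Real.pi (m / 2) (-m) (neg_ne_zero.mpr hm)).Ψ
      (1, ((blk 1 2 (by decide) 0 (m / 2) (-m) (neg_ne_zero.mpr hm)).comp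
        (blk 0 3 (by decide) 0 (-m / 2) m hm)).Ψ (1, zp)) = z1
    rw [c1, P23]
  rw [c2, c1, P03, D03, D12, D23, D01]
  funext k
  rw [gen_rot]
  simp only [hw1, gen_rot]
  fin_cases k <;> simp [wp] <;> ring

theorem Psi_zp (m : ℝ) (hm : m ≠ 0) : (FF m hm).Ψ (1, zp) = -zp := by
  rw [Psi_one]
  obtain ⟨k01, k02, k03, k12, k13, k23⟩ := zp_K
  have hCc : Cc 0 = 1 := by simp [Cc]
  have hSs : Ss 0 = 0 := by simp [Ss]
  have e1 : -m / 2 + m * kk (zp 0) (zp 3) = 0 := by rw [k03]; ring
  have e2 : m / 2 - m * kk (zp 1) (zp 2) = 0 := by rw [k12]; ring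
  have hB : Bm m zp = zp := by
    funext k
    fin_cases k
    · show Bm m zp 0 = zp 0
      rw [Bm_zero, e1, hCc, hSs]; simp
    · show Bm m zp 1 = zp 1
      rw [Bm_one, e2, hCc, hSs]; simp
    · show Bm m zp 2 = zp 2
      rw [Bm_two, e2, hCc, hSs]; simp
    · show Bm m zp 3 = zp 3
      rw [Bm_three, e1, hCc, hSs]; simp
    · exact Bm_four m zp
  rw [hB]
  have e3 : m / 2 + m * kk (zp 0) (zp 1) = 0 := by rw [k01]; ring
  have e4 : m / 2 - m * kk (zp 2) (zp 3) = 0 := by rw [k23]; ring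
  funext k
  fin_cases k
  · show Am m zp 0 = -zp 0
    rw [Am_zero, e3, hCc, hSs]; simp
  · show Am m zp 1 = -zp 1
    rw [Am_one, e3, hCc, hSs]; simp
  · show Am m zp 2 = -zp 2
    rw [Am_two, e4, hCc, hSs]; simp
  · show Am m zp 3 = -zp 3
    rw [Am_three, e4, hCc, hSs]; simp
  · show Am m zp 4 = -zp 4
    rw [Am_four]; simp [zp]

theorem span_eq_of_smul (x y : V) (d : ℂ) (hd : d ≠ 0) (h : y = d • x) :
    Submodule.span ℂ {x} = Submodule.span ℂ {y} := by
  rw [h]
  exact (Submodule.span_singleton_smul_eq (IsUnit.mk0 d hd) x).symm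

theorem span_K (x y : V) (hx : x ∈ unitCone) (hy : y ∈ unitCone)
    (h : Submodule.span ℂ {x} = Submodule.span ℂ {y}) (i j : Fin 5) :
    kk (x i) (x j) = kk (y i) (y j) := by
  have hm : x ∈ Submodule.span ℂ {y} := h ▸ Submodule.mem_span_singleton_self x
  obtain ⟨c, hc⟩ := Submodule.mem_span_singleton.mp hm
  have h1 := hx.1
  rw [← hc, herm_smul_left, herm_smul_right, hy.1, mul_one] at h1
  have h2 : c.re ^ 2 + c.im ^ 2 = 1 := by
    have := congrArg Complex.re h1
    simp at this
    linarith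
  rw [← hc]
  show kk (c * y i) (c * y j) = _
  rw [kk_mul, h2, one_mul]

theorem final : ∃ L : HamiltonianConeLift, (fixedLines L).ncard = 3 ∧ HasDegenerateFixedPoint L := by
  set κ : ℝ := Real.sqrt (7 / 50) with hκdef
  have hκ : κ ^ 2 = 7 / 50 := Real.sq_sqrt (by norm_num)
  have hκ0 : 0 < κ := Real.sqrt_pos.mpr (by norm_num)
  set r : ℝ := Real.sqrt (7 / 10) with hrdef
  have hr : r ^ 2 = 7 / 10 := Real.sq_sqrt (by norm_num)
  have hr0 : 0 < r := Real.sqrt_pos.mpr (by norm_num)
  set m : ℝ := 100 * κ / 63 with hmdef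
  have hm : m ≠ 0 := by rw [hmdef]; positivity
  have hm2 : m ^ 2 = 200 / 567 := by
    rw [hmdef, div_pow, mul_pow, hκ]; norm_num
  have hm4 : m ^ 2 = 4 * (50 / 567) := by rw [hm2]; norm_num
  refine ⟨(FF m hm).lift, ?_, ?_⟩
  · rw [Set.ncard_eq_three]
    refine ⟨Submodule.span ℂ {zp}, Submodule.span ℂ {zs r κ}, Submodule.span ℂ {zs (-r) κ},
      ?_, ?_, ?_, ?_⟩
    · intro h
      have := span_K zp (zs r κ) zp_cone (zs_cone r κ hr hκ) h 0 1
      rw [zp_K.1, (zs_K r κ).1] at this
      linarith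
    · intro h
      have := span_K zp (zs (-r) κ) zp_cone (zs_cone (-r) κ (by rw [neg_sq]; exact hr) hκ) h 0 1
      rw [zp_K.1, (zs_K (-r) κ).1] at this
      have h' : r = 7 / 5 := by linarith
      rw [h'] at hr; norm_num at hr
    · intro h
      have := span_K (zs r κ) (zs (-r) κ) (zs_cone r κ hr hκ)
        (zs_cone (-r) κ (by rw [neg_sq]; exact hr) hκ) h 0 1
      rw [(zs_K r κ).1, (zs_K (-r) κ).1] at this
      linarith
    · ext ℓ
      constructor
      · rintro ⟨z, hz, rfl, hfix⟩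
        obtain ⟨c, hc⟩ := Submodule.mem_span_singleton.mp hfix
        have hfix' : Am m (Bm m z) = c • z := by
          rw [← Psi_one m hm]; exact hc.symm
        have h4 := off z hz m hm2 c hfix'
        have hcn : c.re ^ 2 + c.im ^ 2 = 1 := by
          have h1 := (FF m hm).norm 1 z
          rw [Psi_one, hfix', hz.1, herm_smul_left, herm_smul_right, hz.1, mul_one] at h1
          have := congrArg Complex.re h1
          simp at this
          linarith
        have hchar := char z hz h4 m (50 / 567) rfl hm4 c hcn hfix'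
        have fin : ∀ y : V, y ∈ unitCone → (∀ i j, kk (z i) (z j) = kk (y i) (y j)) →
            Submodule.span ℂ {z} = Submodule.span ℂ {y} := by
          intro y hy hK
          have hd := K_lemma z y hz hy hK
          refine span_eq_of_smul z y _ ?_ hd
          intro h0
          rw [h0, zero_smul] at hd
          have := hy.1
          rw [hd] at this
          simp [herm] at this
        rcases hchar with ⟨h01, h02, h03, h12, h13, h23⟩ | ⟨s, u, hs, hu, h01, h02, h03, h12, h13, h23⟩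
        · left
          obtain ⟨k01, k02, k03, k12, k13, k23⟩ := zp_K
          exact fin zp zp_cone (kk_all z zp h4 (by simp [zp]) (by rw [h01, k01]) (by rw [h02, k02])
            (by rw [h03, k03]) (by rw [h12, k12]) (by rw [h13, k13]) (by rw [h23, k23]))
        · right
          have hu' : u = κ := by
            rw [hs, hmdef] at hu; linarith
          have hsr : s = r ∨ s = -r := by
            apply sq_eq_sq_iff_eq_or_eq_neg.mp; rw [hs, hr]
          rw [hu'] at h13
          have hgo : Submodule.span ℂ {z} = Submodule.span ℂ {zs s κ} := by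
            obtain ⟨k01, k02, k03, k12, k13, k23⟩ := zs_K s κ
            exact fin (zs s κ) (zs_cone s κ hs hκ) (kk_all z (zs s κ) h4 (by simp [zs])
              (by rw [h01, k01]) (by rw [h02, k02])
              (by rw [h03, k03]) (by rw [h12, k12]) (by rw [h13, k13]) (by rw [h23, k23]))
          rcases hsr with h | h
          · left; rw [hgo, h]
          · right; rw [hgo, h]; rfl
      · have hex : ∀ s : ℝ, s ^ 2 = 7 / 10 →
            Submodule.span ℂ {zs s κ} ∈ fixedLines (FF m hm).lift := by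
          intro s hs
          refine ⟨zs s κ, zs_cone s κ hs hκ, rfl, ?_⟩
          obtain ⟨k01, k02, k03, k12, k13, k23⟩ := zs_K s κ
          have e : (63 : ℝ) * m = 100 * κ := by rw [hmdef]; ring
          obtain ⟨c, hc⟩ := exist (zs s κ) (zs_cone s κ hs hκ) (by simp [zs]) m _ _ _ _ rfl rfl rfl rfl
            (by rw [k01, k02, k03, k12, k13, k23]
                linear_combination (-m - κ*m^2/4)*hs + (κ*63/200)*hm2 - (7/10)/63*e)
            (by rw [k01, k02, k03, k12, k13, k23]
                linear_combination (κ*m^2/4)*hs - (κ*63/200)*hm2 - (14/25)/63*e)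
            (by rw [k01, k02, k03, k12, k13, k23]
                linear_combination (κ*m^2/4)*hs - (κ*63/200)*hm2 - (14/25)/63*e)
            (by rw [k01, k02, k03, k12, k13, k23]
                linear_combination (-m - κ*m^2/4)*hs + (κ*63/200)*hm2 - (7/10)/63*e)
          show (FF m hm).Ψ (1, zs s κ) ∈ _
          rw [Psi_one, hc]
          exact Submodule.smul_mem _ _ (Submodule.mem_span_singleton_self _)
        rintro (h | h | h)
        · rw [h]
          refine ⟨zp, zp_cone, rfl, ?_⟩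
          show (FF m hm).Ψ (1, zp) ∈ _
          rw [Psi_zp]
          exact Submodule.neg_mem _ (Submodule.mem_span_singleton_self _)
        · rw [h]; exact hex r hr
        · rw [h]; exact hex (-r) (by rw [neg_sq]; exact hr)
  · refine ⟨zp, zp_cone, -1, ?_, wp, ?_, ?_, 0, ?_⟩
    · show (FF m hm).Ψ (1, zp) = _
      rw [Psi_zp, neg_one_smul]
    · constructor
      · simp [herm, Fin.sum_univ_five, zp, wp, map_ofNat]
      · simp only [Fin.sum_univ_five, zp, wp]
        simp
        try ring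
    · intro t h
      have h0 := congrFun h 0
      have h2 := congrFun h 2
      simp [zp, wp] at h0 h2
      have e0 := congrArg Complex.im h0
      have e2 := congrArg Complex.im h2
      simp at e0 e2
      linarith
    · show fderiv ℝ (fun x => (FF m hm).Ψ (1, x)) zp wp = _
      rw [degen]; simp

end Crest.Agent.Q316
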