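import Crest.Statements.S0010
import Crest.Agent.H1.MilnorE

set_option autoImplicit false
open Crest.NumberTheoryR.MilnorK
open Crest Crest.NumberTheoryR

namespace Crest.Agent.S0010

open Crest.Agent.H1.Milnor in
theorem cls_eq_cl {K : Type*} [Field K] {p : ℕ} [Fact p.Prime] [CharP K p] (u : Kˣ) :
    cls K p u = cl p (u : K) := by
  rw [cl_of_ne u.ne_zero]
  congr 1
  ext; simp

open Crest.Agent.H1.Milnor in
/-- Let K and L be fields of characteristic p that are finitely generated and of transcendence degree at least 2 over algebraically closed subfields k and l. Let Θ be a linear isomorphism, over the integers mod p, from Kˣ/(Kˣ)^p to Lˣ/(Lˣ)^p that maps the span of the Steinberg elements [f] ⊗ [1 - f] (f ≠ 0, 1) of K exactly onto that of L. Then there is exactly one field isomorphism α from K to L with α(k) = l such that, for some non-zero scalar c, Θ[u] = c · [α(u)] for every unit u of K. -/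
theorem result {p : ℕ} [Fact p.Prime]
    {K L : Type*} [Field K] [Field L] [CharP K p] [CharP L p] (k : Subfield K) (l : Subfield L)
    [IsAlgClosed k] [IsAlgClosed l]
    (hK : ∃ s : Finset K, Subfield.closure ((k : Set K) ∪ (s : Set K)) = ⊤)
    (hL : ∃ s : Finset L, Subfield.closure ((l : Set L) ∪ (s : Set L)) = ⊤)
    (hK2 : 2 ≤ Algebra.trdeg k K) (hL2 : 2 ≤ Algebra.trdeg l L)
    (Θ : KOne K p ≃ₗ[ZMod p] KOne L p) (hΘ : IsCompatible Θ) :
    ∃! α : K ≃+* L, k.map α.toRingHom = l ∧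
      ∃ c : ZMod p, c ≠ 0 ∧ ∀ u : Kˣ, Θ (cls K p u) = c • cls L p (Units.map α.toRingHom.toMonoidHom u) := by
  have HPK := HP_of (p := p) (essFG k hK) hK2
  have HPL := HP_of (p := p) (essFG l hL) hL2
  have HDK := HD_of_HP HPK
  have HDL := HD_of_HP HPL
  have hexK : ∃ x : K, x ∉ (algebraMap (FF K p) K).range := by
    obtain ⟨y, hy⟩ := HPK 0
    exact ⟨y, not_range (powIn K p) inferInstance hy⟩
  have hexL : ∃ x : L, x ∉ (algebraMap (FF L p) L).range := by
    obtain ⟨y, hy⟩ := HPL 0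
    exact ⟨y, not_range (powIn L p) inferInstance hy⟩
  obtain ⟨c, hc, h1, h2⟩ := exists_LP_both hΘ HPK HPL
  obtain ⟨Φ, hΦ⟩ := exists_ringHom HDK h1 h2
  obtain ⟨Ψ, hΨ⟩ := exists_ringHom HDL h2 (by rw [LinearEquiv.symm_symm]; exact h1)
  have hpp : 1 < p := (Fact.out : p.Prime).one_lt
  have e1 := endo_eq_id hexK (Ψ.comp Φ) 1 one_pos hpp (fun x hx => by
    rw [RingHom.comp_apply, hΨ _ ((map_ne_zero Φ).2 hx), hΦ x hx, LinearEquiv.symm_apply_apply]
    exact (one_nsmul (cl p x)).symm)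
  have e2 := endo_eq_id hexL (Φ.comp Ψ) 1 one_pos hpp (fun x hx => by
    rw [RingHom.comp_apply, hΦ _ ((map_ne_zero Ψ).2 hx), hΨ x hx, LinearEquiv.apply_symm_apply]
    exact (one_nsmul (cl p x)).symm)
  let α : K ≃+* L := RingEquiv.ofRingHom Φ Ψ (RingHom.ext e2.1) (RingHom.ext e1.1)
  have hα : ∀ x : K, x ≠ 0 → Θ (cl p x) = c⁻¹ • cl p (α x) := by
    intro x hx
    have h3 : cl p (α x) = scal c hc Θ (cl p x) := hΦ x hx
    rw [h3, scal_apply, smul_smul, inv_mul_cancel₀ hc, one_smul]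
  have hmap : ∀ β : K ≃+* L, k.map β.toRingHom = l := by
    intro β
    ext y
    rw [Subfield.mem_map]
    constructor
    · rintro ⟨x, hx, rfl⟩
      rw [mem_k_iff (p := p) l hL]
      rw [mem_k_iff (p := p) k hK] at hx
      intro n
      obtain ⟨z, hz⟩ := hx n
      exact ⟨β z, by rw [← map_pow, hz]; rfl⟩
    · intro hy
      refine ⟨β.symm y, ?_, by simp⟩
      rw [mem_k_iff (p := p) l hL] at hy
      rw [mem_k_iff (p := p) k hK]
      intro n
      obtain ⟨z, hz⟩ := hy n
      exact ⟨β.symm z, by rw [← map_pow, hz]⟩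
  refine ⟨α, ⟨hmap α, c⁻¹, inv_ne_zero hc, fun u => ?_⟩, ?_⟩
  · rw [cls_eq_cl, cls_eq_cl]
    exact hα u u.ne_zero
  · rintro α' ⟨_, c', hc', h'⟩
    have hα' : ∀ x : K, x ≠ 0 → Θ (cl p x) = c' • cl p (α' x) := by
      intro x hx
      have := h' (Units.mk0 x hx)
      rw [cls_eq_cl, cls_eq_cl] at this
      simpa using this
    let β : K →+* K := (α.symm.toRingHom).comp α'.toRingHom
    have hβ : ∀ y : K, α (β y) = α' y := fun y => by simp [β]
    set d : ZMod p := c⁻¹ * c'⁻¹ with hd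
    have hd0 : d ≠ 0 := mul_ne_zero (inv_ne_zero hc) (inv_ne_zero hc')
    have hdn : ((d.val : ℕ) : ZMod p) = d := ZMod.natCast_zmod_val d
    have hdpos : 0 < d.val := by
      rcases Nat.eq_zero_or_pos d.val with h0 | h0
      · rw [h0, Nat.cast_zero] at hdn; exact absurd hdn.symm hd0
      · exact h0
    have e3 := endo_eq_id hexK β d.val hdpos (ZMod.val_lt d) (fun y hy => by
      apply Θ.injective
      have hβy : β y ≠ 0 := (map_ne_zero β).2 hy
      have h4 : c'⁻¹ • Θ (cl p y) = cl p (α' y) := by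
        rw [hα' y hy, smul_smul, inv_mul_cancel₀ hc', one_smul]
      rw [hα _ hβy, hβ, ← h4, smul_smul, map_nsmul]
      have h5 := Nat.cast_smul_eq_nsmul (ZMod p) d.val (Θ (cl p y))
      rw [hdn] at h5
      exact h5)
    ext y
    have := hβ y
    rw [e3.1 y] at this
    exact this.symm

end Crest.Agent.S0010
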