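import Crest.Statements.S0077
import Crest.Agent.VN.Final
import Crest.Agent.VN.Window

set_option autoImplicit false
open Crest Crest.CombinatoricsR

namespace Crest.Agent.S0077

/-- Let n ≥ 2 and let P be a family of simple graphs on n labelled vertices that is invariant under renaming vertices, closed under adding edges, non-empty and not everything; let 0 < ε < 1/2. If the binomial random graph with edge probability p ∈ [0, 1] lies in P with probability at least ε, then at every edge probability q ∈ [0, 1] with q ≥ p + 2^19 · log(1/(2ε)) / (log n)² it lies in P with probability at least 1 - ε: the threshold interval from ε to 1 - ε is at most that long. -/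
theorem result (n : ℕ) (hn : 2 ≤ n)
    (P : Set (SimpleGraph (Fin n)))
    (hsymm : ∀ σ : Equiv.Perm (Fin n), ∀ G : SimpleGraph (Fin n), G ∈ P → G.map σ.toEmbedding ∈ P)
    (hmono : ∀ G G' : SimpleGraph (Fin n), G ≤ G' → G ∈ P → G' ∈ P)
    (hne : P.Nonempty) (hnu : P ≠ Set.univ) (ε : ℝ) (hε0 : 0 < ε) (hε : ε < 1 / 2)
    (p q : ℝ) (hp0 : 0 ≤ p) (hp1 : p ≤ 1) (hq0 : 0 ≤ q) (hq1 : q ≤ 1)
    (hp : ε ≤ Crest.CombinatoricsR.RandomGraph.gnpProb n p P)
    (hq : p + 2 ^ 19 / Real.log n ^ 2 * Real.log (1 / (2 * ε)) ≤ q) :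
    1 - ε ≤ Crest.CombinatoricsR.RandomGraph.gnpProb n q P := by
  classical
  refine Crest.Agent.VN.window n hn P hmono hne hnu ?_ ε hε0 hε p q hp0 hp1 hq0 hq1 hp hq
  intro t ht0 ht1
  have h := Crest.Agent.VN.final_graph n hn P hsymm t ht0 ht1
  refine h.trans (le_of_eq ?_)
  congr 1
  refine Finset.sum_congr rfl fun e _ => ?_
  congr 1
  ext x
  have hle : Crest.CombinatoricsR.RandomGraph.graphOf (Function.update x e false) ≤
      Crest.CombinatoricsR.RandomGraph.graphOf (Function.update x e true) := by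
    intro i j hij
    rw [Crest.Agent.VN.M5.graphOf_adj] at hij ⊢
    obtain ⟨h1, h2⟩ := hij
    refine ⟨h1, ?_⟩
    by_cases he : (⟨s(i, j), h1⟩ : Crest.CombinatoricsR.RandomGraph.EdgeSlot n) = e
    · rw [he]; simp
    · rw [Function.update_of_ne he] at h2 ⊢
      exact h2
  have hm := hmono _ _ hle
  simp only [Set.mem_setOf_eq]
  by_cases h1 : Crest.CombinatoricsR.RandomGraph.graphOf (Function.update x e true) ∈ P <;>
  by_cases h2 : Crest.CombinatoricsR.RandomGraph.graphOf (Function.update x e false) ∈ P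
  · simp [h1, h2]
  · simp [h1, h2]
  · exact absurd (hm h2) h1
  · simp [h1, h2]

end Crest.Agent.S0077
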