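import Crest.Statements.S0109
import Crest.Agent.H3.OT.Final

set_option autoImplicit false
open MeasureTheory
open scoped ENNReal NNReal
open Crest.AnalysisR.OT
open Crest Crest.AnalysisR Crest.AnalysisR.OT

namespace Crest.Agent.S0109

/-- choosing the free parameter -/
lemma optimise {A B r Q0 Q D : ℝ} (hA : 0 ≤ A) (hB : 0 ≤ B) (hr : 0 < r) (hQ0 : 0 < Q0)
    (hQ : 0 ≤ Q) (hQQ : Q ≤ Q0) (hD : ∀ h, 0 < h → h ≤ r → D ≤ A * Q / h ^ 2 + B * h) :
    D ≤ (A * Q0 / r ^ 2 + B * r) / Q0 ^ (1 / 3 : ℝ) * Q ^ (1 / 3 : ℝ) := by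
  have hQ03 : 0 < Q0 ^ (1 / 3 : ℝ) := Real.rpow_pos_of_pos hQ0 _
  rcases eq_or_lt_of_le hQ with h0 | hpos
  · -- Q = 0
    rw [← h0, Real.zero_rpow (by norm_num), mul_zero]
    by_contra hcon
    push Not at hcon
    have h1 := hD (min r (D / (2 * (B + 1)))) (lt_min hr (by positivity)) (min_le_left _ _)
    rw [← h0, mul_zero, zero_div, zero_add] at h1
    have h2 : B * min r (D / (2 * (B + 1))) ≤ B * (D / (2 * (B + 1))) :=
      mul_le_mul_of_nonneg_left (min_le_right _ _) hB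
    have h3 : B * (D / (2 * (B + 1))) ≤ D / 2 := by
      rw [mul_div_assoc', div_le_div_iff₀ (by positivity) (by norm_num)]
      nlinarith
    linarith
  · set t := Q ^ (1 / 3 : ℝ) / Q0 ^ (1 / 3 : ℝ) with ht
    have hQ3 : 0 < Q ^ (1 / 3 : ℝ) := Real.rpow_pos_of_pos hpos _
    have ht0 : 0 < t := div_pos hQ3 hQ03
    have ht1 : t ≤ 1 := by
      rw [ht, div_le_one hQ03]
      exact Real.rpow_le_rpow hQ hQQ (by norm_num)
    have ht3 : t ^ 3 * Q0 = Q := by
      rw [ht, div_pow, ← Real.rpow_natCast, ← Real.rpow_natCast, ← Real.rpow_mul hQ,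
        ← Real.rpow_mul hQ0.le]
      norm_num
      field_simp
    have h1 := hD (r * t) (mul_pos hr ht0) (by nlinarith)
    have e1 : A * Q / (r * t) ^ 2 + B * (r * t) = (A * Q0 / r ^ 2 + B * r) * t := by
      rw [← ht3]; field_simp
    rw [e1] at h1
    refine h1.trans (le_of_eq ?_)
    rw [ht]; ring

/-- Fix d ≥ 2, a compact convex K ⊆ ℝᵈ with nonempty interior, ρ the uniform probability measure on K, and a nonempty compact Y ⊆ ℝᵈ. There is a constant C such that for all probability measures μ, ν carried by Y, all quadratic optimal transport maps Tμ from ρ to μ and Tν from ρ to ν, and every coupling π of μ and ν, ∫ ‖Tμ - Tν‖² dρ ≤ C · (∫ ‖y - z‖² dπ)^(1/3). With the best coupling: the L²(ρ) distance of the maps is at most √C times the cube root of the Wasserstein-2 distance of the targets. -/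
theorem result
    (d : ℕ) (hd : 2 ≤ d) (K : Set (EuclideanSpace ℝ (Fin d))) (hKc : IsCompact K) (hKv : Convex ℝ K)
    (hKi : (interior K).Nonempty) (Y : Set (EuclideanSpace ℝ (Fin d))) (hYc : IsCompact Y) (hYn : Y.Nonempty) :
    ∃ C : ℝ≥0, ∀ μ ν : Measure (EuclideanSpace ℝ (Fin d)), IsProbabilityOn Y μ → IsProbabilityOn Y ν →
      ∀ Tμ Tν : EuclideanSpace ℝ (Fin d) → EuclideanSpace ℝ (Fin d),
        IsOptimalMap (uniformProbOn K) μ Tμ → IsOptimalMap (uniformProbOn K) ν Tν →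
        ∀ π : Measure (EuclideanSpace ℝ (Fin d) × EuclideanSpace ℝ (Fin d)), IsPairCoupling μ ν π →
          ∫⁻ x, ‖Tμ x - Tν x‖ₑ ^ 2 ∂(uniformProbOn K) ≤ C * quadCost π ^ (1 / 3 : ℝ) := by
  obtain ⟨x₀, hx₀⟩ := hKi
  obtain ⟨r₁, hr₁, hball₁⟩ := Metric.isOpen_iff.1 isOpen_interior x₀ hx₀
  set r := r₁ / 2 with hr
  have hr0 : 0 < r := by positivity
  have hball : Metric.closedBall x₀ r ⊆ K :=
    ((Metric.closedBall_subset_ball (by rw [hr]; linarith)).trans hball₁).trans interior_subset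
  have hV : 0 < volume.real K := by
    refine ENNReal.toReal_pos ?_ hKc.measure_lt_top.ne
    exact (lt_of_lt_of_le (Metric.measure_closedBall_pos volume x₀ hr0)
      (measure_mono hball)).ne'
  obtain ⟨R₁, hR₁⟩ := hKc.isBounded.subset_closedBall (0 : EuclideanSpace ℝ (Fin d))
  set R := max R₁ 1 with hR
  have hR0 : 0 < R := lt_of_lt_of_le one_pos (le_max_right _ _)
  have hKR : K ⊆ Metric.closedBall 0 R := hR₁.trans (Metric.closedBall_subset_closedBall (le_max_left _ _))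
  obtain ⟨L₁, hL₁⟩ := hYc.isBounded.subset_closedBall (0 : EuclideanSpace ℝ (Fin d))
  set L := max L₁ 0 + 1 with hL
  have hL1 : 1 ≤ L := by rw [hL]; linarith [le_max_right L₁ 0]
  have hYL : Y ⊆ Metric.closedBall 0 (L - 1) := by
    have : L - 1 = max L₁ 0 := by rw [hL]; ring
    rw [this]
    exact hL₁.trans (Metric.closedBall_subset_closedBall (le_max_left _ _))
  set V := volume.real K with hVd
  set A := 3 * (d * (8 * (7128606 * R ^ 2 * V))) with hA
  set B := 3 * (d * (36 * L ^ 2 * (d / r * V))) with hB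
  have hA0 : 0 ≤ A := by positivity
  have hB0 : 0 ≤ B := by positivity
  set Q0 := (2 * L) ^ 2 with hQ0
  have hQ0pos : 0 < Q0 := by positivity
  set C := V⁻¹ * ((A * Q0 / r ^ 2 + B * r) / Q0 ^ (1 / 3 : ℝ)) with hC
  have hC0 : 0 ≤ C := by positivity
  refine ⟨Real.toNNReal C, ?_⟩
  intro μ ν hμ hν Tμ Tν hTμ hTν π hπ
  obtain ⟨hμp, hμY⟩ := id hμ
  obtain ⟨hνp, hνY⟩ := id hν
  have hπp : IsProbabilityMeasure π := by
    constructor
    have : μ Set.univ = 1 := measure_univ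
    rw [← hπ.1, Measure.map_apply measurable_fst MeasurableSet.univ] at this
    simpa using this
  have hπY1 : ∀ᵐ ω ∂π, ω.1 ∈ Y := by
    have h1 : ∀ᵐ x ∂μ, x ∈ Y := by
      rw [ae_iff]; exact hμY
    rw [← hπ.1] at h1
    exact ae_of_ae_map measurable_fst.aemeasurable h1
  have hπY2 : ∀ᵐ ω ∂π, ω.2 ∈ Y := by
    have h1 : ∀ᵐ x ∂ν, x ∈ Y := by
      rw [ae_iff]; exact hνY
    rw [← hπ.2] at h1
    exact ae_of_ae_map measurable_snd.aemeasurable h1
  have hsqb : ∀ᵐ ω ∂π, ‖ω.1 - ω.2‖ ^ 2 ≤ Q0 := by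
    filter_upwards [hπY1, hπY2] with ω h1 h2
    have e1 : ‖ω.1‖ ≤ L - 1 := by simpa using hYL h1
    have e2 : ‖ω.2‖ ≤ L - 1 := by simpa using hYL h2
    exact pow_le_pow_left₀ (norm_nonneg _) ((norm_sub_le _ _).trans (by linarith)) 2
  have hmeas : Measurable fun ω : EuclideanSpace ℝ (Fin d) × EuclideanSpace ℝ (Fin d) =>
      ‖ω.1 - ω.2‖ ^ 2 := (measurable_fst.sub measurable_snd).norm.pow_const 2
  have hint : Integrable (fun ω : EuclideanSpace ℝ (Fin d) × EuclideanSpace ℝ (Fin d) =>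
      ‖ω.1 - ω.2‖ ^ 2) π := by
    refine Integrable.of_bound hmeas.aestronglyMeasurable Q0 ?_
    filter_upwards [hsqb] with ω h
    rw [norm_pow, norm_norm]; exact h
  set Q := ∫ ω, ‖ω.1 - ω.2‖ ^ 2 ∂π with hQ
  have hQnn : 0 ≤ Q := integral_nonneg fun ω => sq_nonneg _
  have hQQ0 : Q ≤ Q0 := by
    have := integral_mono_ae hint (integrable_const Q0) hsqb
    simpa using this
  have hcost : quadCost π = ENNReal.ofReal Q := by
    unfold quadCost
    have e1 : ∀ ω : EuclideanSpace ℝ (Fin d) × EuclideanSpace ℝ (Fin d),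
        ‖ω.1 - ω.2‖ₑ ^ 2 = ENNReal.ofReal (‖ω.1 - ω.2‖ ^ 2) := by
      intro ω
      rw [← ofReal_norm, ENNReal.ofReal_pow (norm_nonneg _)]
    simp_rw [e1]
    exact (ofReal_integral_eq_lintegral_ofReal hint
      (Filter.Eventually.of_forall fun x => sq_nonneg _)).symm
  set D := ∫ x in K, ‖Tμ x - Tν x‖ ^ 2 with hD
  have hDle : D ≤ (A * Q0 / r ^ 2 + B * r) / Q0 ^ (1 / 3 : ℝ) * Q ^ (1 / 3 : ℝ) := by
    refine optimise hA0 hB0 hr0 hQ0pos hQnn hQQ0 fun h hh hhr => ?_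
    have := Crest.Agent.H3.OT.stab_h (by omega : 0 < d) hR0 hKc hKv hKR hr0 hball hV hYc hL1 hYL
      hμ hν hTμ hTν hπ hh hhr
    refine this.trans (le_of_eq ?_)
    rw [hA, hB]
    ring
  -- measurability and bounds of the maps
  have hTμL : ∀ᵐ x ∂(volume.restrict K), ‖Tμ x‖ ≤ L := by
    rw [← Crest.Agent.H3.OT.ae_uniform_iff hKc]
    have h1 : ∀ᵐ x ∂μ, ‖x‖ ≤ L := by
      have h1 : ∀ᵐ x ∂μ, x ∈ Y := by rw [ae_iff]; exact hμY
      filter_upwards [h1] with x hx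
      have : ‖x‖ ≤ L - 1 := by simpa using hYL hx
      linarith
    rw [← hTμ.2.1] at h1
    exact ae_of_ae_map hTμ.1.aemeasurable h1
  have hTνL : ∀ᵐ x ∂(volume.restrict K), ‖Tν x‖ ≤ L := by
    rw [← Crest.Agent.H3.OT.ae_uniform_iff hKc]
    have h1 : ∀ᵐ x ∂ν, ‖x‖ ≤ L := by
      have h1 : ∀ᵐ x ∂ν, x ∈ Y := by rw [ae_iff]; exact hνY
      filter_upwards [h1] with x hx
      have : ‖x‖ ≤ L - 1 := by simpa using hYL hx
      linarith
    rw [← hTν.2.1] at h1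
    exact ae_of_ae_map hTν.1.aemeasurable h1
  have hTi : IntegrableOn (fun x => ‖Tμ x - Tν x‖ ^ 2) K := by
    refine Crest.Agent.H3.OT.integrableOn_of_bdd hKc
      ((hTμ.1.sub hTν.1).norm.pow_const 2) (C := (2 * L) ^ 2) ?_
    filter_upwards [hTμL, hTνL] with x a b
    rw [norm_pow, norm_norm]
    exact pow_le_pow_left₀ (norm_nonneg _) ((norm_sub_le _ _).trans (by linarith)) 2
  have hlhs : ∫⁻ x, ‖Tμ x - Tν x‖ₑ ^ 2 ∂(uniformProbOn K) = ENNReal.ofReal (V⁻¹ * D) := by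
    have e1 : ∀ x, ‖Tμ x - Tν x‖ₑ ^ 2 = ENNReal.ofReal (‖Tμ x - Tν x‖ ^ 2) := by
      intro x
      rw [← ofReal_norm, ENNReal.ofReal_pow (norm_nonneg _)]
    simp_rw [e1]
    have hTi' : Integrable (fun x => ‖Tμ x - Tν x‖ ^ 2) (uniformProbOn K) := by
      unfold uniformProbOn
      exact Integrable.smul_measure hTi (ENNReal.inv_ne_top.2 (by
        intro h; simp [hVd, Measure.real, h] at hV))
    rw [← ofReal_integral_eq_lintegral_ofReal hTi' (Filter.Eventually.of_forall fun x => sq_nonneg _),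
      Crest.Agent.H3.OT.integral_uniform]
  rw [hlhs, hcost, ENNReal.ofReal_rpow_of_nonneg hQnn (by norm_num)]
  have hCcoe : ((Real.toNNReal C : ℝ≥0) : ℝ≥0∞) = ENNReal.ofReal C := rfl
  rw [hCcoe, ← ENNReal.ofReal_mul hC0]
  refine ENNReal.ofReal_le_ofReal ?_
  calc V⁻¹ * D ≤ V⁻¹ * ((A * Q0 / r ^ 2 + B * r) / Q0 ^ (1 / 3 : ℝ) * Q ^ (1 / 3 : ℝ)) :=
        mul_le_mul_of_nonneg_left hDle (inv_nonneg.2 hV.le)
    _ = C * Q ^ (1 / 3 : ℝ) := by rw [hC]; ring

end Crest.Agent.S0109
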