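import Crest.Statements.S0110
import Crest.Agent.H3.OT.Sharp

set_option autoImplicit false
open MeasureTheory
open scoped ENNReal NNReal
open Crest.AnalysisR.OT
open Crest Crest.AnalysisR Crest.AnalysisR.OT

namespace Crest.Agent.S0110

open Crest.Agent.H3.OT Set Filter Topology
open scoped RealInnerProductSpace

/-- boxes -/
def box {d : ℕ} (s : Fin d → Set ℝ) : Set (EuclideanSpace ℝ (Fin d)) := {x | ∀ i, x i ∈ s i}

lemma volume_box {d : ℕ} (s : Fin d → Set ℝ) : volume (box s) = ∏ i, volume (s i) := by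
  have h := (EuclideanSpace.volume_preserving_symm_measurableEquiv_toLp
    (Fin d)).measure_preimage_equiv (Set.pi Set.univ s)
  rw [volume_pi_pi] at h
  rw [← h]
  congr 1
  ext x
  simp [box]

lemma volume_real_box {d : ℕ} (s : Fin d → Set ℝ) :
    volume.real (box s) = ∏ i, volume.real (s i) := by
  simp only [Measure.real, volume_box, ENNReal.toReal_prod]

section
variable {n : ℕ}

local notation "𝔼" => EuclideanSpace ℝ (Fin (n + 2))

/-- the cube -/
def cube (n : ℕ) : Set (EuclideanSpace ℝ (Fin (n + 2))) := {x | ∀ i, |x i| ≤ 1}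

lemma cube_eq_box : cube n = box (fun _ : Fin (n + 2) => Set.Icc (-1 : ℝ) 1) := by
  ext x
  simp [cube, box, abs_le]

lemma volume_cube : volume.real (cube n) = 2 ^ (n + 2) := by
  rw [cube_eq_box, volume_real_box]
  simp
  norm_num

lemma isClosed_cube : IsClosed (cube n) := by
  have : cube n = ⋂ i : Fin (n + 2), {x : 𝔼 | |x i| ≤ 1} := by
    ext x; simp [cube]
  rw [this]
  exact isClosed_iInter fun i => isClosed_le (by fun_prop) continuous_const

lemma cube_norm {x : 𝔼} (hx : x ∈ cube n) : ‖x‖ ≤ √(n + 2) := by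
  rw [EuclideanSpace.norm_eq]
  apply Real.sqrt_le_sqrt
  calc ∑ i, ‖x i‖ ^ 2 ≤ ∑ _i : Fin (n + 2), (1 : ℝ) := by
        refine Finset.sum_le_sum fun i _ => ?_
        have := hx i
        rw [Real.norm_eq_abs]
        exact pow_le_one₀ (abs_nonneg _) this
    _ = _ := by simp

lemma isCompact_cube : IsCompact (cube n) := by
  refine Metric.isCompact_of_isClosed_isBounded isClosed_cube ?_
  have h : cube n ⊆ Metric.closedBall (0 : 𝔼) (√(n + 2)) := fun x hx => by
    simpa using cube_norm hx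
  exact Metric.isBounded_closedBall.subset h

lemma convex_cube : Convex ℝ (cube n) := by
  intro x hx y hy a b ha hb hab i
  have h1 := hx i
  have h2 := hy i
  simp only [PiLp.add_apply, PiLp.smul_apply, smul_eq_mul]
  calc |a * x i + b * y i| ≤ |a * x i| + |b * y i| := abs_add_le _ _
    _ = a * |x i| + b * |y i| := by rw [abs_mul, abs_mul, abs_of_nonneg ha, abs_of_nonneg hb]
    _ ≤ a * 1 + b * 1 := by gcongr
    _ = 1 := by linarith

lemma ball_cube : Metric.closedBall (0 : 𝔼) 1 ⊆ cube n := by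
  intro x hx i
  have : ‖x‖ ≤ 1 := by simpa using hx
  have h2 : ‖x i‖ ≤ ‖x‖ := PiLp.norm_apply_le x i
  rw [Real.norm_eq_abs] at h2
  exact h2.trans this

/-- first two unit vectors -/
noncomputable def e0 : 𝔼 := EuclideanSpace.single 0 1
noncomputable def e1 : 𝔼 := EuclideanSpace.single 1 1

/-- the sites -/
noncomputable def ys (a : ℝ) : Fin 3 → EuclideanSpace ℝ (Fin (n + 2)) :=
  ![-e0, e0, -(a • e1)]
noncomputable def zs (a : ℝ) : Fin 3 → EuclideanSpace ℝ (Fin (n + 2)) :=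
  ![-e0, e0, a • e1]

/-- the dual values -/
def psi (a : ℝ) : Fin 3 → ℝ := ![0, 0, -a]

lemma inner_e0 (x : 𝔼) : ⟪(e0 : 𝔼), x⟫ = x 0 := by
  simp [e0, EuclideanSpace.inner_single_left]

lemma inner_e1 (x : 𝔼) : ⟪(e1 : 𝔼), x⟫ = x 1 := by
  simp [e1, EuclideanSpace.inner_single_left]

lemma e0_0 : (e0 : 𝔼) 0 = 1 := by simp [e0]
lemma e0_1 : (e0 : 𝔼) 1 = 0 := by simp [e0]
lemma e1_0 : (e1 : 𝔼) 0 = 0 := by simp [e1]
lemma e1_1 : (e1 : 𝔼) 1 = 1 := by simp [e1]

lemma ys_inj {a : ℝ} (ha : 0 < a) : Function.Injective (ys (n := n) a) := by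
  intro i j hij
  have h0 := congrArg (fun v : 𝔼 => v 0) hij
  have h1 := congrArg (fun v : 𝔼 => v 1) hij
  fin_cases i <;> fin_cases j <;>
    simp [ys, e0_0, e0_1, e1_0, e1_1] at h0 h1 ⊢ <;> linarith

lemma zs_inj {a : ℝ} (ha : 0 < a) : Function.Injective (zs (n := n) a) := by
  intro i j hij
  have h0 := congrArg (fun v : 𝔼 => v 0) hij
  have h1 := congrArg (fun v : 𝔼 => v 1) hij
  fin_cases i <;> fin_cases j <;>
    simp [zs, e0_0, e0_1, e1_0, e1_1] at h0 h1 ⊢ <;> linarith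

/-- reflection in the second coordinate -/
noncomputable def refl1 : 𝔼 ≃ₗᵢ[ℝ] 𝔼 :=
  LinearIsometryEquiv.piLpCongrRight 2 (fun i : Fin (n + 2) =>
    if i = 1 then LinearIsometryEquiv.neg ℝ else LinearIsometryEquiv.refl ℝ ℝ)

lemma refl1_apply (x : 𝔼) (i : Fin (n + 2)) : refl1 x i = if i = 1 then - x i else x i := by
  unfold refl1
  rw [LinearIsometryEquiv.piLpCongrRight_apply]
  simp only
  split_ifs <;> simp

lemma refl1_ys (a : ℝ) (i : Fin 3) : refl1 (ys (n := n) a i) = zs a i := by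
  ext k
  rw [refl1_apply]
  fin_cases i
  · by_cases hk : k = 1
    · subst hk; simp [ys, zs, e0_1]
    · simp [ys, zs, hk]
  · by_cases hk : k = 1
    · subst hk; simp [ys, zs, e0_1]
    · simp [ys, zs, hk]
  · by_cases hk : k = 1
    · subst hk; simp [ys, zs, e1_1]
    · have : (e1 : 𝔼) k = 0 := by simp [e1, hk]
      simp [ys, zs, hk, this]

lemma refl1_cube (x : 𝔼) : refl1 x ∈ cube n ↔ x ∈ cube n := by
  simp only [cube, Set.mem_ofPred_eq, refl1_apply]
  refine forall_congr' fun i => ?_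
  split_ifs <;> simp

lemma mass_eq (a : ℝ) (i : Fin 3) :
    mass (cube n) (ys a) (psi a) i = mass (cube n) (zs a) (psi a) i := by
  unfold mass
  have hpre : (refl1 : 𝔼 ≃ₗᵢ[ℝ] 𝔼) ⁻¹' (cell (cube n) (zs a) (psi a) i) =
      cell (cube n) (ys a) (psi a) i := by
    ext x
    simp only [Set.mem_preimage, cell, Set.mem_ofPred_eq, refl1_cube]
    have : ∀ j, ⟪zs (n := n) a j, refl1 x⟫ = ⟪ys a j, x⟫ := by
      intro j
      rw [← refl1_ys]
      exact LinearIsometryEquiv.inner_map_map _ _ _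
    simp only [this]
  have hmp : MeasurePreserving (refl1 : 𝔼 ≃ₗᵢ[ℝ] 𝔼) volume volume :=
    LinearIsometryEquiv.measurePreserving _
  have h := hmp.measure_preimage
    (measurableSet_cell isClosed_cube (zs a) (psi a) i).nullMeasurableSet
  rw [hpre] at h
  simp only [Measure.real, h]

lemma inner_ys (a : ℝ) (x : 𝔼) (i : Fin 3) :
    ⟪ys a i, x⟫ - psi a i = ![-x 0, x 0, a - a * x 1] i := by
  fin_cases i
  · simp [ys, psi, inner_neg_left, inner_e0]
  · simp [ys, psi, inner_e0]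
  · simp [ys, psi, inner_neg_left, inner_smul_left, inner_e1]; ring

lemma inner_zs (a : ℝ) (x : 𝔼) (i : Fin 3) :
    ⟪zs a i, x⟫ - psi a i = ![-x 0, x 0, a + a * x 1] i := by
  fin_cases i
  · simp [zs, psi, inner_neg_left, inner_e0]
  · simp [zs, psi, inner_e0]
  · simp [zs, psi, inner_smul_left, inner_e1]; ring

lemma ys_norm {a : ℝ} (ha : 0 < a) (ha1 : a ≤ 1) (i : Fin 3) : ‖ys (n := n) a i‖ ≤ 1 := by
  fin_cases i
  · simp [ys, e0]
  · simp [ys, e0]
  · simp [ys, e1, norm_smul, abs_of_pos ha, ha1]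

lemma zs_norm {a : ℝ} (ha : 0 < a) (ha1 : a ≤ 1) (i : Fin 3) : ‖zs (n := n) a i‖ ≤ 1 := by
  fin_cases i
  · simp [zs, e0]
  · simp [zs, e0]
  · simp [zs, e1, norm_smul, abs_of_pos ha, ha1]

/-- boxes with prescribed first two sides -/
def bx (S0 S1 : Set ℝ) : Fin (n + 2) → Set ℝ :=
  fun k => if k = 0 then S0 else if k = 1 then S1 else Set.Icc (-1) 1

lemma mem_bx {S0 S1 : Set ℝ} {x : 𝔼} (hx : x ∈ box (bx S0 S1)) :
    x 0 ∈ S0 ∧ x 1 ∈ S1 ∧ ∀ k, k ≠ 0 → k ≠ 1 → |x k| ≤ 1 := by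
  have h10 : (1 : Fin (n + 2)) ≠ 0 := by simp
  refine ⟨?_, ?_, ?_⟩
  · have h : x 0 ∈ bx S0 S1 (0 : Fin (n + 2)) := hx 0
    unfold bx at h
    rwa [if_pos rfl] at h
  · have h : x 1 ∈ bx S0 S1 (1 : Fin (n + 2)) := hx 1
    unfold bx at h
    rwa [if_neg h10, if_pos rfl] at h
  · intro k hk0 hk1
    have h : x k ∈ bx S0 S1 k := hx k
    unfold bx at h
    rw [if_neg hk0, if_neg hk1] at h
    exact abs_le.2 h

lemma volume_bx (S0 S1 : Set ℝ) :
    volume.real (box (bx (n := n) S0 S1)) = volume.real S0 * (volume.real S1 * 2 ^ n) := by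
  rw [volume_real_box, Fin.prod_univ_succ, Fin.prod_univ_succ]
  have h10 : (1 : Fin (n + 2)) ≠ 0 := by simp
  have e0' : bx (n := n) S0 S1 0 = S0 := by unfold bx; rw [if_pos rfl]
  have e1' : bx (n := n) S0 S1 (Fin.succ 0) = S1 := by
    have : (Fin.succ 0 : Fin (n + 2)) = 1 := rfl
    unfold bx; rw [this, if_neg h10, if_pos rfl]
  have e2' : ∀ i : Fin n, volume.real (bx (n := n) S0 S1 i.succ.succ) = 2 := by
    intro i
    unfold bx
    have h2 : (i.succ.succ : Fin (n + 2)) ≠ 1 := by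
      intro h
      have : (1 : Fin (n + 2)) = Fin.succ 0 := rfl
      rw [this] at h
      exact Fin.succ_ne_zero _ (Fin.succ_injective _ h)
    rw [if_neg (Fin.succ_ne_zero _), if_neg h2, Real.volume_real_Icc_of_le (by norm_num)]
    norm_num
  simp only [e0', e1', e2', Finset.prod_const, Finset.card_univ, Fintype.card_fin]

lemma mem_cell_z (a : ℝ) (i : Fin 3) (x : 𝔼) : x ∈ cell (cube n) (zs a) (psi a) i ↔
    (∀ k, |x k| ≤ 1) ∧
      ∀ j : Fin 3, ![-x 0, x 0, a + a * x 1] j ≤ ![-x 0, x 0, a + a * x 1] i := by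
  simp only [cell, Set.mem_ofPred_eq, inner_zs]
  rfl

/-- positive mass of the cells -/
lemma mass_pos {a : ℝ} (ha : 0 < a) (ha1 : a ≤ 1 / 4) (i : Fin 3) :
    0 < mass (cube n) (zs a) (psi a) i := by
  -- each cell contains a box of positive volume
  have key : ∀ (S0 S1 : Set ℝ), 0 < volume.real S0 → 0 < volume.real S1 →
      (∀ x : 𝔼, x 0 ∈ S0 → x 1 ∈ S1 → |x 0| ≤ 1 ∧ |x 1| ≤ 1 ∧
        ∀ j : Fin 3, ![-x 0, x 0, a + a * x 1] j ≤ ![-x 0, x 0, a + a * x 1] i) →
      0 < mass (cube n) (zs a) (psi a) i := by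
    intro S0 S1 h0 h1 hall
    have hsub : box (bx S0 S1) ⊆ cell (cube n) (zs a) (psi a) i := by
      intro x hx
      obtain ⟨g0, g1, g2⟩ := mem_bx hx
      obtain ⟨r0, r1, r2⟩ := hall x g0 g1
      rw [mem_cell_z]
      refine ⟨fun k => ?_, r2⟩
      by_cases hk0 : k = 0
      · rw [hk0]; exact r0
      · by_cases hk1 : k = 1
        · rw [hk1]; exact r1
        · exact g2 k hk0 hk1
    have h2 : 0 < volume.real (box (bx (n := n) S0 S1)) := by
      rw [volume_bx]; positivity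
    exact lt_of_lt_of_le h2 (measureReal_mono hsub
      (lt_of_le_of_lt (measure_mono (cell_subset _ _ _ _)) isCompact_cube.measure_lt_top).ne)
  fin_cases i
  · refine key (Set.Icc (-1) (-(1 / 2))) (Set.Icc 0 1)
      (by rw [Real.volume_real_Icc_of_le] <;> norm_num)
      (by rw [Real.volume_real_Icc_of_le] <;> norm_num) ?_
    intro x h0 h1
    rw [Set.mem_Icc] at h0 h1
    refine ⟨by rw [abs_le]; constructor <;> linarith [h0.1, h0.2],
      by rw [abs_le]; constructor <;> linarith [h1.1, h1.2], fun j => ?_⟩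
    fin_cases j
    · simp
    · simp; linarith [h0.2]
    · simp
      nlinarith [h0.2, h1.1, h1.2]
  · refine key (Set.Icc (1 / 2) 1) (Set.Icc 0 1)
      (by rw [Real.volume_real_Icc_of_le] <;> norm_num)
      (by rw [Real.volume_real_Icc_of_le] <;> norm_num) ?_
    intro x h0 h1
    rw [Set.mem_Icc] at h0 h1
    refine ⟨by rw [abs_le]; constructor <;> linarith [h0.1, h0.2],
      by rw [abs_le]; constructor <;> linarith [h1.1, h1.2], fun j => ?_⟩
    fin_cases j
    · simp; linarith [h0.1]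
    · simp
    · simp
      nlinarith [h0.1, h1.1, h1.2]
  · refine key (Set.Icc 0 a) (Set.Icc 0 1)
      (by rw [Real.volume_real_Icc_of_le ha.le]; linarith)
      (by rw [Real.volume_real_Icc_of_le] <;> norm_num) ?_
    intro x h0 h1
    rw [Set.mem_Icc] at h0 h1
    refine ⟨by rw [abs_le]; constructor <;> linarith [h0.1, h0.2],
      by rw [abs_le]; constructor <;> linarith [h1.1, h1.2], fun j => ?_⟩
    have hax : 0 ≤ a * x 1 := mul_nonneg ha.le h1.1
    fin_cases j
    · simp; linarith [h0.1]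
    · simp; linarith [h0.2]
    · simp

/-- upper bound for the mass of the third cell -/
lemma mass_le {a : ℝ} (ha : 0 < a) :
    mass (cube n) (zs a) (psi a) 2 ≤ 2 * a * 2 ^ (n + 2) := by
  set S0 : Set ℝ := Set.Icc (-(2 * a)) (2 * a) with hS0
  set S1 : Set ℝ := Set.Icc (-1) 1 with hS1
  have hsub : cell (cube n) (zs a) (psi a) 2 ⊆ box (bx S0 S1) := by
    intro x hx
    rw [mem_cell_z] at hx
    obtain ⟨h1, h2⟩ := hx
    have hA := h2 0
    have hB := h2 1
    simp at hA hB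
    have h3 : x 1 ≤ 1 := (abs_le.1 (h1 1)).2
    have h4 : a * x 1 ≤ a := by nlinarith
    intro k
    unfold bx
    split_ifs with hk0 hk1
    · rw [hk0, hS0, Set.mem_Icc]
      constructor <;> linarith
    · rw [hk1]; exact abs_le.1 (h1 1)
    · exact abs_le.1 (h1 k)
  have hfin : volume (box (bx (n := n) S0 S1)) ≠ ∞ := by
    rw [volume_box]
    refine ENNReal.prod_ne_top fun k _ => ?_
    unfold bx
    split_ifs <;> simp [hS0, hS1]
  refine (measureReal_mono hsub hfin).trans (le_of_eq ?_)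
  rw [volume_bx, hS0, hS1, Real.volume_real_Icc_of_le (by linarith),
    Real.volume_real_Icc_of_le (by norm_num)]
  ring

/-- the box where the two maps differ -/
lemma on_box {a : ℝ} (ha : 0 < a) (ha1 : a ≤ 1 / 4) {x : 𝔼}
    (hx : x ∈ box (bx (n := n) (Set.Ioo (a / 2) a) (Set.Ioo (1 / 2) 1))) :
    x ∈ cube n ∧ (∀ j : Fin 3, j ≠ 1 → ⟪ys a j, x⟫ - psi a j < ⟪ys a 1, x⟫ - psi a 1) ∧
      (∀ j : Fin 3, j ≠ 2 → ⟪zs a j, x⟫ - psi a j < ⟪zs a 2, x⟫ - psi a 2) := by
  obtain ⟨h0, h1, h2⟩ := mem_bx hx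
  rw [Set.mem_Ioo] at h0 h1
  refine ⟨?_, ?_, ?_⟩
  · intro k
    by_cases hk0 : k = 0
    · rw [hk0, abs_le]; constructor <;> linarith [h0.1, h0.2]
    · by_cases hk1 : k = 1
      · rw [hk1, abs_le]; constructor <;> linarith [h1.1, h1.2]
      · exact h2 k hk0 hk1
  · intro j hj
    simp only [inner_ys]
    fin_cases j
    · simp; linarith [h0.1]
    · exact absurd rfl hj
    · simp; nlinarith [h0.1, h1.1]
  · intro j hj
    simp only [inner_zs]
    fin_cases j
    · simp; nlinarith [h0.1, h1.1]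
    · simp; nlinarith [h0.2, h1.1]
    · exact absurd rfl hj

lemma ys_mem_cube {a : ℝ} (ha : 0 < a) (ha1 : a ≤ 1) (i : Fin 3) : ys a i ∈ cube n :=
  ball_cube (by simpa using ys_norm ha ha1 i)

lemma zs_mem_cube {a : ℝ} (ha : 0 < a) (ha1 : a ≤ 1) (i : Fin 3) : zs a i ∈ cube n :=
  ball_cube (by simpa using zs_norm ha ha1 i)

lemma measurableSet_box {s : Fin (n + 2) → Set ℝ} (hs : ∀ i, MeasurableSet (s i)) :
    MeasurableSet (box s) := by
  have : box s = ⋂ i, {x : 𝔼 | x i ∈ s i} := by ext x; simp [box]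
  rw [this]
  refine MeasurableSet.iInter fun i => ?_
  have hm : Measurable fun x : 𝔼 => x i := by fun_prop
  exact hm (hs i)

lemma rho_box {a : ℝ} (ha : 0 < a) (ha1 : a ≤ 1 / 4) :
    uniformProbOn (cube n) (box (bx (n := n) (Set.Ioo (a / 2) a) (Set.Ioo (1 / 2) 1))) =
      ENNReal.ofReal (a / 16) := by
  set Bx := box (bx (n := n) (Set.Ioo (a / 2) a) (Set.Ioo (1 / 2) 1)) with hBx
  have hm : MeasurableSet Bx := measurableSet_box fun i => by
    unfold bx
    split_ifs
    · exact measurableSet_Ioo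
    · exact measurableSet_Ioo
    · exact measurableSet_Icc
  have hsub : Bx ⊆ cube n := fun x hx => (on_box ha ha1 hx).1
  have hV : volume (cube n) = ENNReal.ofReal (2 ^ (n + 2)) := by
    rw [← volume_cube, ofReal_measureReal isCompact_cube.measure_lt_top.ne]
  have hB : volume Bx = ENNReal.ofReal (a / 2 * (1 / 2 * 2 ^ n)) := by
    have h1 : volume.real Bx = a / 2 * (1 / 2 * 2 ^ n) := by
      rw [hBx, volume_bx, Real.volume_real_Ioo_of_le (by linarith),
        Real.volume_real_Ioo_of_le (by norm_num)]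
      ring
    rw [← h1, ofReal_measureReal
      (lt_of_le_of_lt (measure_mono hsub) isCompact_cube.measure_lt_top).ne]
  unfold uniformProbOn
  rw [Measure.smul_apply, Measure.restrict_apply hm, Set.inter_eq_self_of_subset_left hsub,
    smul_eq_mul, hV, hB, ← ENNReal.ofReal_inv_of_pos (by positivity),
    ← ENNReal.ofReal_mul (by positivity)]
  congr 1
  rw [pow_add]
  field_simp
  norm_num

/-- the coupling -/
noncomputable def cpl (w : Fin 3 → ℝ) (a : ℝ) : Measure (𝔼 × 𝔼) :=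
  ∑ i, ENNReal.ofReal (w i) • Measure.dirac (ys a i, zs a i)

lemma cpl_fst (w : Fin 3 → ℝ) (a : ℝ) : (cpl (n := n) w a).map Prod.fst =
    ∑ i, ENNReal.ofReal (w i) • Measure.dirac (ys a i) := by
  unfold cpl
  have hd : ∀ p : 𝔼 × 𝔼, (Measure.dirac p).map Prod.fst = Measure.dirac p.1 := fun p =>
    Measure.map_dirac' measurable_fst p
  simp only [Fin.sum_univ_three]
  rw [Measure.map_add _ _ measurable_fst, Measure.map_add _ _ measurable_fst, Measure.map_smul,
    Measure.map_smul, Measure.map_smul, hd, hd, hd]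

lemma cpl_snd (w : Fin 3 → ℝ) (a : ℝ) : (cpl (n := n) w a).map Prod.snd =
    ∑ i, ENNReal.ofReal (w i) • Measure.dirac (zs a i) := by
  unfold cpl
  have hd : ∀ p : 𝔼 × 𝔼, (Measure.dirac p).map Prod.snd = Measure.dirac p.2 := fun p =>
    Measure.map_dirac' measurable_snd p
  simp only [Fin.sum_univ_three]
  rw [Measure.map_add _ _ measurable_snd, Measure.map_add _ _ measurable_snd, Measure.map_smul,
    Measure.map_smul, Measure.map_smul, hd, hd, hd]

lemma cpl_cost {w : Fin 3 → ℝ} {a : ℝ} (ha : 0 < a) (hw : w 2 ≤ 2 * a) :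
    quadCost (cpl (n := n) w a) ≤ ENNReal.ofReal (8 * a ^ 3) := by
  unfold quadCost cpl
  simp only [Fin.sum_univ_three]
  rw [lintegral_add_measure, lintegral_add_measure, lintegral_smul_measure,
    lintegral_smul_measure, lintegral_smul_measure, lintegral_dirac, lintegral_dirac,
    lintegral_dirac]
  have h0 : ys (n := n) a 0 - zs a 0 = 0 := by simp [ys, zs]
  have h1 : ys (n := n) a 1 - zs a 1 = 0 := by simp [ys, zs]
  have h2 : ‖ys (n := n) a 2 - zs a 2‖ = 2 * a := by
    have : ys (n := n) a 2 - zs a 2 = (-(2 * a)) • e1 := by simp [ys, zs]; module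
    rw [this, norm_smul]
    simp [e1, abs_of_pos ha]
  simp only [h0, h1]
  have h3 : ‖ys (n := n) a 2 - zs a 2‖ₑ ^ 2 = ENNReal.ofReal (4 * a ^ 2) := by
    rw [← ofReal_norm, h2, ← ENNReal.ofReal_pow (by positivity)]
    congr 1; ring
  rw [h3]
  simp only [enorm_zero, ne_eq, OfNat.ofNat_ne_zero, not_false_eq_true, zero_pow, smul_zero,
    add_zero, zero_add, smul_eq_mul, mul_zero]
  rw [← ENNReal.ofReal_mul' (by positivity)]
  refine ENNReal.ofReal_le_ofReal ?_
  nlinarith [sq_nonneg a, mul_le_mul_of_nonneg_right hw (by positivity : 0 ≤ 4 * a ^ 2)]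

lemma choose_a {α : ℝ} (hα : 1 / 3 < α) (C : ℝ≥0) : ∃ a : ℝ, 0 < a ∧ a ≤ 1 / 4 ∧
    (C : ℝ≥0∞) * ENNReal.ofReal (8 * a ^ 3) ^ α < ENNReal.ofReal (a / 16) := by
  set β := 3 * α - 1 with hβ
  have hβ0 : 0 < β := by linarith
  have hα0 : 0 < α := by linarith
  set M := 16 * (C : ℝ) * 8 ^ α + 1 with hM
  have hM1 : 1 ≤ M := by
    have : 0 ≤ 16 * (C : ℝ) * 8 ^ α := by positivity
    linarith
  have hM0 : 0 < M := by linarith
  set a := min (1 / 4) ((1 / M) ^ (1 / β)) with ha
  have ha0 : 0 < a := lt_min (by norm_num) (Real.rpow_pos_of_pos (by positivity) _)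
  refine ⟨a, ha0, min_le_left _ _, ?_⟩
  have haβ : a ^ β ≤ 1 / M := by
    calc a ^ β ≤ ((1 / M) ^ (1 / β)) ^ β :=
          Real.rpow_le_rpow ha0.le (min_le_right _ _) hβ0.le
      _ = 1 / M := by
          rw [← Real.rpow_mul (by positivity), one_div_mul_cancel hβ0.ne', Real.rpow_one]
  have h1 : (8 * a ^ 3) ^ α = 8 ^ α * (a * a ^ β) := by
    rw [Real.mul_rpow (by norm_num) (by positivity), ← Real.rpow_natCast a 3,
      ← Real.rpow_mul ha0.le, ← Real.rpow_one_add' ha0.le (by positivity)]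
    congr 2
    rw [hβ]; push_cast; ring
  rw [ENNReal.ofReal_rpow_of_nonneg (by positivity) hα0.le, h1]
  have hC : (C : ℝ≥0∞) = ENNReal.ofReal (C : ℝ) := by simp
  rw [hC, ← ENNReal.ofReal_mul (by positivity)]
  rw [ENNReal.ofReal_lt_ofReal_iff (by positivity)]
  have h2 : (C : ℝ) * 8 ^ α * a ^ β ≤ (C : ℝ) * 8 ^ α * (1 / M) :=
    mul_le_mul_of_nonneg_left haβ (by positivity)
  have h3 : (C : ℝ) * 8 ^ α * (1 / M) < 1 / 16 := by
    rw [mul_one_div, div_lt_div_iff₀ hM0 (by norm_num)]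
    rw [hM]; linarith
  calc (C : ℝ) * (8 ^ α * (a * a ^ β)) = a * ((C : ℝ) * 8 ^ α * a ^ β) := by ring
    _ < a * (1 / 16) := mul_lt_mul_of_pos_left (lt_of_le_of_lt h2 h3) ha0
    _ = a / 16 := by ring

end

/-- The exponent one third is optimal, even on the cube with three-atom targets: for d ≥ 2, ρ the uniform probability measure on the cube of points of ℝᵈ with all coordinates in [-1, 1], every α > 1/3 and every C ≥ 0, there are three-atomic probability measures μ, ν on that cube, each admitting a quadratic optimal transport map from ρ, such that for all such optimal maps Tμ, Tν some coupling π of μ, ν has C · (∫ ‖y - z‖² dπ)^α < ∫ ‖Tμ - Tν‖² dρ. Hence ‖Tμ - Tν‖_{L²(ρ)} > √C · W₂(μ, ν)^α. -/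
theorem result
    (d : ℕ) (hd : 2 ≤ d) (α : ℝ) (hα : 1 / 3 < α) (C : ℝ≥0) :
    ∃ μ ν : Measure (EuclideanSpace ℝ (Fin d)),
      IsProbabilityOn {x : EuclideanSpace ℝ (Fin d) | ∀ i, |x i| ≤ 1} μ ∧
      IsProbabilityOn {x : EuclideanSpace ℝ (Fin d) | ∀ i, |x i| ≤ 1} ν ∧
      IsThreeAtomic μ ∧ IsThreeAtomic ν ∧
      (∃ T, IsOptimalMap (uniformProbOn {x : EuclideanSpace ℝ (Fin d) | ∀ i, |x i| ≤ 1}) μ T) ∧
      (∃ T, IsOptimalMap (uniformProbOn {x : EuclideanSpace ℝ (Fin d) | ∀ i, |x i| ≤ 1}) ν T) ∧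
      ∀ Tμ Tν : EuclideanSpace ℝ (Fin d) → EuclideanSpace ℝ (Fin d),
        IsOptimalMap (uniformProbOn {x : EuclideanSpace ℝ (Fin d) | ∀ i, |x i| ≤ 1}) μ Tμ →
        IsOptimalMap (uniformProbOn {x : EuclideanSpace ℝ (Fin d) | ∀ i, |x i| ≤ 1}) ν Tν →
        ∃ π : Measure (EuclideanSpace ℝ (Fin d) × EuclideanSpace ℝ (Fin d)), IsPairCoupling μ ν π ∧
          (C : ℝ≥0∞) * quadCost π ^ α < ∫⁻ x, ‖Tμ x - Tν x‖ₑ ^ 2 ∂(uniformProbOn {x : EuclideanSpace ℝ (Fin d) | ∀ i, |x i| ≤ 1}) := by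
  obtain ⟨n, rfl⟩ := Nat.exists_eq_add_of_le' hd
  obtain ⟨a, ha, ha4, haC⟩ := choose_a hα C
  have ha1 : a ≤ 1 := by linarith
  have hK : IsCompact (cube n) := isCompact_cube
  have hV : 0 < volume.real (cube n) := by rw [volume_cube]; positivity
  have hprob := isProb_uniform hK hV
  have hne : (cube n).Nonempty := ⟨0, ball_cube (by simp)⟩
  obtain ⟨s, hs, hsm⟩ := exists_sel (ys (n := n) a) (psi a)
  obtain ⟨s', hs', hsm'⟩ := exists_sel (zs (n := n) a) (psi a)
  set w : Fin 3 → ℝ := fun i => (volume.real (cube n))⁻¹ * mass (cube n) (zs a) (psi a) i with hw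
  have hwpos : ∀ i, 0 < w i := fun i => mul_pos (inv_pos.2 hV) (mass_pos ha ha4 i)
  have hμ : (uniformProbOn (cube n)).map (fun x => ys (n := n) a (s x)) =
      ∑ i, ENNReal.ofReal (w i) • Measure.dirac (ys (n := n) a i) := by
    rw [map_sel hK hV (ys_inj ha) hs hsm]
    simp only [mass_eq, hw]
  have hν : (uniformProbOn (cube n)).map (fun x => zs (n := n) a (s' x)) =
      ∑ i, ENNReal.ofReal (w i) • Measure.dirac (zs (n := n) a i) :=
    map_sel hK hV (zs_inj ha) hs' hsm'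
  have hL : ∀ x, ‖ys (n := n) a (s x)‖ ≤ 1 := fun x => ys_norm ha ha1 _
  have hL' : ∀ x, ‖zs (n := n) a (s' x)‖ ≤ 1 := fun x => zs_norm ha ha1 _
  have hw2 : w 2 ≤ 2 * a := by
    have := mass_le (n := n) ha
    simp only [hw]
    rw [inv_mul_le_iff₀ hV, volume_cube]
    linarith
  refine ⟨(uniformProbOn (cube n)).map (fun x => ys (n := n) a (s x)),
    (uniformProbOn (cube n)).map (fun x => zs (n := n) a (s' x)), ?_, ?_,
    ⟨ys a, ys_inj ha, w, hwpos, hμ⟩, ⟨zs a, zs_inj ha, w, hwpos, hν⟩,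
    ⟨_, isOptimal_of_subgrad hK hne hV zero_le_one (continuous_phi _ _) (hsm _) hL
      (subgrad_sel _ hs) rfl⟩,
    ⟨_, isOptimal_of_subgrad hK hne hV zero_le_one (continuous_phi _ _) (hsm' _) hL'
      (subgrad_sel _ hs') rfl⟩, ?_⟩
  · refine ⟨Measure.isProbabilityMeasure_map (hsm _).aemeasurable, ?_⟩
    show ((uniformProbOn (cube n)).map (fun x => ys (n := n) a (s x))) (cube n)ᶜ = 0
    rw [Measure.map_apply (hsm _) isClosed_cube.measurableSet.compl]
    have : (fun x => ys (n := n) a (s x)) ⁻¹' (cube n)ᶜ = ∅ := by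
      ext x
      simp only [Set.mem_preimage, Set.mem_compl_iff, Set.mem_empty_iff_false, iff_false, not_not]
      exact ys_mem_cube ha ha1 _
    rw [this, measure_empty]
  · refine ⟨Measure.isProbabilityMeasure_map (hsm' _).aemeasurable, ?_⟩
    show ((uniformProbOn (cube n)).map (fun x => zs (n := n) a (s' x))) (cube n)ᶜ = 0
    rw [Measure.map_apply (hsm' _) isClosed_cube.measurableSet.compl]
    have : (fun x => zs (n := n) a (s' x)) ⁻¹' (cube n)ᶜ = ∅ := by
      ext x
      simp only [Set.mem_preimage, Set.mem_compl_iff, Set.mem_empty_iff_false, iff_false, not_not]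
      exact zs_mem_cube ha ha1 _
    rw [this, measure_empty]
  · intro Tμ Tν hTμ hTν
    refine ⟨cpl w a, ⟨(cpl_fst w a).trans hμ.symm, (cpl_snd w a).trans hν.symm⟩, ?_⟩
    have hTμ' : IsOptimalMap (uniformProbOn (cube n))
      ((uniformProbOn (cube n)).map (fun x => ys (n := n) a (s x))) Tμ := hTμ
    have hTν' : IsOptimalMap (uniformProbOn (cube n))
      ((uniformProbOn (cube n)).map (fun x => zs (n := n) a (s' x))) Tν := hTν
    have u1 := unique_of_subgrad hK convex_cube one_pos ball_cube hV zero_le_one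
      (fun x x' => abs_phi_x_sub_le _ _ x x' (ys_norm ha ha1)) (hsm _) hL (subgrad_sel _ hs) rfl
      hTμ'
    have u2 := unique_of_subgrad hK convex_cube one_pos ball_cube hV zero_le_one
      (fun x x' => abs_phi_x_sub_le _ _ x x' (zs_norm ha ha1)) (hsm' _) hL' (subgrad_sel _ hs') rfl
      hTν'
    rw [← ae_uniform_iff hK] at u1 u2
    show (C : ℝ≥0∞) * quadCost (cpl w a) ^ α < ∫⁻ x, ‖Tμ x - Tν x‖ₑ ^ 2 ∂(uniformProbOn (cube n))
    set Bx := box (bx (n := n) (Set.Ioo (a / 2) a) (Set.Ioo (1 / 2) 1)) with hBx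
    have hBm : MeasurableSet Bx := measurableSet_box fun i => by
      unfold bx
      split_ifs
      · exact measurableSet_Ioo
      · exact measurableSet_Ioo
      · exact measurableSet_Icc
    have hlow : ENNReal.ofReal (a / 16) ≤ ∫⁻ x, ‖Tμ x - Tν x‖ₑ ^ 2 ∂(uniformProbOn (cube n)) := by
      calc ENNReal.ofReal (a / 16) = ∫⁻ _x in Bx, 1 ∂(uniformProbOn (cube n)) := by
            rw [setLIntegral_one, rho_box ha ha4]
        _ ≤ ∫⁻ x in Bx, ‖Tμ x - Tν x‖ₑ ^ 2 ∂(uniformProbOn (cube n)) := by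
            refine lintegral_mono_ae ?_
            filter_upwards [ae_restrict_of_ae u1, ae_restrict_of_ae u2, ae_restrict_mem hBm]
              with x h1 h2 h3
            obtain ⟨g1, g2, g3⟩ := on_box ha ha4 h3
            have hsx : s x = 1 := by
              by_contra hne1
              have := g2 _ hne1
              rw [← hs x] at this
              exact absurd (le_phi (ys a) (psi a) x 1) (not_le.2 this)
            have hsx' : s' x = 2 := by
              by_contra hne1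
              have := g3 _ hne1
              rw [← hs' x] at this
              exact absurd (le_phi (zs a) (psi a) x 2) (not_le.2 this)
            rw [h1, h2, hsx, hsx']
            have h4 : (1 : ℝ) ≤ ‖ys (n := n) a 1 - zs (n := n) a 2‖ := by
              have h5 : ‖(ys (n := n) a 1 - zs (n := n) a 2) 0‖ ≤
                  ‖ys (n := n) a 1 - zs (n := n) a 2‖ := PiLp.norm_apply_le _ 0
              have h6 : (ys (n := n) a 1 - zs (n := n) a 2) 0 = 1 := by
                simp [ys, zs, e0_0, e1_0]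
              rw [h6] at h5
              simpa using h5
            rw [← ofReal_norm, ← ENNReal.ofReal_pow (norm_nonneg _), ← ENNReal.ofReal_one]
            exact ENNReal.ofReal_le_ofReal (one_le_pow₀ h4)
        _ ≤ ∫⁻ x, ‖Tμ x - Tν x‖ₑ ^ 2 ∂(uniformProbOn (cube n)) :=
            setLIntegral_le_lintegral _ _
    exact lt_of_le_of_lt (mul_le_mul' le_rfl (ENNReal.rpow_le_rpow (cpl_cost ha hw2)
      (by linarith))) (lt_of_lt_of_le haC hlow)

end Crest.Agent.S0110
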