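import Crest.Statements.S0112
import Crest.Agent.H3.BRStep

set_option autoImplicit false
open Crest Crest.AnalysisR Crest.AnalysisR.OperatorAlgebra

namespace Crest.Agent.S0112

open MeasureTheory Filter Topology Crest.OpAlg Crest.Agent.H3.BR in
/-- approximation of a band-limited vector by a band-limited element of the algebra -/
lemma exists_band
    {H : Type*} [NormedAddCommGroup H] [InnerProductSpace ℂ H] [CompleteSpace H]
    (S : ModularDatum H) {s δ : ℝ} (hδ : 0 < δ) {h : H}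
    (hband : S.D.SupportedIn (Set.Icc (s - δ) (s + δ)) h) {ε : ℝ} (hε : 0 < ε) :
    ∃ a : H →L[ℂ] H, a ∈ S.M ∧ S.D.SupportedIn (Set.Icc (s - 2 * δ) (s + 2 * δ)) (a S.vac) ∧
      ‖a S.vac - h‖ < ε := by
  obtain ⟨_, hb, ⟨b, rfl⟩⟩ := Metric.dense_iff.1 S.cyclic h ε hε
  obtain ⟨a, haM, _, hav⟩ := exists_smooth S s (half_pos hδ) b.2
  refine ⟨a, haM, ?_, ?_⟩
  · rw [hav]
    have := supported_bump S.D s (half_pos hδ) ((b : H →L[ℂ] H) S.vac)
    have e1 : s - 4 * (δ / 2) = s - 2 * δ := by ring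
    have e2 : s + 4 * (δ / 2) = s + 2 * δ := by ring
    rwa [e1, e2] at this
  · have hfix : S.D.apply (bumpBC s (δ / 2)) h = h := by
      refine bump_fix (half_pos hδ) ?_
      have e1 : s - 2 * (δ / 2) = s - δ := by ring
      have e2 : s + 2 * (δ / 2) = s + δ := by ring
      rwa [e1, e2]
    have h1 : a S.vac - h = S.D.apply (bumpBC s (δ / 2)) ((b : H →L[ℂ] H) S.vac - h) := by
      rw [hav, map_sub, hfix]
    rw [h1]
    refine (norm_apply_apply_le S.D _ _).trans_lt ?_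
    have hb' : ‖(b : H →L[ℂ] H) S.vac - h‖ < ε := by
      rw [← dist_eq_norm]; exact hb
    calc ‖bumpBC s (δ / 2)‖ * ‖(b : H →L[ℂ] H) S.vac - h‖
        ≤ 1 * ‖(b : H →L[ℂ] H) S.vac - h‖ :=
          mul_le_mul_of_nonneg_right (norm_bumpBC_le _ _) (norm_nonneg _)
      _ < ε := by rw [one_mul]; exact hb'

set_option maxHeartbeats 2000000 in
open MeasureTheory Filter Topology Crest.OpAlg Crest.Agent.H3.BR in
lemma core
    {H : Type*} [NormedAddCommGroup H] [InnerProductSpace ℂ H] [CompleteSpace H]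
    (S : ModularDatum H) (herg : S.Ergodic)
    (ω : Ultrafilter ℕ) (hω : (ω : Filter ℕ) ≤ Filter.atTop)
    (T : H →L[ℂ] H) (s Δ c : ℝ) (hc : 0 < c) :
    ∃ C η : ℝ, 0 < η ∧ ∀ δ : ℝ, 0 < δ → δ ≤ Δ → ∀ h : H, ‖h‖ = 1 →
      S.D.SupportedIn (Set.Icc (s - δ) (s + δ)) h →
      c ≤ ultraMean ω (fun t : ℝ => ‖T (S.D.wave t h)‖ ^ 2) →
      ∃ v : H →L[ℂ] H, v ∈ S.M ∧ ‖v‖ ≤ C ∧ η ≤ ‖T (v S.vac)‖ ∧
        S.D.SupportedIn (Set.Icc (s - 4 * δ) (s + 4 * δ)) (v S.vac) := by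
  -- constants
  set c1 : ℝ := c / 4 with hc1
  have hc1pos : 0 < c1 := by positivity
  set B0 : ℝ := 4 * Real.exp (s + 2 * Δ) with hB0
  have hB0pos : 0 < B0 := by positivity
  set C0 : ℝ := 16 + 8 * B0 + 1 with hC0
  have hC0pos : 0 < C0 := by positivity
  set μ : ℝ := 2 * C0 / c1 with hμ
  have hμpos : 0 < μ := by positivity
  set C1 : ℝ := (μ * ‖T‖ ^ 2) ^ 2 with hC1
  have hC1nn : 0 ≤ C1 := by positivity
  set κ : ℝ := c1 / (4 * (‖T‖ ^ 2 * C1 + 1)) with hκ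
  have hκpos : 0 < κ := by positivity
  refine ⟨rhoC * Real.sqrt (1 / (2 * κ)), Real.sqrt (c1 / 8), Real.sqrt_pos.2 (by positivity), ?_⟩
  intro δ hδ hδΔ h hh hband hpos
  -- approximate h
  set ε : ℝ := min 1 (Real.sqrt (c / (4 * (‖T‖ ^ 2 + 1)))) with hε
  have hεpos : 0 < ε := lt_min one_pos (Real.sqrt_pos.2 (by positivity))
  obtain ⟨a, haM, haK, hah⟩ := exists_band S hδ hband hεpos
  have hε1 : ε ≤ 1 := min_le_left _ _
  have hε2 : ε ^ 2 ≤ c / (4 * (‖T‖ ^ 2 + 1)) := by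
    have h1 : ε ≤ Real.sqrt (c / (4 * (‖T‖ ^ 2 + 1))) := min_le_right _ _
    calc ε ^ 2 ≤ (Real.sqrt (c / (4 * (‖T‖ ^ 2 + 1)))) ^ 2 := pow_le_pow_left₀ hεpos.le h1 2
      _ = _ := Real.sq_sqrt (by positivity)
  have hTε : 2 * ‖T‖ ^ 2 * ε ^ 2 ≤ c / 2 := by
    have h1 : ‖T‖ ^ 2 * ε ^ 2 ≤ ‖T‖ ^ 2 * (c / (4 * (‖T‖ ^ 2 + 1))) :=
      mul_le_mul_of_nonneg_left hε2 (by positivity)
    have h2 : ‖T‖ ^ 2 * (c / (4 * (‖T‖ ^ 2 + 1))) ≤ c / 4 := by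
      rw [mul_div_assoc', div_le_div_iff₀ (by positivity) (by norm_num)]
      nlinarith [sq_nonneg ‖T‖, hc]
    linarith
  -- the mean of a
  have hcontT : ∀ x : H, Continuous fun t => ‖T (S.D.wave t x)‖ ^ 2 := by
    intro x
    have := continuous_wave S.D x
    fun_prop
  have hbdd : ∀ x : H, ∀ t, ‖(‖T (S.D.wave t x)‖ ^ 2 : ℝ)‖ ≤ (‖T‖ * ‖x‖) ^ 2 := by
    intro x t
    rw [Real.norm_of_nonneg (by positivity)]
    refine pow_le_pow_left₀ (norm_nonneg _) ?_ 2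
    refine (T.le_opNorm _).trans ?_
    rw [norm_wave_apply]
  obtain ⟨m, hm⟩ := exists_hasMean ω (hbdd (a S.vac))
  obtain ⟨m', hm'⟩ := exists_hasMean ω (hbdd h)
  rw [ultraMean_eq hm'] at hpos
  have hmc : c1 ≤ m := by
    have hle : ∀ t, ‖T (S.D.wave t h)‖ ^ 2 ≤
        2 * ‖T (S.D.wave t (a S.vac))‖ ^ 2 + c / 2 := by
      intro t
      have h1 : T (S.D.wave t h) = T (S.D.wave t (a S.vac)) - T (S.D.wave t (a S.vac - h)) := by
        rw [map_sub, map_sub]; abel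
      have h2 : ‖T (S.D.wave t (a S.vac - h))‖ ≤ ‖T‖ * ε := by
        refine (T.le_opNorm _).trans ?_
        rw [norm_wave_apply]
        exact mul_le_mul_of_nonneg_left hah.le (norm_nonneg _)
      have h3 : ‖T (S.D.wave t h)‖ ≤ ‖T (S.D.wave t (a S.vac))‖ + ‖T‖ * ε := by
        rw [h1]; exact (norm_sub_le _ _).trans (by linarith)
      have h4 : ‖T (S.D.wave t h)‖ ^ 2 ≤ (‖T (S.D.wave t (a S.vac))‖ + ‖T‖ * ε) ^ 2 :=
        pow_le_pow_left₀ (norm_nonneg _) h3 2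
      nlinarith [sq_nonneg (‖T (S.D.wave t (a S.vac))‖ - ‖T‖ * ε)]
    have hmean2 : HasMean ω (fun t => (2 : ℝ) • ‖T (S.D.wave t (a S.vac))‖ ^ 2 + c / 2)
        ((2 : ℝ) • m + c / 2) :=
      (hm.const_smul 2).add (hasMean_const ω hω (c / 2)) (by have := hcontT (a S.vac); fun_prop)
        continuous_const
    have := hm'.mono hmean2 (hcontT h) (by have := hcontT (a S.vac); fun_prop) hle
    rw [smul_eq_mul] at this
    rw [hc1]; linarith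
  -- sizes of a
  have hA' : ‖a S.vac‖ ≤ 2 := by
    have : ‖a S.vac‖ ≤ ‖a S.vac - h‖ + ‖h‖ := by
      simpa using norm_add_le (a S.vac - h) h
    linarith
  set A : ℝ := ‖a S.vac‖ ^ 2 with hA
  set B : ℝ := ‖star a S.vac‖ ^ 2 with hB
  set D0 : ℝ := ‖(star a * a) S.vac‖ ^ 2 with hD
  have hA4 : A ≤ 4 := by
    rw [hA]; nlinarith [norm_nonneg (a S.vac)]
  have hAnn : 0 ≤ A := by positivity
  have hBnn : 0 ≤ B := by positivity
  have hDnn : 0 ≤ D0 := by positivity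
  have hBB : B ≤ B0 := by
    have h1 := norm_star_vac_le S haM haK
    have h2 : ‖star a S.vac‖ ≤ Real.exp ((s + 2 * δ) / 2) * 2 :=
      h1.trans (mul_le_mul_of_nonneg_left hA' (Real.exp_pos _).le)
    have h3 : B ≤ (Real.exp ((s + 2 * δ) / 2) * 2) ^ 2 := pow_le_pow_left₀ (norm_nonneg _) h2 2
    have h4 : (Real.exp ((s + 2 * δ) / 2) * 2) ^ 2 = 4 * Real.exp (s + 2 * δ) := by
      rw [mul_pow, ← Real.exp_nat_mul]
      have : ((2 : ℕ) : ℝ) * ((s + 2 * δ) / 2) = s + 2 * δ := by push_cast; ring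
      rw [this]; ring
    rw [h4] at h3
    refine h3.trans ?_
    rw [hB0]
    have : Real.exp (s + 2 * δ) ≤ Real.exp (s + 2 * Δ) := Real.exp_le_exp.2 (by linarith)
    linarith
  -- number of steps
  obtain ⟨K, hK⟩ := exists_nat_ge (D0 + 1)
  have hK1 : (1 : ℝ) ≤ K := by linarith
  have hKpos : (0 : ℝ) < K := by linarith
  obtain ⟨V, hVM, hVK, hVpot⟩ := exists_steps S T herg ω hω (lam := μ * K) (by positivity) haM
    hA hB hD hm haK one_pos K (zero_mem S.M) (by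
      change S.D.SupportedIn _ ((0 : H →L[ℂ] H) S.vac)
      rw [_root_.zero_apply]; exact supported_zero _ _)
  have hpot0 : pot S T (μ * K) m A B D0 K 0 =
      μ * K * (K * m) - (K * (K - 1) / 2) * (2 * A ^ 2 + 4 * A * B) - K * D0 := by
    unfold pot
    simp
  rw [hpot0] at hVpot
  -- normalise
  set r : ℝ := (Real.sqrt K)⁻¹ with hr
  have hsq : Real.sqrt K ^ 2 = K := Real.sq_sqrt hKpos.le
  have hr2 : r ^ 2 = (K : ℝ)⁻¹ := by rw [hr, inv_pow, hsq]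
  have hrnn : 0 ≤ r := by positivity
  set v : H →L[ℂ] H := (r : ℂ) • V with hv
  have hvM : v ∈ S.M := smul_mem_M S hVM _
  have hvvac : v S.vac = (r : ℂ) • V S.vac := rfl
  have hvK : S.D.SupportedIn (Set.Icc (s - 2 * δ) (s + 2 * δ)) (v S.vac) := by
    rw [hvvac]; exact supported_smul hVK _
  have hN : ‖T (v S.vac)‖ ^ 2 = (K : ℝ)⁻¹ * ‖T (V S.vac)‖ ^ 2 := by
    rw [hvvac, map_smul, norm_smul, mul_pow, Complex.norm_real, Real.norm_of_nonneg hrnn, hr2]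
  have hP : ‖(star v * v) S.vac‖ ^ 2 = ((K : ℝ)⁻¹) ^ 2 * ‖(star V * V) S.vac‖ ^ 2 := by
    have h1 : star v * v = ((r ^ 2 : ℝ) : ℂ) • (star V * V) := by
      rw [hv, star_smul, smul_mul_smul_comm]
      congr 1
      simp
      ring
    rw [h1]
    change ‖((r ^ 2 : ℝ) : ℂ) • (star V * V) S.vac‖ ^ 2 = _
    rw [norm_smul, mul_pow, Complex.norm_real, Real.norm_of_nonneg (by positivity), hr2]
  have hmain : C0 ≤ μ * ‖T (v S.vac)‖ ^ 2 - ‖(star v * v) S.vac‖ ^ 2 := by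
    rw [hN, hP]
    have h1 : K ^ 2 * C0 ≤ μ * K * ‖T (V S.vac)‖ ^ 2 - ‖(star V * V) S.vac‖ ^ 2 := by
      refine le_trans ?_ hVpot
      have e1 : μ * c1 = 2 * C0 := by rw [hμ]; field_simp
      have e2 : K ^ 2 * (2 * C0) ≤ μ * K * (K * m) := by
        have h0 : μ * c1 ≤ μ * m := mul_le_mul_of_nonneg_left hmc hμpos.le
        rw [e1] at h0
        calc (K : ℝ) ^ 2 * (2 * C0) ≤ K ^ 2 * (μ * m) :=
              mul_le_mul_of_nonneg_left h0 (sq_nonneg _)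
          _ = _ := by ring
      have e3 : A ^ 2 + 2 * A * B ≤ 16 + 8 * B0 := by
        have g1 : A ^ 2 ≤ 4 ^ 2 := pow_le_pow_left₀ hAnn hA4 2
        have g2 : A * B ≤ 4 * B0 := mul_le_mul hA4 hBB hBnn (by norm_num)
        linarith
      have e4 : ((K : ℝ) * (K - 1) / 2) * (2 * A ^ 2 + 4 * A * B) ≤ K ^ 2 * (16 + 8 * B0) := by
        have e5 : ((K : ℝ) * (K - 1) / 2) * (2 * A ^ 2 + 4 * A * B) =
            (K * (K - 1)) * (A ^ 2 + 2 * A * B) := by ring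
        rw [e5]
        have e6 : (K : ℝ) * (K - 1) ≤ K ^ 2 := by
          have : (K : ℝ) * (K - 1) = K ^ 2 - K := by ring
          linarith
        exact mul_le_mul e6 e3 (by positivity) (by positivity)
      have e7 : (K : ℝ) * D0 + K * 1 ≤ K ^ 2 := by
        have : (K : ℝ) * (D0 + 1) ≤ K * K := mul_le_mul_of_nonneg_left hK hKpos.le
        calc (K : ℝ) * D0 + K * 1 = K * (D0 + 1) := by ring
          _ ≤ K * K := this
          _ = _ := by ring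
      have e8 : (K : ℝ) ^ 2 * (2 * C0) = K ^ 2 * C0 + (K ^ 2 * (16 + 8 * B0) + K ^ 2) := by
        rw [hC0]; ring
      linarith
    have h2 : μ * ((K : ℝ)⁻¹ * ‖T (V S.vac)‖ ^ 2) - ((K : ℝ)⁻¹) ^ 2 * ‖(star V * V) S.vac‖ ^ 2 =
        ((K : ℝ)⁻¹) ^ 2 * (μ * K * ‖T (V S.vac)‖ ^ 2 - ‖(star V * V) S.vac‖ ^ 2) := by
      field_simp
    rw [h2]
    calc C0 = ((K : ℝ)⁻¹) ^ 2 * (K ^ 2 * C0) := by field_simp
      _ ≤ _ := mul_le_mul_of_nonneg_left h1 (by positivity)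
  have hTv : c1 / 2 ≤ ‖T (v S.vac)‖ ^ 2 := by
    have h1 : C0 ≤ μ * ‖T (v S.vac)‖ ^ 2 := by linarith [sq_nonneg ‖(star v * v) S.vac‖]
    have h2 : C0 = μ * (c1 / 2) := by rw [hμ]; field_simp
    rw [h2] at h1
    exact le_of_mul_le_mul_left h1 hμpos
  have hPhi : ‖(star v * v) S.vac‖ ^ 2 ≤ C1 := by
    set q := ‖(star v * v) S.vac‖ with hq
    have hqnn : 0 ≤ q := norm_nonneg _
    have h1 : q ^ 2 ≤ μ * ‖T (v S.vac)‖ ^ 2 := by linarith
    have h2 : ‖T (v S.vac)‖ ^ 2 ≤ ‖T‖ ^ 2 * ‖v S.vac‖ ^ 2 := by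
      rw [← mul_pow]; exact pow_le_pow_left₀ (norm_nonneg _) (T.le_opNorm _) 2
    have h3 : ‖v S.vac‖ ^ 2 ≤ q := by
      rw [← re_inner_star_mul_self]
      calc (inner ℂ S.vac ((star v * v) S.vac) : ℂ).re
          ≤ ‖(inner ℂ S.vac ((star v * v) S.vac) : ℂ)‖ := Complex.re_le_norm _
        _ ≤ ‖S.vac‖ * ‖(star v * v) S.vac‖ := norm_inner_le_norm _ _
        _ = q := by rw [S.norm_vac, one_mul]
    have h4 : q ^ 2 ≤ μ * ‖T‖ ^ 2 * q := by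
      calc q ^ 2 ≤ μ * ‖T (v S.vac)‖ ^ 2 := h1
        _ ≤ μ * (‖T‖ ^ 2 * ‖v S.vac‖ ^ 2) := mul_le_mul_of_nonneg_left h2 hμpos.le
        _ ≤ μ * (‖T‖ ^ 2 * q) := by gcongr
        _ = _ := by ring
    have h5 : q ≤ μ * ‖T‖ ^ 2 := by
      rcases eq_or_lt_of_le hqnn with h0 | h0
      · rw [← h0]; positivity
      · nlinarith
    rw [hC1]
    exact pow_le_pow_left₀ hqnn h5 2
  -- truncate
  obtain ⟨w, hwM, hwn, hwd⟩ := exists_trunc S hvM hκpos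
  have hwnorm : ‖w‖ ≤ Real.sqrt (1 / (2 * κ)) := by
    refine ContinuousLinearMap.opNorm_le_bound _ (Real.sqrt_nonneg _) fun x => ?_
    have h1 := hwn x
    have h2 : ‖w x‖ ^ 2 ≤ 1 / (2 * κ) * ‖x‖ ^ 2 := by
      rw [div_mul_eq_mul_div, one_mul, le_div_iff₀ (by positivity)]
      linarith
    calc ‖w x‖ = Real.sqrt (‖w x‖ ^ 2) := (Real.sqrt_sq (norm_nonneg _)).symm
      _ ≤ Real.sqrt (1 / (2 * κ) * ‖x‖ ^ 2) := Real.sqrt_le_sqrt h2
      _ = Real.sqrt (1 / (2 * κ)) * ‖x‖ := by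
          rw [Real.sqrt_mul (by positivity), Real.sqrt_sq (norm_nonneg _)]
  have hwdiff : ‖T‖ ^ 2 * ‖(v - w) S.vac‖ ^ 2 ≤ c1 / 8 := by
    have h1 := hwd S.vac
    have h2 : ‖(v - w) S.vac‖ ^ 2 ≤ κ / 2 * C1 :=
      h1.trans (mul_le_mul_of_nonneg_left hPhi (by positivity))
    have h3 : ‖T‖ ^ 2 * ‖(v - w) S.vac‖ ^ 2 ≤ ‖T‖ ^ 2 * (κ / 2 * C1) :=
      mul_le_mul_of_nonneg_left h2 (by positivity)
    refine h3.trans ?_
    rw [hκ]
    have h4 : ‖T‖ ^ 2 * (c1 / (4 * (‖T‖ ^ 2 * C1 + 1)) / 2 * C1) =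
        (c1 / 8) * ((‖T‖ ^ 2 * C1) / (‖T‖ ^ 2 * C1 + 1)) := by
      field_simp
      ring
    rw [h4]
    calc (c1 / 8) * ((‖T‖ ^ 2 * C1) / (‖T‖ ^ 2 * C1 + 1)) ≤ (c1 / 8) * 1 := by
          refine mul_le_mul_of_nonneg_left ?_ (by positivity)
          rw [div_le_one (by positivity)]; linarith
      _ = _ := mul_one _
  -- smooth
  obtain ⟨F, hFM, hFn, hFv⟩ := exists_smooth S s hδ hwM
  refine ⟨F, hFM, hFn.trans (mul_le_mul_of_nonneg_left hwnorm rhoC_nonneg), ?_, ?_⟩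
  · have h1 : F S.vac = v S.vac - S.D.apply (bumpBC s δ) ((v - w) S.vac) := by
      rw [hFv]
      change _ = _ - S.D.apply (bumpBC s δ) (v S.vac - w S.vac)
      rw [map_sub, bump_fix hδ hvK]
      abel
    have h2 : ‖T (v S.vac)‖ - ‖T (S.D.apply (bumpBC s δ) ((v - w) S.vac))‖ ≤ ‖T (F S.vac)‖ := by
      rw [h1, map_sub]; exact norm_sub_norm_le _ _
    have h3 : ‖T (S.D.apply (bumpBC s δ) ((v - w) S.vac))‖ ≤ Real.sqrt (c1 / 8) := by
      refine Real.le_sqrt_of_sq_le ?_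
      refine le_trans ?_ hwdiff
      rw [← mul_pow]
      refine pow_le_pow_left₀ (norm_nonneg _) ?_ 2
      refine (T.le_opNorm _).trans (mul_le_mul_of_nonneg_left ?_ (norm_nonneg _))
      refine (norm_apply_apply_le S.D _ _).trans ?_
      calc ‖bumpBC s δ‖ * ‖(v - w) S.vac‖ ≤ 1 * ‖(v - w) S.vac‖ :=
            mul_le_mul_of_nonneg_right (norm_bumpBC_le _ _) (norm_nonneg _)
        _ = _ := one_mul _
    have h4 : 2 * Real.sqrt (c1 / 8) ≤ ‖T (v S.vac)‖ := by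
      refine le_of_sq_le_sq ?_ (norm_nonneg _)
      rw [mul_pow, Real.sq_sqrt (by positivity)]
      linarith
    linarith
  · rw [hFv]
    exact supported_bump S.D s hδ _

/-- Bounded recovery. Let S be modular data on H (algebra M, cyclic separating unit vector ξ, D = log of the modular operator) with ergodic state, ω a free ultrafilter on ℕ, T a bounded operator, δₙ → 0 positive, hₙ unit vectors with D-spectral support in [s − δₙ, s + δₙ]. If some c > 0 bounds the ω-mean over t of ‖T exp(itD) hₙ‖² from below infinitely often, along a subsequence n_j there are v_j ∈ M, C and η > 0 with ‖v_j‖ ≤ C, ‖T (v_j ξ)‖ ≥ η, v_j ξ supported in [s − 4δ_{n_j}, s + 4δ_{n_j}]. -/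
theorem result
    {H : Type*} [NormedAddCommGroup H] [InnerProductSpace ℂ H] [CompleteSpace H]
    (S : Crest.OpAlg.ModularDatum H) (herg : S.Ergodic)
    (ω : Ultrafilter ℕ) (hω : (ω : Filter ℕ) ≤ Filter.atTop)
    (T : H →L[ℂ] H) (s : ℝ) (δ : ℕ → ℝ) (hδ : ∀ n, 0 < δ n)
    (hδ0 : Filter.Tendsto δ Filter.atTop (nhds 0))
    (h : ℕ → H) (hh : ∀ n, ‖h n‖ = 1)
    (hband : ∀ n, S.D.SupportedIn (Set.Icc (s - δ n) (s + δ n)) (h n))
    (hpos : ∃ c : ℝ, 0 < c ∧ ∃ᶠ n in Filter.atTop,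
      c ≤ Crest.OpAlg.ultraMean ω (fun t : ℝ => ‖T (S.D.wave t (h n))‖ ^ 2)) :
    ∃ (n' : ℕ → ℕ) (v : ℕ → (H →L[ℂ] H)) (C η : ℝ), StrictMono n' ∧ 0 < η ∧
      ∀ j : ℕ, v j ∈ S.M ∧ ‖v j‖ ≤ C ∧ η ≤ ‖T (v j S.vac)‖ ∧
        S.D.SupportedIn (Set.Icc (s - 4 * δ (n' j)) (s + 4 * δ (n' j))) (v j S.vac) := by
  obtain ⟨c, hc, hfreq⟩ := hpos
  obtain ⟨Δ, hΔ⟩ := hδ0.bddAbove_range
  have hΔ' : ∀ n, δ n ≤ Δ := fun n => hΔ ⟨n, rfl⟩
  obtain ⟨C, η, hη, hcore⟩ := core S herg ω hω T s Δ c hc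
  obtain ⟨n', hn'mono, hn'⟩ := Filter.extraction_of_frequently_atTop hfreq
  have hex : ∀ j, ∃ v : H →L[ℂ] H, v ∈ S.M ∧ ‖v‖ ≤ C ∧ η ≤ ‖T (v S.vac)‖ ∧
      S.D.SupportedIn (Set.Icc (s - 4 * δ (n' j)) (s + 4 * δ (n' j))) (v S.vac) := fun j =>
    hcore (δ (n' j)) (hδ _) (hΔ' _) (h (n' j)) (hh _) (hband _) (hn' j)
  choose v hv using hex
  exact ⟨n', v, C, η, hn'mono, hη, hv⟩

end Crest.Agent.S0112
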