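import Crest.Statements.S0167
import Crest.Agent.H4.L1Trunc

set_option autoImplicit false
open Crest Crest.AnalysisR

namespace Crest.Agent.S0167

/-- Let E be an infinite-dimensional closed subspace of the real L¹ of a probability space whose closed unit ball is totally bounded for convergence in measure and whose norm has the Daugavet property. Then at every unit x ∈ E and every t > 0 the averaged midpoint quantity sup_F inf_y ((‖x+ty‖+‖x-ty‖)/2 - 1) equals max(t/2, t-1) and the one-sided one sup_F inf_y (‖x+ty‖ - 1) equals max(0, t-2), as matching lower and upper bounds, and E admits no equivalent asymptotically uniformly convex norm. -/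
theorem result (Ω : Type) [MeasurableSpace Ω] (P : MeasureTheory.Measure Ω) [MeasureTheory.IsProbabilityMeasure P]
    (E : Submodule ℝ (MeasureTheory.Lp ℝ 1 P)) (hcl : IsClosed (E : Set (MeasureTheory.Lp ℝ 1 P)))
    (hinf : ¬ FiniteDimensional ℝ E)
    (htb : Crest.AnalysisR.L1Subspace.UnitBallTotallyBoundedInMeasure P E)
    (hD : Crest.AnalysisR.L1Subspace.HasDaugavetProperty E) :
    (∀ t : ℝ, 0 < t →
      (Crest.AnalysisR.L1Subspace.toRealBanach P E hcl).MidpointModulusGE
          (Crest.AnalysisR.L1Subspace.toRealBanach P E hcl).norm t (max (t / 2) (t - 1)) ∧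
        (Crest.AnalysisR.L1Subspace.toRealBanach P E hcl).MidpointModulusLE
          (Crest.AnalysisR.L1Subspace.toRealBanach P E hcl).norm t (max (t / 2) (t - 1)) ∧
        (Crest.AnalysisR.L1Subspace.toRealBanach P E hcl).OneSidedModulusGE
          (Crest.AnalysisR.L1Subspace.toRealBanach P E hcl).norm t (max 0 (t - 2)) ∧
        (Crest.AnalysisR.L1Subspace.toRealBanach P E hcl).OneSidedModulusLE
          (Crest.AnalysisR.L1Subspace.toRealBanach P E hcl).norm t (max 0 (t - 2))) ∧
      ∀ N : E → ℝ, (Crest.AnalysisR.L1Subspace.toRealBanach P E hcl).IsEquivNorm N →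
        ¬ (Crest.AnalysisR.L1Subspace.toRealBanach P E hcl).IsAUC N := by
  have hcomp : CompleteSpace E := hcl.completeSpace_coe
  have hne : ∃ z : E, ‖z‖ = 1 := by
    have hnt : Nontrivial E := by
      by_contra h
      have hs : Subsingleton E := not_nontrivial_iff_subsingleton.mp h
      exact hinf inferInstance
    obtain ⟨z, hz⟩ := exists_ne (0 : E)
    refine ⟨‖z‖⁻¹ • z, ?_⟩
    rw [norm_smul, norm_inv, norm_norm, inv_mul_cancel₀ (norm_ne_zero_iff.mpr hz)]
  refine ⟨fun t ht => ⟨?_, ?_, ?_, ?_⟩, fun N hN => ?_⟩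
  · intro x hx η hη
    exact Crest.Agent.H4.midpoint_lower P E htb x hx t ht η hη
  · intro x hx F hF η hη
    change E at x
    obtain ⟨y, hyF, hy1, h1, h2⟩ := Crest.Agent.H4.daugavet_upper hD x hx t ht F hF η hη
    refine ⟨y, hyF, hy1, ?_⟩
    show (‖x + t • y‖ + ‖x - t • y‖) / 2 - 1 ≤ max (t / 2) (t - 1) + η
    have h3 : (max 1 (t - 1) + (1 + t)) / 2 ≤ 1 + max (t / 2) (t - 1) := by
      rcases le_total 1 (t - 1) with h | h
      · rw [max_eq_right h]
        have := le_max_right (t / 2) (t - 1)
        linarith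
      · rw [max_eq_left h]
        have := le_max_left (t / 2) (t - 1)
        linarith
    linarith
  · intro x hx η hη
    exact Crest.Agent.H4.onesided_lower (X := E) x hx t ht η hη
  · intro x hx F hF η hη
    change E at x
    obtain ⟨y, hyF, hy1, h1, -⟩ := Crest.Agent.H4.daugavet_upper hD x hx t ht F hF η hη
    refine ⟨y, hyF, hy1, ?_⟩
    show ‖x + t • y‖ - 1 ≤ max 0 (t - 2) + η
    have h3 : max 1 (t - 1) ≤ 1 + max 0 (t - 2) := by
      refine max_le ?_ ?_
      · have := le_max_left 0 (t - 2)
        linarith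
      · have := le_max_right 0 (t - 2)
        linarith
    linarith
  · obtain ⟨z, hz⟩ := hne
    exact Crest.Agent.H4.noAUC (X := E) 2 1 1 two_pos one_pos one_pos
      (fun n => ⟨z, hz.ge, Crest.Agent.H4.daugavet_tree hD ⟨z, hz⟩ n z (by rw [hz]; norm_num)⟩) N hN

end Crest.Agent.S0167
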