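import Crest.Statements.S0209
-- import your own Crest.Agent.* helpers here
import Crest.Agent.H5.PP.Fin

set_option autoImplicit false
open Crest Crest.ProbabilityR

namespace Crest.Agent.S0209

/-- There is a bounded continuous stable radial pair potential in three-space (energy of `N` particles `≥ -B N`) with `φ(r)` at most `C r^(-3-1/32)` in size for `r ≥ 1`, an open density interval centred at `5p/3`, `p > 0` the unit-separation packing density (`packingNumber L / L^3 → p`), and one `β_c ∈ [7/8, 9/8]` such that at each `ρ` in it the free energy per volume `-lim_L log Z_{[0,L]^3, ⌊ρL^3⌋}(β)/(β L^3)` exists for `β > 0`, with one-sided `β`-derivatives at `β_c`, left above right. -/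
theorem result :
    ∃ φ : ℝ → ℝ, Continuous φ ∧ (∃ M : ℝ, ∀ r : ℝ, |φ r| ≤ M) ∧
      (∃ B : ℝ, ∀ (N : ℕ) (x : Fin N → Crest.ProbabilityR.Continuum.Pt), -B * N ≤ Crest.ProbabilityR.Continuum.energy φ x) ∧
      (∃ C : ℝ, ∀ r : ℝ, 1 ≤ r → |φ r| ≤ C * r ^ (-(3 + 1 / 32 : ℝ))) ∧
      ∃ p η βc : ℝ, 0 < p ∧
        Filter.Tendsto (fun L : ℝ => (Crest.ProbabilityR.Continuum.packingNumber L : ℝ) / L ^ 3)
          Filter.atTop (nhds p) ∧
        0 < η ∧ η ≤ 5 * p / 3 ∧ 7 / 8 ≤ βc ∧ βc ≤ 9 / 8 ∧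
        ∃ f : ℝ → ℝ → ℝ,
          (∀ ρ : ℝ, 5 * p / 3 - η < ρ → ρ < 5 * p / 3 + η → ∀ β : ℝ, 0 < β →
            Filter.Tendsto (fun L : ℝ => -(1 / (β * L ^ 3)) *
                Real.log (Crest.ProbabilityR.Continuum.partitionFn φ L ⌊ρ * L ^ 3⌋₊ β))
              Filter.atTop (nhds (f β ρ))) ∧
          (∀ ρ : ℝ, 5 * p / 3 - η < ρ → ρ < 5 * p / 3 + η → ∃ Dl Dr : ℝ,
            HasDerivWithinAt (fun β => f β ρ) Dl (Set.Iio βc) βc ∧
            HasDerivWithinAt (fun β => f β ρ) Dr (Set.Ioi βc) βc ∧ Dr < Dl) := by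
  obtain ⟨p, hp, hlim, δ, η, K, θ, B, hδ, hδ1, hη, hη1, hK, hθ, hB, ⟨Bs, hBs⟩, f, hf1, hf2⟩ :=
    Crest.H5.PP.assembled Crest.H5.PP.core_zero (fun δ hδ _ r _ => by
      rw [mul_zero]; linarith)
  simp only [add_zero] at hBs hf1
  have hv := Crest.H5.PP.v1_pos
  refine ⟨fun r => Crest.H5.PP.fs δ η K r - θ * Crest.H5.PP.psi B r, ?_, ?_, ⟨Bs, hBs⟩, ?_, p, p / 6, 1, hp, hlim,
    by positivity, by linarith, by norm_num, by norm_num, f, ?_, ?_⟩
  · exact (Crest.H5.PP.continuous_fs δ η K).sub (continuous_const.mul (Crest.H5.PP.continuous_psi hB))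
  · refine ⟨K + θ * (2 / Crest.H5.PP.v1), fun r => ?_⟩
    have h1 := Crest.H5.PP.fs_nonneg (δ := δ) (η := η) hK.le r
    have h2 := Crest.H5.PP.fs_le hK.le hδ hη r
    have h3 := mul_nonneg hθ.le (Crest.H5.PP.psi_nonneg hB r)
    have h4 := mul_le_mul_of_nonneg_left (Crest.H5.PP.psi_le hB r) hθ.le
    rw [abs_le]
    constructor <;> linarith
  · refine ⟨16 * K + θ * (64 * B / Crest.H5.PP.v1), fun r hr => ?_⟩
    have h1 := Crest.H5.PP.fs_nonneg (δ := δ) (η := η) hK.le r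
    have h3 := mul_nonneg hθ.le (Crest.H5.PP.psi_nonneg hB r)
    have h4 := mul_le_mul_of_nonneg_left (Crest.H5.PP.psi_decay hB hr) hθ.le
    have hr0 : 0 < r := by linarith
    have hrp : 0 < r ^ (-(3 + 1 / 32 : ℝ)) := Real.rpow_pos_of_pos hr0 _
    have h5 : Crest.H5.PP.fs δ η K r ≤ 16 * K * r ^ (-(3 + 1 / 32 : ℝ)) := by
      by_cases h2 : r ≤ 2
      · have h6 := Crest.H5.PP.rpow_lower hr h2
        have h7 := Crest.H5.PP.fs_le hK.le hδ hη r
        calc Crest.H5.PP.fs δ η K r ≤ K := h7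
          _ = 16 * K * (1/16) := by ring
          _ ≤ _ := mul_le_mul_of_nonneg_left h6 (by positivity)
      · push Not at h2
        rw [Crest.H5.PP.fs_range hδ hδ1 hη hη1 h2.le]
        positivity
    have e : (16 * K + θ * (64 * B / Crest.H5.PP.v1)) * r ^ (-(3 + 1 / 32 : ℝ)) =
        16 * K * r ^ (-(3 + 1 / 32 : ℝ)) + θ * (64 * B / Crest.H5.PP.v1 * r ^ (-(3 + 1 / 32 : ℝ))) := by ring
    rw [e, abs_le]
    have h8 : 0 ≤ 16 * K * r ^ (-(3 + 1 / 32 : ℝ)) := by positivity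
    have h9 : 0 ≤ θ * (64 * B / Crest.H5.PP.v1 * r ^ (-(3 + 1 / 32 : ℝ))) := by positivity
    constructor <;> linarith
  · intro ρ hρ1 hρ2 β hβ
    exact hf1 ρ (by linarith) β hβ
  · intro ρ hρ1 hρ2
    exact hf2 ρ (by linarith) (by linarith)

end Crest.Agent.S0209
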