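import Crest.Statements.S0210
-- import your own Crest.Agent.* helpers here
import Crest.Agent.H5.PP.Fin

set_option autoImplicit false
open Crest Crest.ProbabilityR

namespace Crest.Agent.S0210

/-- There is a measurable radial pair potential in three-space, finite and locally bounded at positive distances, tending to `+∞` at `0`, below `-a < 0` on an interval, with `r² φ(r)` integrable at large `r`, `r³ φ(r) → 0`, and stable on configurations of distinct points, whose canonical free energy per volume `-lim_L log Z_{[0,L]^3, ⌊ρL^3⌋}(β)/(β L^3)` exists for all `β, ρ > 0` and has, on some open density interval, at one `β_c ∈ (1/2, 3/2)` a left `β`-derivative strictly above the right. -/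
theorem result :
    ∃ φ : ℝ → ℝ, Measurable φ ∧
      (∀ a b : ℝ, 0 < a → a ≤ b → ∃ M : ℝ, ∀ r : ℝ, a ≤ r → r ≤ b → |φ r| ≤ M) ∧
      Filter.Tendsto φ (nhdsWithin 0 (Set.Ioi 0)) Filter.atTop ∧
      (∃ r₁ r₂ a : ℝ, 0 < r₁ ∧ r₁ < r₂ ∧ 0 < a ∧ ∀ r : ℝ, r₁ ≤ r → r ≤ r₂ → φ r ≤ -a) ∧
      (∃ R : ℝ, 0 < R ∧ MeasureTheory.IntegrableOn (fun r : ℝ => r ^ 2 * |φ r|) (Set.Ioi R)) ∧
      Filter.Tendsto (fun r : ℝ => r ^ 3 * φ r) Filter.atTop (nhds 0) ∧
      (∃ B : ℝ, ∀ (N : ℕ) (x : Fin N → Crest.ProbabilityR.Continuum.Pt), Function.Injective x →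
        -B * N ≤ Crest.ProbabilityR.Continuum.energy φ x) ∧
      ∃ f : ℝ → ℝ → ℝ,
        (∀ ρ : ℝ, 0 < ρ → ∀ β : ℝ, 0 < β →
          Filter.Tendsto (fun L : ℝ => -(1 / (β * L ^ 3)) *
              Real.log (Crest.ProbabilityR.Continuum.partitionFn φ L ⌊ρ * L ^ 3⌋₊ β))
            Filter.atTop (nhds (f β ρ))) ∧
        ∃ ρ₁ ρ₂ βc : ℝ, 0 ≤ ρ₁ ∧ ρ₁ < ρ₂ ∧ 1 / 2 < βc ∧ βc < 3 / 2 ∧
          ∀ ρ : ℝ, ρ₁ < ρ → ρ < ρ₂ → ∃ Dl Dr : ℝ,
            HasDerivWithinAt (fun β => f β ρ) Dl (Set.Iio βc) βc ∧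
            HasDerivWithinAt (fun β => f β ρ) Dr (Set.Ioi βc) βc ∧ Dr < Dl := by
  obtain ⟨p, hp, hlim, δ, η, K, θ, B, hδ, hδ1, hη, hη1, hK, hθ, hB, ⟨Bs, hBs⟩, f, hf1, hf2⟩ :=
    Crest.H5.PP.assembled Crest.H5.PP.core_lgc Crest.H5.PP.lgc_bound
  have hv := Crest.H5.PP.v1_pos
  have hfar : ∀ r : ℝ, 2 ≤ r → Crest.H5.PP.fs δ η K r + Crest.H5.PP.lgc δ r - θ * Crest.H5.PP.psi B r = -(θ * Crest.H5.PP.psi B r) := by
    intro r hr
    rw [Crest.H5.PP.fs_range hδ hδ1 hη hη1 hr, Crest.H5.PP.core_lgc.zero δ hδ r (by linarith)]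
    ring
  have hdec : ∀ r : ℝ, 2 ≤ r → |Crest.H5.PP.fs δ η K r + Crest.H5.PP.lgc δ r - θ * Crest.H5.PP.psi B r| ≤
      θ * (64 * B / Crest.H5.PP.v1) * r ^ (-(3 + 1 / 32 : ℝ)) := by
    intro r hr
    rw [hfar r hr, abs_neg, abs_of_nonneg (mul_nonneg hθ.le (Crest.H5.PP.psi_nonneg hB r)), mul_assoc]
    exact mul_le_mul_of_nonneg_left (Crest.H5.PP.psi_decay hB (by linarith)) hθ.le
  have hmeas : Measurable (fun r => Crest.H5.PP.fs δ η K r + Crest.H5.PP.lgc δ r - θ * Crest.H5.PP.psi B r) :=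
    ((Crest.H5.PP.continuous_fs δ η K).measurable.add (Crest.H5.PP.core_lgc.meas δ hδ)).sub
      (measurable_const.mul (Crest.H5.PP.continuous_psi hB).measurable)
  refine ⟨fun r => Crest.H5.PP.fs δ η K r + Crest.H5.PP.lgc δ r - θ * Crest.H5.PP.psi B r, hmeas, ?_, ?_, ?_, ?_, ?_,
    ⟨Bs, fun N x _ => hBs N x⟩, f, hf1, 3 * p / 2, 11 * p / 6, 1, by positivity, by linarith, by norm_num, by norm_num, hf2⟩
  · intro a b ha _
    refine ⟨K + max 0 (Real.log (δ / (2 * a))) + θ * (2 / Crest.H5.PP.v1), fun r hr _ => ?_⟩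
    have hr0 : 0 < r := by linarith
    have h1 := Crest.H5.PP.fs_nonneg (δ := δ) (η := η) hK.le r
    have h2 := Crest.H5.PP.fs_le hK.le hδ hη r
    have h3 := mul_nonneg hθ.le (Crest.H5.PP.psi_nonneg hB r)
    have h4 := mul_le_mul_of_nonneg_left (Crest.H5.PP.psi_le hB r) hθ.le
    have h5 := Crest.H5.PP.core_lgc.nonneg δ hδ r
    have h6 : Crest.H5.PP.lgc δ r ≤ max 0 (Real.log (δ / (2 * a))) := by
      unfold Crest.H5.PP.lgc
      rw [if_pos hr0]
      apply max_le_max (le_refl _)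
      apply Real.log_le_log (by positivity)
      gcongr
    have h7 : 0 ≤ max 0 (Real.log (δ / (2 * a))) := le_max_left _ _
    rw [abs_le]
    constructor <;> linarith
  · have h1 : Filter.Tendsto (fun r : ℝ => Real.log (δ / (2 * r)) - θ * (2 / Crest.H5.PP.v1)) (nhdsWithin 0 (Set.Ioi 0)) Filter.atTop := by
      apply Filter.tendsto_atTop_add_const_right
      apply Real.tendsto_log_atTop.comp
      have h2 : Filter.Tendsto (fun r : ℝ => (δ / 2) * r⁻¹) (nhdsWithin 0 (Set.Ioi 0)) Filter.atTop :=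
        Filter.Tendsto.const_mul_atTop (by positivity) tendsto_inv_nhdsGT_zero
      refine h2.congr (fun r => ?_)
      rw [← div_div]
      rfl
    refine Filter.tendsto_atTop_mono' _ ?_ h1
    filter_upwards [self_mem_nhdsWithin] with r hr
    rw [Set.mem_Ioi] at hr
    have h2 := Crest.H5.PP.fs_nonneg (δ := δ) (η := η) hK.le r
    have h4 := mul_le_mul_of_nonneg_left (Crest.H5.PP.psi_le hB r) hθ.le
    have h6 : Real.log (δ / (2 * r)) ≤ Crest.H5.PP.lgc δ r := by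
      unfold Crest.H5.PP.lgc
      rw [if_pos hr]
      exact le_max_right _ _
    linarith
  · refine ⟨2, 3, θ * (Crest.H5.PP.jn B 0 * (Crest.H5.PP.v1 / (Crest.H5.PP.rn B 0 ^ 3 * Crest.H5.PP.v1) ^ 2)), by norm_num, by norm_num, ?_, ?_⟩
    · have h1 := Crest.H5.PP.jn_zero_pos hB
      have h2 := Crest.H5.PP.rn_pos hB 0
      positivity
    · intro r hr1 hr2
      have h1 := mul_le_mul_of_nonneg_left (Crest.H5.PP.psi_lower hB (r := r) (by linarith) hr2) hθ.le
      have h2 := hfar r hr1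
      simp only
      rw [h2]
      linarith
  · refine ⟨2, by norm_num, ?_⟩
    have h1 : MeasureTheory.IntegrableOn (fun r : ℝ => θ * (64 * B / Crest.H5.PP.v1) * r ^ (-(1 + 1 / 32 : ℝ))) (Set.Ioi 2) :=
      (integrableOn_Ioi_rpow_of_lt (by norm_num) (by norm_num)).const_mul _
    refine MeasureTheory.Integrable.mono h1 ?_ ?_
    · exact ((measurable_id.pow_const 2).mul (measurable_norm.comp hmeas)).aestronglyMeasurable
    · filter_upwards [MeasureTheory.ae_restrict_mem measurableSet_Ioi] with r hr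
      rw [Set.mem_Ioi] at hr
      have hr0 : 0 < r := by linarith
      have h2 := hdec r hr.le
      have h3 : 0 ≤ θ * (64 * B / Crest.H5.PP.v1) := by positivity
      rw [Real.norm_eq_abs, Real.norm_eq_abs, abs_of_nonneg (show 0 ≤ r ^ 2 * |Crest.H5.PP.fs δ η K r + Crest.H5.PP.lgc δ r - θ * Crest.H5.PP.psi B r| by positivity),
        abs_of_nonneg (show 0 ≤ θ * (64 * B / Crest.H5.PP.v1) * r ^ (-(1 + 1 / 32 : ℝ)) by positivity)]
      calc r ^ 2 * |Crest.H5.PP.fs δ η K r + Crest.H5.PP.lgc δ r - θ * Crest.H5.PP.psi B r|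
          ≤ r ^ 2 * (θ * (64 * B / Crest.H5.PP.v1) * r ^ (-(3 + 1 / 32 : ℝ))) := mul_le_mul_of_nonneg_left h2 (by positivity)
        _ = θ * (64 * B / Crest.H5.PP.v1) * (r ^ (2:ℝ) * r ^ (-(3 + 1 / 32 : ℝ))) := by
            rw [Real.rpow_two]; ring
        _ = _ := by
            rw [← Real.rpow_add hr0]
            norm_num
  · have h0 : Filter.Tendsto (fun r : ℝ => θ * (64 * B / Crest.H5.PP.v1) * r ^ (-(1 / 32 : ℝ))) Filter.atTop (nhds 0) := by
      have := (tendsto_rpow_neg_atTop (y := (1/32:ℝ)) (by norm_num)).const_mul (θ * (64 * B / Crest.H5.PP.v1))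
      rwa [mul_zero] at this
    refine squeeze_zero_norm' ?_ h0
    filter_upwards [Filter.eventually_ge_atTop 2] with r hr
    have hr0 : 0 < r := by linarith
    have h2 := hdec r hr
    rw [Real.norm_eq_abs, abs_mul, abs_of_nonneg (show 0 ≤ r ^ 3 by positivity)]
    calc r ^ 3 * |Crest.H5.PP.fs δ η K r + Crest.H5.PP.lgc δ r - θ * Crest.H5.PP.psi B r|
          ≤ r ^ 3 * (θ * (64 * B / Crest.H5.PP.v1) * r ^ (-(3 + 1 / 32 : ℝ))) := mul_le_mul_of_nonneg_left h2 (by positivity)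
        _ = θ * (64 * B / Crest.H5.PP.v1) * (r ^ (3:ℝ) * r ^ (-(3 + 1 / 32 : ℝ))) := by
            have : r ^ (3:ℝ) = r ^ 3 := by
              have := Real.rpow_natCast r 3
              push_cast at this
              exact this
            rw [this]; ring
        _ = _ := by
            rw [← Real.rpow_add hr0]
            norm_num

end Crest.Agent.S0210
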