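import Crest.Statements.S0254
-- import your own Crest.Agent.* helpers here
import Crest.Agent.H5.ELab

set_option autoImplicit false
open Crest Crest.ProbabilityR

namespace Crest.Agent.S0254

open MeasureTheory Crest.Agent.H5 Crest.ProbabilityR.GraphTables

/-- the factor map -/
noncomputable def Phi (G : SimpleGraph ℕ) (x : ℕ → unitInterval) : Sym2 ℕ → Bool :=
  fac fD (tableOf G, elab' G (splitLab (expand x)).1 (splitLab (expand x)).2)

lemma measurable_Phi : Measurable (fun p : (ℕ → ℕ → Bool) × (ℕ → unitInterval) =>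
    Phi (graphOfTable p.1) p.2) := by
  unfold Phi
  have h1 : Measurable (fun p : (ℕ → ℕ → Bool) × (ℕ → unitInterval) => splitLab (expand p.2)) :=
    measurable_splitLab.comp (measurable_expand.comp measurable_snd)
  have h2 : Measurable (fun p : (ℕ → ℕ → Bool) × (ℕ → unitInterval) =>
      elab' (graphOfTable p.1) (splitLab (expand p.2)).1 (splitLab (expand p.2)).2) :=
    measurable_elab.comp (measurable_fst.prodMk h1)
  have h3 : Measurable (fun p : (ℕ → ℕ → Bool) × (ℕ → unitInterval) => tableOf (graphOfTable p.1)) :=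
    measurable_tableOf.comp measurable_fst
  exact (measurable_fac good_fD).comp (h3.prodMk h2)

lemma Phi_equivariant (σ : Equiv.Perm ℕ) (G : SimpleGraph ℕ) (x : ℕ → unitInterval) :
    Phi (G.comap ⇑σ) (x ∘ ⇑σ) = Phi G x ∘ Sym2.map ⇑σ := by
  have h1 : elab' (G.comap ⇑σ) (splitLab (expand (x ∘ ⇑σ))).1 (splitLab (expand (x ∘ ⇑σ))).2
      = elab' G (splitLab (expand x)).1 (splitLab (expand x)).2 ∘ eobs (symE σ) := by
    funext j
    exact elab_comap σ G (splitLab (expand x)).1 (splitLab (expand x)).2 j
  unfold Phi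
  rw [h1]
  refine fac_equivariant good_fD (symE σ) (ω := tableOf G) (ω' := tableOf (G.comap ⇑σ)) ?_ ?_ ?_ _
  · show fusf (graphOfTable (tableOf (G.comap ⇑σ))) = (fusf (graphOfTable (tableOf G))).map _
    rw [graphOfTable_tableOf, graphOfTable_tableOf]
    exact fusf_comap σ G
  · intro e
    show e ∈ actE (graphOfTable (tableOf (G.comap ⇑σ))) ↔ symE σ e ∈ actE (graphOfTable (tableOf G))
    rw [graphOfTable_tableOf, graphOfTable_tableOf]
    exact and_congr (nice_comap σ G) (mem_edgeSet_comap σ G e)
  · intro e n f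
    show f ∈ ballE (graphOfTable (tableOf (G.comap ⇑σ))) e n
      ↔ symE σ f ∈ ballE (graphOfTable (tableOf G)) (symE σ e) n
    rw [graphOfTable_tableOf, graphOfTable_tableOf]
    exact mem_ballE_comap σ G e f n

lemma map_Phi (G : SimpleGraph ℕ) (hG : Nice G) :
    (Labels.labelMeasure ℕ).map (Phi G) = fusf G := by
  have hE : fD.E (tableOf G) = G.edgeSet := by
    show actE (graphOfTable (tableOf G)) = G.edgeSet
    rw [graphOfTable_tableOf, actE_nice hG]
  have h1 : Phi G = (fun T => fac fD (tableOf G, T)) ∘
      (fun x => mask G.edgeSet (elab' G (splitLab (expand x)).1 (splitLab (expand x)).2)) := by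
    funext x
    simp only [Phi, Function.comp]
    refine fac_congr good_fD (tableOf G) fun j hj => ?_
    rw [hE] at hj
    unfold mask
    rw [if_pos hj]
  have hf : Measurable (fun T : Sym2 ℕ × ℕ → unitInterval => fac fD (tableOf G, T)) :=
    (measurable_fac good_fD).comp (measurable_const.prodMk measurable_id)
  have hg : Measurable (fun x : ℕ → unitInterval =>
      mask G.edgeSet (elab' G (splitLab (expand x)).1 (splitLab (expand x)).2)) := by
    refine (measurable_mask _).comp ?_
    have h2 : Measurable (fun x : ℕ → unitInterval =>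
        elab' (graphOfTable (tableOf G)) (splitLab (expand x)).1 (splitLab (expand x)).2) :=
      measurable_elab.comp (measurable_const.prodMk (measurable_splitLab.comp measurable_expand))
    rw [graphOfTable_tableOf] at h2
    exact h2
  rw [h1, ← Measure.map_map hf hg]
  unfold Labels.labelMeasure
  rw [map_edgeLabels G hG.2, ← hE, map_fac good_fD (tableOf G)]
  show fusf (graphOfTable (tableOf G)) = fusf G
  rw [graphOfTable_tableOf]

lemma qG_nonneg (G : SimpleGraph ℕ) (F : Finset (Sym2 ℕ)) : 0 ≤ qG G F := by
  unfold qG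
  split_ifs
  · exact Real.iInf_nonneg fun S => cTerm_nonneg G F S
  · exact le_rfl

/-- One rule from (graph on `ℕ`, labels in `[0,1]^ℕ`) to edge sets, jointly measurable in (adjacency table, labels) and commuting on every input with every permutation of `ℕ` acting on graph, labels and pairs, gives i.i.d. uniform labels the free uniform spanning forest's law on every connected locally finite graph: along every exhaustion by finite connected induced pieces, for finite edge sets `F` the chance that the piece's uniform spanning tree contains `F` tends to that for the output. -/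
theorem result :
    ∃ Φ : SimpleGraph ℕ → (ℕ → unitInterval) → (Sym2 ℕ → Bool),
      Measurable (fun p : (ℕ → ℕ → Bool) × (ℕ → unitInterval) =>
          Φ (Crest.ProbabilityR.GraphTables.graphOfTable p.1) p.2) ∧
      (∀ (σ : Equiv.Perm ℕ) (G : SimpleGraph ℕ) (x : ℕ → unitInterval),
          Φ (G.comap ⇑σ) (x ∘ ⇑σ) = Φ G x ∘ Sym2.map ⇑σ) ∧
      ∀ G : SimpleGraph ℕ, G.Connected → (∀ v : ℕ, (G.neighborSet v).Finite) →
        ∀ S : ℕ → Finset ℕ, Monotone S → (∀ v : ℕ, ∃ n, v ∈ S n) →
          (∀ n, (G.induce (S n : Set ℕ)).Connected) →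
          ∀ F : Finset (Sym2 ℕ), (↑F : Set (Sym2 ℕ)) ⊆ G.edgeSet →
            Filter.Tendsto (fun n => Crest.ProbabilityR.SpanningTrees.ustContains G (S n) F) Filter.atTop
              (nhds (((Crest.ProbabilityR.Labels.labelMeasure ℕ).map (Φ G) {ω | ∀ e ∈ F, ω e = true}).toReal)) := by
  refine ⟨Phi, measurable_Phi, Phi_equivariant, ?_⟩
  intro G hconn hlf S hm hx hc F _
  have hG : Nice G := ⟨hconn, hlf⟩
  have h1 : ((Labels.labelMeasure ℕ).map (Phi G) {ω | ∀ e ∈ F, ω e = true}).toReal = qG G F := by
    rw [map_Phi G hG]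
    have h2 := fusf_upSet hG F
    have h3 : fusf G {ω | ∀ e ∈ F, ω e = true} = ENNReal.ofReal (qG G F) := h2
    rw [h3, ENNReal.toReal_ofReal (qG_nonneg G F)]
  rw [h1]
  exact tendsto_ust G hm hx hc F

end Crest.Agent.S0254
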