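import Crest.Statements.S0255
-- import your own Crest.Agent.* helpers here
import Crest.Agent.H5.Lab
import Crest.Agent.H5.TiltSR

set_option autoImplicit false
open Crest Crest.ProbabilityR

namespace Crest.Agent.S0255

open MeasureTheory Crest.Agent.H5 in
lemma aux (Γ : Type*) [Group Γ]
    [Countable Γ] (ν : MeasureTheory.Measure (Γ → Bool)) [MeasureTheory.IsProbabilityMeasure ν]
    (hsr : Crest.ProbabilityR.StronglyRayleigh.IsStronglyRayleigh ν)
    (hinv : Crest.ProbabilityR.StronglyRayleigh.IsShiftInvariant ν) :
    ∃ Φ : (Γ → unitInterval) → (Γ → Bool), Measurable Φ ∧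
      (∀ (g : Γ) (u : Γ → unitInterval),
        Φ (Crest.ProbabilityR.StronglyRayleigh.leftShift g u) =
          Crest.ProbabilityR.StronglyRayleigh.leftShift g (Φ u)) ∧
      (Crest.ProbabilityR.Labels.labelMeasure Γ).map Φ = ν := by
  classical
  obtain ⟨f, hf⟩ := exists_injective_nat Γ
  let A : ℕ → Finset Γ := fun n => (Set.Finite.preimage hf.injOn (Set.finite_Iio n)).toFinset
  have hA : ∀ n a, a ∈ A n ↔ f a < n := by
    intro n a
    simp [A]
  let D : MDat Unit Γ :=
    { ν := fun _ => ν
      E := fun _ => Set.univ
      B := fun _ v n => (A n).image (fun a => v * a)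
      prob := fun _ => inferInstance
      meas_ν := measurable_const
      meas_E := fun _ => by simp
      meas_B := fun v n w => by simp }
  have hDB : ∀ v n w, w ∈ D.B () v n ↔ f (v⁻¹ * w) < n := by
    intro v n w
    simp only [D, Finset.mem_image, hA]
    constructor
    · rintro ⟨a, ha, rfl⟩
      simpa using ha
    · intro h
      exact ⟨v⁻¹ * w, h, by simp⟩
  have hD : Good D (5/4) :=
    { K0 := by norm_num
      K2 := by norm_num
      lip := fun _ => tiltLip_of_SRm ν _ (fun F _ => ⟨fun S => ENNReal.toReal_nonneg, fun z hz => hsr F z hz⟩)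
      exh := fun _ =>
        { sub := fun _ _ _ _ _ => trivial
          mono := fun v _ m n hmn w hw => by
            have h1 := (hDB v m w).1 hw
            exact (hDB v n w).2 (lt_of_lt_of_le h1 hmn)
          ex := fun v _ w _ => ⟨f (v⁻¹ * w) + 1, (hDB v _ w).2 (Nat.lt_succ_self _)⟩ }
      off := fun _ v hv => absurd (Set.mem_univ v) hv }
  refine ⟨fun u => fac D ((), expand u), ?_, ?_, ?_⟩
  · exact (measurable_fac hD).comp (measurable_const.prodMk measurable_expand)
  · intro g u
    have he : expand (StronglyRayleigh.leftShift g u) = expand u ∘ eobs (Equiv.mulLeft g⁻¹) := by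
      funext j
      rfl
    have hν : D.ν () = (D.ν ()).map (fun x => x ∘ (Equiv.mulLeft g⁻¹ : Γ ≃ Γ)) := by
      refine Measure.ext fun C hC => ?_
      rw [Measure.map_apply (measurable_comp_equiv _) hC]
      exact (hinv g C hC).symm
    show fac D ((), expand (StronglyRayleigh.leftShift g u)) = _
    rw [he, fac_equivariant hD (Equiv.mulLeft g⁻¹ : Γ ≃ Γ) hν (fun v => by simp [D]) (fun v n w => by
      rw [hDB, hDB]
      simp [mul_assoc])]
    rfl
  · have hm : Measurable (fun T : Γ × ℕ → unitInterval => fac D ((), T)) :=
      (measurable_fac hD).comp (measurable_const.prodMk measurable_id)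
    have h1 : (fun u : Γ → unitInterval => fac D ((), expand u)) = (fun T => fac D ((), T)) ∘ expand := rfl
    rw [h1, ← Measure.map_map hm measurable_expand]
    unfold Labels.labelMeasure
    rw [map_expand]
    have h2 := map_fac hD ()
    have h3 : (fun j : Γ × ℕ => siteLaw (D.E ()) j.1) = fun _ => (volume : Measure unitInterval) := by
      funext j
      unfold siteLaw
      rw [if_pos (show j.1 ∈ D.E () from trivial)]
    rw [h3] at h2
    exact h2

/-- For a countable group `Γ` and a strongly Rayleigh probability law `ν` on binary configurations `Γ → Bool` that is invariant under every left shift `a ↦ (h ↦ a (g⁻¹ h))`, there is a measurable map from independent uniform labels indexed by `Γ` to configurations that commutes with every left shift and pushes the label law forward to `ν`. -/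
theorem result (Γ : Type*) [Group Γ]
    [Countable Γ] (ν : MeasureTheory.Measure (Γ → Bool)) [MeasureTheory.IsProbabilityMeasure ν]
    (hsr : Crest.ProbabilityR.StronglyRayleigh.IsStronglyRayleigh ν)
    (hinv : Crest.ProbabilityR.StronglyRayleigh.IsShiftInvariant ν) :
    ∃ Φ : (Γ → unitInterval) → (Γ → Bool), Measurable Φ ∧
      (∀ (g : Γ) (u : Γ → unitInterval),
        Φ (Crest.ProbabilityR.StronglyRayleigh.leftShift g u) =
          Crest.ProbabilityR.StronglyRayleigh.leftShift g (Φ u)) ∧
      (Crest.ProbabilityR.Labels.labelMeasure Γ).map Φ = ν := by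
  exact aux Γ ν hsr hinv

end Crest.Agent.S0255
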