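import Crest.Statements.S0423

set_option autoImplicit false
open Crest Crest.AlgGeometry

namespace Crest.Agent.S0423

set_option linter.unusedSectionVars false

section Aux

open MeasureTheory Set Filter Topology

noncomputable section


/-- The mean-one exponential law. -/
def nu : Measure ℝ :=
  (volume.restrict (Ioi (0:ℝ))).withDensity (fun x => ENNReal.ofReal (Real.exp (-x)))

theorem integral_nu (f : ℝ → ℝ) : ∫ x, f x ∂nu = ∫ x in Ioi (0:ℝ), Real.exp (-x) * f x := by
  unfold nu
  rw [integral_withDensity_eq_integral_toReal_smul (by fun_prop) (by simp)]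
  simp only [smul_eq_mul]
  refine integral_congr_ae (Eventually.of_forall fun x => ?_)
  simp only
  rw [ENNReal.toReal_ofReal (Real.exp_pos _).le]

theorem nu_apply (s : Set ℝ) (hs : MeasurableSet s) :
    nu s = ENNReal.ofReal (∫ x in s ∩ Ioi 0, Real.exp (-x)) := by
  unfold nu
  rw [withDensity_apply _ hs, Measure.restrict_restrict hs, ofReal_integral_eq_lintegral_ofReal]
  · exact (integrableOn_exp_neg_Ioi 0).mono_set inter_subset_right
  · exact Eventually.of_forall fun x => (Real.exp_pos _).le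

instance : IsProbabilityMeasure nu := ⟨by
  rw [nu_apply _ MeasurableSet.univ]
  rw [univ_inter, integral_exp_neg_Ioi_zero, ENNReal.ofReal_one]⟩

theorem pi_nu_eq (N : ℕ) : (volume.restrict (Set.pi univ (fun _ : Fin N => Ioi (0:ℝ)))).withDensity
    (fun x => ENNReal.ofReal (Real.exp (-∑ i, x i))) = Measure.pi (fun _ : Fin N => nu) := by
  symm
  apply Measure.pi_eq
  intro s hs
  rw [withDensity_apply _ (MeasurableSet.univ_pi hs), Measure.restrict_restrict (MeasurableSet.univ_pi hs),
    ← Set.pi_inter_distrib, volume_pi, Measure.restrict_pi_pi, ← ofReal_integral_eq_lintegral_ofReal]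
  · have : (fun x : Fin N → ℝ => Real.exp (-∑ i, x i)) = fun x => ∏ i, Real.exp (-x i) := by
      ext x
      rw [← Real.exp_sum, Finset.sum_neg_distrib]
    rw [this, integral_fintype_prod_eq_prod (f := fun _ x => Real.exp (-x)),
      ENNReal.ofReal_prod_of_nonneg]
    · refine Finset.prod_congr rfl fun i _ => ?_
      rw [nu_apply _ (hs i)]
    · intro i _
      exact integral_nonneg fun x => (Real.exp_pos _).le
  · have : (fun x : Fin N → ℝ => Real.exp (-∑ i, x i)) = fun x => ∏ i, Real.exp (-x i) := by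
      ext x
      rw [← Real.exp_sum, Finset.sum_neg_distrib]
    rw [this]
    apply Integrable.fintype_prod (f := fun _ x => Real.exp (-x))
    intro i
    exact (integrableOn_exp_neg_Ioi 0).mono_set inter_subset_right
  · exact Eventually.of_forall fun x => (Real.exp_pos _).le

theorem integral_pi_eq (N : ℕ) (F : (Fin N → ℝ) → ℝ) :
    ∫ x in Set.pi univ (fun _ : Fin N => Ioi (0:ℝ)), F x * Real.exp (-∑ i, x i) =
      ∫ x, F x ∂(Measure.pi (fun _ : Fin N => nu)) := by
  rw [← pi_nu_eq, integral_withDensity_eq_integral_toReal_smul (by fun_prop) (by simp)]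
  refine integral_congr_ae (Eventually.of_forall fun x => ?_)
  simp only [smul_eq_mul]
  rw [ENNReal.toReal_ofReal (Real.exp_pos _).le, mul_comm]


/-- `1 - truncExpWeight`. -/
def F2 (y : ℝ) : ℝ := if y ≤ 0 then 0 else 1 - (1 + y) * Real.exp (-y)

/-- Derivative of `F2` on the positive axis. -/
def w (y : ℝ) : ℝ := y * Real.exp (-y)

theorem w_cont : Continuous w := by unfold w; fun_prop

theorem w_nonneg {y : ℝ} (hy : 0 ≤ y) : 0 ≤ w y := mul_nonneg hy (Real.exp_pos _).le

theorem w_le_one (y : ℝ) : w y ≤ 1 := by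
  unfold w
  have h1 := Real.add_one_le_exp y
  have h2 := Real.exp_pos (-y)
  have h3 : Real.exp y * Real.exp (-y) = 1 := by rw [← Real.exp_add]; simp
  nlinarith

theorem integral_w {y : ℝ} (hy : 0 ≤ y) : ∫ t in (0:ℝ)..y, w t = 1 - (1 + y) * Real.exp (-y) := by
  have h : ∀ x ∈ Set.uIcc 0 y, HasDerivAt (fun x => 1 - (1 + x) * Real.exp (-x)) (w x) x := by
    intro x _
    have h1 : HasDerivAt (fun x : ℝ => Real.exp (-x)) (-Real.exp (-x)) x := by
      simpa using (hasDerivAt_neg x).exp
    have h2 : HasDerivAt (fun x : ℝ => 1 + x) 1 x := by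
      simpa using (hasDerivAt_id x).const_add 1
    have h3 := (h2.mul h1).const_sub 1
    have e : w x = -(1 * Real.exp (-x) + (1 + x) * -Real.exp (-x)) := by
      unfold w
      ring
    rw [e]
    exact h3
  rw [intervalIntegral.integral_eq_sub_of_hasDerivAt h (w_cont.intervalIntegrable _ _)]
  simp

theorem F2_eq (y : ℝ) : F2 y = ∫ t in (0:ℝ)..(max y 0), w t := by
  rw [integral_w (le_max_right _ _)]
  unfold F2
  split_ifs with h
  · rw [max_eq_right h]; simp
  · rw [max_eq_left (le_of_lt (not_le.mp h))]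

theorem F2_nonneg (y : ℝ) : 0 ≤ F2 y := by
  rw [F2_eq]
  apply intervalIntegral.integral_nonneg (le_max_right _ _)
  intro u hu
  exact w_nonneg hu.1

theorem F2_mono : Monotone F2 := by
  intro a b hab
  rw [F2_eq, F2_eq]
  apply intervalIntegral.integral_mono_interval le_rfl (le_max_right _ _) (max_le_max_right 0 hab)
  · filter_upwards [ae_restrict_mem measurableSet_Ioc] with u hu
    exact w_nonneg hu.1.le
  · exact w_cont.intervalIntegrable _ _

theorem F2_lip {a b : ℝ} (hab : a ≤ b) : F2 b - F2 a ≤ b - a := by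
  rw [F2_eq, F2_eq, intervalIntegral.integral_interval_sub_left (w_cont.intervalIntegrable _ _)
    (w_cont.intervalIntegrable _ _)]
  have h1 : max a 0 ≤ max b 0 := max_le_max_right 0 hab
  calc ∫ t in (max a 0)..(max b 0), w t ≤ ∫ t in (max a 0)..(max b 0), (1:ℝ) := by
        apply intervalIntegral.integral_mono_on h1 (w_cont.intervalIntegrable _ _)
          (by simp)
        intro x _
        exact w_le_one x
    _ = max b 0 - max a 0 := by simp
    _ ≤ b - a := by
        rcases le_total a 0 with ha | ha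
        · rcases le_total b 0 with hb | hb
          · rw [max_eq_right ha, max_eq_right hb]; linarith
          · rw [max_eq_right ha, max_eq_left hb]; linarith
        · rw [max_eq_left ha, max_eq_left (ha.trans hab)]

theorem F2_le_one (y : ℝ) : F2 y ≤ 1 := by
  unfold F2
  split_ifs with h
  · norm_num
  · have := Real.exp_pos (-y)
    nlinarith [not_le.mp h]

theorem F2_cont : Continuous F2 := by
  have : LipschitzWith 1 F2 := by
    apply LipschitzWith.of_dist_le_mul
    intro a b
    simp only [NNReal.coe_one, one_mul, Real.dist_eq]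
    rcases le_total a b with h | h
    · rw [abs_sub_comm, abs_sub_comm a b, abs_of_nonneg (sub_nonneg.mpr (F2_mono h)),
        abs_of_nonneg (sub_nonneg.mpr h)]
      exact F2_lip h
    · rw [abs_of_nonneg (sub_nonneg.mpr (F2_mono h)),
        abs_of_nonneg (sub_nonneg.mpr h)]
      exact F2_lip h
  exact this.continuous

theorem F2_integrable (P : Measure ℝ) [IsProbabilityMeasure P] : Integrable F2 P := by
  apply Integrable.of_bound F2_cont.aestronglyMeasurable 1
  exact Eventually.of_forall fun y => by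
    rw [Real.norm_eq_abs, abs_of_nonneg (F2_nonneg y)]; exact F2_le_one y

/-- survival function -/
def S (P : Measure ℝ) (y : ℝ) : ℝ := P.real (Ioi y)

theorem S_anti (P : Measure ℝ) [IsProbabilityMeasure P] : Antitone (S P) := by
  intro a b hab
  exact measureReal_mono (Ioi_subset_Ioi hab)

theorem S_nonneg (P : Measure ℝ) (y : ℝ) : 0 ≤ S P y := measureReal_nonneg

theorem S_le_one (P : Measure ℝ) [IsProbabilityMeasure P] (y : ℝ) : S P y ≤ 1 := measureReal_le_one

theorem S_meas (P : Measure ℝ) [IsProbabilityMeasure P] : Measurable (S P) := (S_anti P).measurable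

theorem layer_pos (P : Measure ℝ) [IsProbabilityMeasure P] (h : ℝ → ℝ) (hc : Continuous h)
    (hn : ∀ t, 0 < t → 0 ≤ h t) :
    ∫⁻ y, ENNReal.ofReal (∫ t in (0:ℝ)..(max y 0), h t) ∂P =
      ∫⁻ t in Ioi 0, ENNReal.ofReal (h t * S P t) := by
  rw [lintegral_comp_eq_lintegral_meas_lt_mul P (f := fun y => max y 0)
    (Eventually.of_forall fun y => le_max_right _ _) (by fun_prop)
    (fun t _ => hc.intervalIntegrable _ _)
    (by filter_upwards [ae_restrict_mem measurableSet_Ioi] with t ht using hn t ht)]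
  refine setLIntegral_congr_fun measurableSet_Ioi fun t ht => ?_
  have : {a : ℝ | t < max a 0} = Ioi t := by
    ext a
    simp only [mem_ofPred_eq, lt_max_iff, mem_Ioi]
    constructor
    · rintro (h | h)
      · exact h
      · exact absurd h (not_lt.mpr (le_of_lt ht))
    · exact Or.inl
  rw [this, mul_comm, ENNReal.ofReal_mul (hn t ht)]
  congr 1
  unfold S
  rw [ofReal_measureReal]

theorem layer_F2 (P : Measure ℝ) [IsProbabilityMeasure P] :
    IntegrableOn (fun t => w t * S P t) (Ioi 0) ∧ ∫ y, F2 y ∂P = ∫ t in Ioi 0, w t * S P t := by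
  have key := layer_pos P w w_cont (fun t ht => w_nonneg ht.le)
  simp_rw [← F2_eq] at key
  have hfin : ∫⁻ y, ENNReal.ofReal (F2 y) ∂P < ⊤ := (F2_integrable P).lintegral_lt_top
  have hm : AEStronglyMeasurable (fun t => w t * S P t) (volume.restrict (Ioi 0)) :=
    (w_cont.measurable.mul (S_meas P)).aestronglyMeasurable
  have hnn : 0 ≤ᵐ[volume.restrict (Ioi 0)] (fun t => w t * S P t) := by
    filter_upwards [ae_restrict_mem measurableSet_Ioi] with t ht
    exact mul_nonneg (w_nonneg (le_of_lt ht)) (S_nonneg P t)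
  constructor
  · refine ⟨hm, ?_⟩
    rw [hasFiniteIntegral_iff_ofReal hnn, ← key]
    exact hfin
  · rw [integral_eq_lintegral_of_nonneg_ae (Eventually.of_forall F2_nonneg) F2_cont.aestronglyMeasurable,
      integral_eq_lintegral_of_nonneg_ae hnn hm, key]

theorem layer_max (P : Measure ℝ) [IsProbabilityMeasure P] (hP : Integrable (fun y => y) P) :
    IntegrableOn (fun t => S P t) (Ioi 0) ∧ ∫ y, max y 0 ∂P = ∫ t in Ioi 0, S P t := by
  have key := layer_pos P (fun _ => 1) continuous_const (fun t ht => zero_le_one)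
  simp only [intervalIntegral.integral_const, sub_zero, smul_eq_mul, mul_one, one_mul] at key
  have hi : Integrable (fun y : ℝ => max y 0) P := hP.pos_part
  have hfin : ∫⁻ y, ENNReal.ofReal (max y 0) ∂P < ⊤ := hi.lintegral_lt_top
  have hm : AEStronglyMeasurable (fun t => S P t) (volume.restrict (Ioi 0)) :=
    (S_meas P).aestronglyMeasurable
  have hnn : 0 ≤ᵐ[volume.restrict (Ioi 0)] (fun t => S P t) :=
    Eventually.of_forall fun t => S_nonneg P t
  constructor
  · refine ⟨hm, ?_⟩
    rw [hasFiniteIntegral_iff_ofReal hnn, ← key]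
    exact hfin
  · rw [integral_eq_lintegral_of_nonneg_ae (Eventually.of_forall fun y => by simp)
      hi.aestronglyMeasurable,
      integral_eq_lintegral_of_nonneg_ae hnn hm, key]

theorem layer_neg (P : Measure ℝ) [IsProbabilityMeasure P] (hP : Integrable (fun y => y) P) :
    IntegrableOn (fun t => 1 - S P (-t)) (Ioi 0) ∧
      ∫ y, max (-y) 0 ∂P = ∫ t in Ioi 0, (1 - S P (-t)) := by
  have hi : Integrable (fun y : ℝ => max (-y) 0) P := hP.neg_part
  have key := lintegral_eq_lintegral_meas_le P (f := fun y : ℝ => max (-y) 0)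
    (Eventually.of_forall fun y => le_max_right _ _) hi.aemeasurable
  have key2 : ∫⁻ t in Ioi 0, P {a : ℝ | t ≤ max (-a) 0} =
      ∫⁻ t in Ioi 0, ENNReal.ofReal (1 - S P (-t)) := by
    refine setLIntegral_congr_fun measurableSet_Ioi fun t ht => ?_
    have : {a : ℝ | t ≤ max (-a) 0} = (Ioi (-t))ᶜ := by
      ext a
      simp only [mem_ofPred_eq, le_max_iff, mem_compl_iff, mem_Ioi, not_lt]
      constructor
      · rintro (h | h)
        · linarith
        · exact absurd ht (not_lt.mpr h)
      · intro h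
        left
        linarith
    rw [this]
    unfold S
    rw [← probReal_compl_eq_one_sub measurableSet_Ioi, ofReal_measureReal]
  rw [key2] at key
  have hfin : ∫⁻ y, ENNReal.ofReal (max (-y) 0) ∂P < ⊤ := hi.lintegral_lt_top
  have hm : AEStronglyMeasurable (fun t => 1 - S P (-t)) (volume.restrict (Ioi 0)) :=
    (measurable_const.sub ((S_meas P).comp measurable_neg)).aestronglyMeasurable
  have hnn : 0 ≤ᵐ[volume.restrict (Ioi 0)] (fun t => 1 - S P (-t)) :=
    Eventually.of_forall fun t => sub_nonneg.mpr (S_le_one P _)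
  constructor
  · refine ⟨hm, ?_⟩
    rw [hasFiniteIntegral_iff_ofReal hnn, ← key]
    exact hfin
  · rw [integral_eq_lintegral_of_nonneg_ae (Eventually.of_forall fun y => by simp)
      hi.aestronglyMeasurable,
      integral_eq_lintegral_of_nonneg_ae hnn hm, key]

theorem mean_eq (P : Measure ℝ) [IsProbabilityMeasure P] (hP : Integrable (fun y => y) P) :
    ∫ y, y ∂P = (∫ t in Ioi 0, S P t) - ∫ t in Ioi 0, (1 - S P (-t)) := by
  rw [← (layer_max P hP).2, ← (layer_neg P hP).2, ← integral_sub hP.pos_part hP.neg_part]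
  refine integral_congr_ae (Eventually.of_forall fun y => ?_)
  simp only
  rcases le_total y 0 with h | h
  · rw [max_eq_right h, max_eq_left (by linarith)]; ring
  · rw [max_eq_left h, max_eq_right (by linarith)]; ring

/-- Crossing comparison. -/
theorem compare (P Q : Measure ℝ) [IsProbabilityMeasure P] [IsProbabilityMeasure Q]
    (hP : Integrable (fun y => y) P) (hQ : Integrable (fun y => y) Q) (l : ℝ) (hl : 0 ≤ l)
    (h1 : ∀ t, 0 < t → 0 ≤ (w t - l) * (S P t - S Q t))
    (h2 : ∀ t, 0 < t → S P (-t) ≤ S Q (-t)) :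
    (∫ y, F2 y ∂Q) - l * ∫ y, y ∂Q ≤ (∫ y, F2 y ∂P) - l * ∫ y, y ∂P := by
  rw [mean_eq P hP, mean_eq Q hQ, (layer_F2 P).2, (layer_F2 Q).2]
  have i1 := (layer_F2 P).1
  have i2 := (layer_F2 Q).1
  have i3 := (layer_max P hP).1
  have i4 := (layer_max Q hQ).1
  have i5 := (layer_neg P hP).1
  have i6 := (layer_neg Q hQ).1
  have a1 : 0 ≤ ∫ t in Ioi 0, ((w t * S P t - w t * S Q t) - l * (S P t - S Q t)) := by
    apply setIntegral_nonneg measurableSet_Ioi
    intro t ht
    have := h1 t ht
    nlinarith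
  have a2 : 0 ≤ ∫ t in Ioi 0, l * ((1 - S P (-t)) - (1 - S Q (-t))) := by
    apply setIntegral_nonneg measurableSet_Ioi
    intro t ht
    have := h2 t ht
    apply mul_nonneg hl
    linarith
  have i12 : IntegrableOn (fun t => w t * S P t - w t * S Q t) (Ioi 0) := i1.sub i2
  have i34 : IntegrableOn (fun t => l * (S P t - S Q t)) (Ioi 0) := (i3.sub i4).const_mul l
  rw [integral_sub i12 i34, integral_sub i1 i2, integral_const_mul, integral_sub i3 i4] at a1
  rw [integral_const_mul, integral_sub i5 i6] at a2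
  nlinarith

theorem compare_mean (P Q : Measure ℝ) [IsProbabilityMeasure P] [IsProbabilityMeasure Q]
    (hP : Integrable (fun y => y) P) (hQ : Integrable (fun y => y) Q) (u v : ℝ) (huv : u ≤ v)
    (hu : 0 < u)
    (h1 : ∀ t, 0 < t → t < u → S P t ≤ S Q t) (h1' : ∀ t, v < t → S P t ≤ S Q t)
    (h2 : ∀ t, 0 < t → S P (-t) ≤ S Q (-t)) :
    (∫ y, y ∂P) ≤ (∫ y, y ∂Q) + (v - u) := by
  rw [mean_eq P hP, mean_eq Q hQ]
  have i3 := (layer_max P hP).1
  have i4 := (layer_max Q hQ).1
  have i5 := (layer_neg P hP).1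
  have i6 := (layer_neg Q hQ).1
  have i7 : IntegrableOn (indicator (Icc u v) (fun _ => (1:ℝ))) (Ioi 0) := by
    apply Integrable.integrableOn
    rw [integrable_indicator_iff measurableSet_Icc]
    simp
  have a1 : 0 ≤ ∫ t in Ioi 0, ((S Q t - S P t) + indicator (Icc u v) (fun _ => (1:ℝ)) t) := by
    apply setIntegral_nonneg measurableSet_Ioi
    intro t ht
    by_cases hm : t ∈ Icc u v
    · rw [indicator_of_mem hm]
      have := S_le_one P t
      have := S_nonneg Q t
      linarith
    · rw [indicator_of_notMem hm]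
      rw [mem_Icc, not_and_or, not_le, not_le] at hm
      rcases hm with hm | hm
      · have := h1 t ht hm
        linarith
      · have := h1' t hm
        linarith
  have a2 : 0 ≤ ∫ t in Ioi 0, ((1 - S P (-t)) - (1 - S Q (-t))) := by
    apply setIntegral_nonneg measurableSet_Ioi
    intro t ht
    have := h2 t ht
    linarith
  have e1 : ∫ t in Ioi 0, ((S Q t - S P t) + indicator (Icc u v) (fun _ => (1:ℝ)) t) =
      ((∫ t in Ioi 0, S Q t) - ∫ t in Ioi 0, S P t) + ∫ t in Ioi 0, indicator (Icc u v) (fun _ => (1:ℝ)) t := by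
    have i43 : IntegrableOn (fun t => S Q t - S P t) (Ioi 0) := i4.sub i3
    rw [← integral_sub i4 i3, ← integral_add i43 i7]
  rw [e1, setIntegral_indicator measurableSet_Icc] at a1
  rw [integral_sub i5 i6] at a2
  have : ∫ t in Ioi 0 ∩ Icc u v, (1:ℝ) = v - u := by
    have : Ioi 0 ∩ Icc u v = Icc u v := by
      apply inter_eq_self_of_subset_right
      intro x hx
      exact lt_of_lt_of_le hu hx.1
    rw [this]
    simp [huv]
  rw [this] at a1
  linarith



theorem exp_int {k : ℝ} (hk : 0 < k) : IntegrableOn (fun x => Real.exp (-(k * x))) (Ioi 0) ∧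
    ∫ x in Ioi (0:ℝ), Real.exp (-(k * x)) = 1 / k := by
  have h1 := integrableOn_exp_mul_Ioi (a := -k) (by linarith) 0
  have h2 := integral_exp_mul_Ioi (a := -k) (by linarith) 0
  simp only [neg_mul] at h1 h2
  refine ⟨h1, ?_⟩
  rw [h2]
  simp

theorem x_exp_int {k : ℝ} (hk : 0 < k) : IntegrableOn (fun x => x * Real.exp (-(k * x))) (Ioi 0) ∧
    ∫ x in Ioi (0:ℝ), x * Real.exp (-(k * x)) = 1 / k ^ 2 := by
  have hd : ∀ x ∈ Ici (0:ℝ), HasDerivAt (fun x => -(x / k + 1 / k ^ 2) * Real.exp (-(k * x)))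
      (x * Real.exp (-(k * x))) x := by
    intro x _
    have h1 : HasDerivAt (fun x : ℝ => Real.exp (-(k * x))) (Real.exp (-(k * x)) * (-(k * 1))) x :=
      (((hasDerivAt_id x).const_mul k).neg).exp
    have h2 : HasDerivAt (fun x : ℝ => -(x / k + 1 / k ^ 2)) (-(1 / k)) x :=
      (((hasDerivAt_id x).div_const k).add_const _).neg
    have h3 := h2.mul h1
    have e : x * Real.exp (-(k * x)) = -(1 / k) * Real.exp (-(k * x)) +
        -(x / k + 1 / k ^ 2) * (Real.exp (-(k * x)) * (-(k * 1))) := by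
      field_simp
      ring
    rw [e]
    exact h3
  have hpos : ∀ x ∈ Ioi (0:ℝ), 0 ≤ x * Real.exp (-(k * x)) := fun x hx =>
    mul_nonneg (le_of_lt hx) (Real.exp_pos _).le
  have hlim : Tendsto (fun x => -(x / k + 1 / k ^ 2) * Real.exp (-(k * x))) atTop (𝓝 0) := by
    have t1 := (Real.tendsto_pow_mul_exp_neg_atTop_nhds_zero 1).comp (tendsto_id.const_mul_atTop hk)
    have t0 := (Real.tendsto_pow_mul_exp_neg_atTop_nhds_zero 0).comp (tendsto_id.const_mul_atTop hk)
    have t2 := (t1.add t0).const_mul (-(1 / k ^ 2))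
    simp only [add_zero, mul_zero] at t2
    refine t2.congr fun x => ?_
    simp only [Function.comp, id]
    field_simp
  constructor
  · exact integrableOn_Ioi_deriv_of_nonneg' hd hpos hlim
  · rw [integral_Ioi_of_hasDerivAt_of_nonneg' hd hpos hlim]
    simp

theorem nu_real_Ioi (a : ℝ) : nu.real (Ioi a) = Real.exp (-max a 0) := by
  unfold Measure.real
  rw [nu_apply _ measurableSet_Ioi, Ioi_inter_Ioi, integral_exp_neg_Ioi,
    ENNReal.toReal_ofReal (Real.exp_pos _).le]

theorem nu_integrable_id : Integrable (fun x => x) nu := by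
  unfold nu
  rw [integrable_withDensity_iff_integrable_smul' (by fun_prop) (by simp)]
  have := (x_exp_int one_pos).1
  refine this.congr ?_
  refine Eventually.of_forall fun x => ?_
  simp only [smul_eq_mul, one_mul]
  rw [ENNReal.toReal_ofReal (Real.exp_pos _).le, mul_comm]

theorem nu_mean : ∫ x, x ∂nu = 1 := by
  rw [integral_nu]
  have := (x_exp_int one_pos).2
  simp only [one_mul, one_pow, div_one] at this
  rw [← this]
  refine integral_congr_ae (Eventually.of_forall fun x => ?_)
  simp only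
  ring

/-- law of `c + t X` -/
def V (c t : ℝ) : Measure ℝ := nu.map (fun x => c + t * x)

instance (c t : ℝ) : IsProbabilityMeasure (V c t) := by
  unfold V
  exact Measure.isProbabilityMeasure_map (by fun_prop)

theorem V_integrable (c t : ℝ) : Integrable (fun x => x) (V c t) := by
  unfold V
  rw [integrable_map_measure (by fun_prop) (by fun_prop)]
  exact (integrable_const c).add (nu_integrable_id.const_mul t)

theorem V_mean (c t : ℝ) : ∫ x, x ∂(V c t) = c + t := by
  unfold V
  rw [integral_map (by fun_prop) (by fun_prop), integral_add (integrable_const c)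
    (nu_integrable_id.const_mul t), integral_const_mul, nu_mean]
  simp

theorem V_S {c t : ℝ} (ht : 0 < t) (y : ℝ) : S (V c t) y = Real.exp (-max ((y - c) / t) 0) := by
  unfold S V
  rw [map_measureReal_apply (by fun_prop) measurableSet_Ioi, ← nu_real_Ioi]
  congr 1
  ext x
  simp only [mem_preimage, mem_Ioi]
  rw [div_lt_iff₀ ht]
  constructor <;> intro h <;> linarith

theorem V_F2 (c t : ℝ) : ∫ y, F2 y ∂(V c t) = ∫ x, F2 (c + t * x) ∂nu := by
  unfold V
  rw [integral_map (by fun_prop) F2_cont.aestronglyMeasurable]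

theorem J_neg {c t : ℝ} (ht : 0 < t) (hc : c ≤ 0) :
    ∫ y, F2 y ∂(V c t) = Real.exp (c / t) * (t / (1 + t)) ^ 2 := by
  rw [(layer_F2 (V c t)).2]
  have : ∀ y ∈ Ioi (0:ℝ), w y * S (V c t) y = Real.exp (c / t) * (y * Real.exp (-((1 + 1 / t) * y))) := by
    intro y hy
    rw [V_S ht, max_eq_left]
    · unfold w
      rw [mul_assoc, ← Real.exp_add, mul_left_comm, ← Real.exp_add]
      congr 2
      field_simp
      ring
    · apply div_nonneg _ ht.le
      have : 0 < y := hy
      linarith
  rw [setIntegral_congr_fun measurableSet_Ioi this, integral_const_mul, (x_exp_int (by positivity)).2]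
  congr 1
  field_simp
  ring

theorem J_pos {c t : ℝ} (ht : 0 < t) (hc : 0 < c) :
    ∫ y, F2 y ∂(V c t) = 1 - Real.exp (-c) * ((1 + c) / (1 + t) + t / (1 + t) ^ 2) := by
  rw [V_F2, integral_nu]
  have : ∀ x ∈ Ioi (0:ℝ), Real.exp (-x) * F2 (c + t * x) = Real.exp (-(1 * x)) -
      (Real.exp (-c) * (1 + c) * Real.exp (-((1 + t) * x)) +
        Real.exp (-c) * t * (x * Real.exp (-((1 + t) * x)))) := by
    intro x hx
    have hx' : 0 < x := hx
    have : ¬ (c + t * x ≤ 0) := by
      rw [not_le]; positivity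
    unfold F2
    rw [if_neg this]
    have e1 : Real.exp (-((1 + t) * x)) = Real.exp (-x) * Real.exp (-(t * x)) := by
      rw [← Real.exp_add]; ring_nf
    have e2 : Real.exp (-(c + t * x)) = Real.exp (-c) * Real.exp (-(t * x)) := by
      rw [← Real.exp_add]; ring_nf
    rw [e1, e2, one_mul]
    ring
  have k : 0 < 1 + t := by linarith
  rw [setIntegral_congr_fun measurableSet_Ioi this]
  have i1 := (exp_int one_pos).1
  have i2 : IntegrableOn (fun x => Real.exp (-c) * (1 + c) * Real.exp (-((1 + t) * x))) (Ioi 0) :=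
    (exp_int k).1.const_mul _
  have i3 : IntegrableOn (fun x => Real.exp (-c) * t * (x * Real.exp (-((1 + t) * x)))) (Ioi 0) :=
    (x_exp_int k).1.const_mul _
  have i4 : IntegrableOn (fun x => Real.exp (-c) * (1 + c) * Real.exp (-((1 + t) * x)) + 
    Real.exp (-c) * t * (x * Real.exp (-((1 + t) * x)))) (Ioi 0) := i2.add i3
  rw [integral_sub i1 i4, integral_add i2 i3, integral_const_mul, integral_const_mul,
    (exp_int one_pos).2, (exp_int k).2, (x_exp_int k).2]
  field_simp

/-- The extremal value. -/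
def M : ℝ := 4 / 9 * Real.exp (-(1 / 3))

theorem num1 : 33 / 49 ≤ 1 - M := by
  unfold M
  have h : (1:ℝ) + 1 / 3 + (1 / 3) ^ 2 / 2 ≤ Real.exp (1 / 3) := Real.quadratic_le_exp_of_nonneg (by norm_num)
  have h2 : Real.exp (1 / 3) * Real.exp (-(1 / 3)) = 1 := by rw [← Real.exp_add]; simp
  have h3 := Real.exp_pos (-(1 / 3))
  nlinarith

theorem J_neg_ge {c t : ℝ} (ht : 0 < t) (hct : c + t = 4 / 3) :
    M ≤ Real.exp (c / t) * (t / (1 + t)) ^ 2 := by
  have h := Real.add_one_le_exp (2 / (3 * t) - 1 / 3)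
  have h1 : 2 / 3 * (1 + 1 / t) ≤ Real.exp (2 / (3 * t) - 1 / 3) := by
    refine le_trans (le_of_eq ?_) h
    field_simp
    ring
  have h2 : (2 / 3 * (1 + 1 / t)) ^ 2 ≤ Real.exp (2 / (3 * t) - 1 / 3) ^ 2 := by
    apply pow_le_pow_left₀ (by positivity) h1
  have h3 : Real.exp (c / t) = Real.exp (2 / (3 * t) - 1 / 3) ^ 2 * Real.exp (-(1 / 3)) := by
    rw [← Real.exp_nat_mul, ← Real.exp_add]
    congr 1
    have : c = 4 / 3 - t := by linarith
    rw [this]
    push_cast
    field_simp
    ring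
  rw [h3]
  unfold M
  have h4 : (2 / 3 * (1 + 1 / t)) ^ 2 * (t / (1 + t)) ^ 2 = 4 / 9 := by
    field_simp
    ring
  have h5 := Real.exp_pos (-(1 / 3))
  have h6 : 0 ≤ (t / (1 + t)) ^ 2 := by positivity
  calc 4 / 9 * Real.exp (-(1 / 3)) = ((2 / 3 * (1 + 1 / t)) ^ 2 * (t / (1 + t)) ^ 2) * Real.exp (-(1 / 3)) := by
        rw [h4]
    _ ≤ (Real.exp (2 / (3 * t) - 1 / 3) ^ 2 * (t / (1 + t)) ^ 2) * Real.exp (-(1 / 3)) := by
        gcongr
    _ = _ := by ring

theorem f_mono {t : ℝ} (ht : 0 ≤ t) (ht2 : t ≤ 4 / 3) :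
    Real.exp (t - 4 / 3) * (7 / 3 + 7 / 3 * t - t ^ 2) / (1 + t) ^ 2 ≤ 33 / 49 := by
  set f : ℝ → ℝ := fun t => Real.exp (t - 4 / 3) * (7 / 3 + 7 / 3 * t - t ^ 2) / (1 + t) ^ 2 with hf
  have hd : ∀ x ∈ Icc (0:ℝ) (4 / 3), HasDerivAt f (Real.exp (x - 4 / 3) * (x * (1 / 3 + 4 / 3 * x - x ^ 2)) / (1 + x) ^ 3) x := by
    intro x hx
    have hx1 : 1 + x ≠ 0 := by linarith [hx.1]
    have h1 : HasDerivAt (fun x : ℝ => Real.exp (x - 4 / 3)) (Real.exp (x - 4 / 3) * 1) x :=
      ((hasDerivAt_id x).sub_const _).exp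
    have h2 : HasDerivAt (fun x : ℝ => 7 / 3 + 7 / 3 * x - x ^ 2) (7 / 3 * 1 - 2 * x) x := by
      have := (((hasDerivAt_id x).const_mul (7 / 3 : ℝ)).const_add (7 / 3)).fun_sub (hasDerivAt_pow 2 x)
      simpa using this
    have h3 : HasDerivAt (fun x : ℝ => (1 + x) ^ 2) (2 * (1 + x)) x := by
      have := ((hasDerivAt_id x).const_add 1).fun_pow 2
      simpa using this
    have h4 := (h1.mul h2).div h3 (pow_ne_zero 2 hx1)
    have e : Real.exp (x - 4 / 3) * (x * (1 / 3 + 4 / 3 * x - x ^ 2)) / (1 + x) ^ 3 =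
      ((Real.exp (x - 4 / 3) * 1 * (7 / 3 + 7 / 3 * x - x ^ 2) + Real.exp (x - 4 / 3) * (7 / 3 * 1 - 2 * x)) *
        (1 + x) ^ 2 - Real.exp (x - 4 / 3) * (7 / 3 + 7 / 3 * x - x ^ 2) * (2 * (1 + x))) / ((1 + x) ^ 2) ^ 2 := by
      field_simp
      ring
    rw [e]
    exact h4
  have hm : MonotoneOn f (Icc 0 (4 / 3)) := by
    apply monotoneOn_of_deriv_nonneg (convex_Icc _ _)
    · intro x hx
      exact (hd x hx).continuousAt.continuousWithinAt
    · intro x hx
      rw [interior_Icc] at hx
      exact (hd x ⟨hx.1.le, hx.2.le⟩).differentiableAt.differentiableWithinAt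
    · intro x hx
      rw [interior_Icc] at hx
      rw [(hd x ⟨hx.1.le, hx.2.le⟩).deriv]
      have hx0 : 0 < x := hx.1
      have hx1 : x < 4 / 3 := hx.2
      have : 0 ≤ 1 / 3 + 4 / 3 * x - x ^ 2 := by nlinarith
      positivity
  have := hm ⟨ht, ht2⟩ (right_mem_Icc.mpr (by norm_num)) ht2
  refine le_trans this ?_
  rw [hf]
  norm_num

theorem J_ge_aux {c t : ℝ} (ht : 0 < t) (hct : c + t = 4 / 3) : M ≤ ∫ y, F2 y ∂(V c t) := by
  rcases le_or_gt c 0 with hc | hc
  · rw [J_neg ht hc]
    exact J_neg_ge ht hct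
  · rw [J_pos ht hc]
    have h1 := f_mono ht.le (by linarith)
    have e : Real.exp (-c) * ((1 + c) / (1 + t) + t / (1 + t) ^ 2) =
        Real.exp (t - 4 / 3) * (7 / 3 + 7 / 3 * t - t ^ 2) / (1 + t) ^ 2 := by
      have : c = 4 / 3 - t := by linarith
      subst this
      have : -(4 / 3 - t) = t - 4 / 3 := by ring
      rw [this]
      field_simp
      ring
    rw [e]
    have := num1
    linarith

theorem F2_shift_mono {c c' t : ℝ} (h : c ≤ c') : ∫ y, F2 y ∂(V c t) ≤ ∫ y, F2 y ∂(V c' t) := by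
  rw [V_F2, V_F2]
  apply integral_mono
  · refine Integrable.of_bound (F2_cont.comp (by fun_prop)).aestronglyMeasurable 1 (Eventually.of_forall fun y => ?_)
    rw [Real.norm_eq_abs, abs_of_nonneg (F2_nonneg _)]; exact F2_le_one _
  · refine Integrable.of_bound (F2_cont.comp (by fun_prop)).aestronglyMeasurable 1 (Eventually.of_forall fun y => ?_)
    rw [Real.norm_eq_abs, abs_of_nonneg (F2_nonneg _)]; exact F2_le_one _
  · intro x
    exact F2_mono (by linarith)

theorem F2_shift_lip {c c' t : ℝ} (h : c ≤ c') :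
    ∫ y, F2 y ∂(V c' t) ≤ (∫ y, F2 y ∂(V c t)) + (c' - c) := by
  rw [V_F2, V_F2]
  have i1 : Integrable (fun x => F2 (c + t * x)) nu := by
    refine Integrable.of_bound (F2_cont.comp (by fun_prop)).aestronglyMeasurable 1 (Eventually.of_forall fun y => ?_)
    rw [Real.norm_eq_abs, abs_of_nonneg (F2_nonneg _)]; exact F2_le_one _
  have i2 : Integrable (fun x => F2 (c' + t * x)) nu := by
    refine Integrable.of_bound (F2_cont.comp (by fun_prop)).aestronglyMeasurable 1 (Eventually.of_forall fun y => ?_)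
    rw [Real.norm_eq_abs, abs_of_nonneg (F2_nonneg _)]; exact F2_le_one _
  have : (∫ x, F2 (c + t * x) ∂nu) + (c' - c) = ∫ x, (F2 (c + t * x) + (c' - c)) ∂nu := by
    rw [integral_add i1 (integrable_const _)]
    simp
  rw [this]
  apply integral_mono i2 (i1.add (integrable_const _))
  intro x
  have := F2_lip (a := c + t * x) (b := c' + t * x) (by linarith)
  simp only [Pi.add_apply]
  linarith

/-- `M` bounds `E F2(c + tX)` when the mean is at least `4/3`. -/
theorem J_ge {c t : ℝ} (ht : 0 < t) (hct : 4 / 3 ≤ c + t) : M ≤ ∫ y, F2 y ∂(V c t) :=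
  (J_ge_aux ht (c := 4 / 3 - t) (by ring)).trans (F2_shift_mono (by linarith))

theorem J_ge_approx {c t : ℝ} (ht : 0 < t) (hct : c + t ≤ 4 / 3) :
    M - (4 / 3 - (c + t)) ≤ ∫ y, F2 y ∂(V c t) := by
  have h1 := J_ge_aux ht (c := 4 / 3 - t) (by ring)
  have h2 := F2_shift_lip (c := c) (c' := 4 / 3 - t) (t := t) (by linarith)
  linarith



/-- Midpoint convexity plus continuity gives convexity. -/
theorem three_point {L : ℝ → ℝ} (hc : Continuous L)
    (hm : ∀ x s, 0 ≤ s → 2 * L x ≤ L (x - s) + L (x + s))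
    {a b : ℝ} (hab : a < b) {y : ℝ} (hy : y ∈ Icc a b) :
    (b - a) * L y ≤ (b - y) * L a + (y - a) * L b := by
  set φ : ℝ → ℝ := fun y => (b - a) * L y - ((b - y) * L a + (y - a) * L b) with hφ
  have hφc : Continuous φ := by fun_prop
  have hφa : φ a = 0 := by simp [hφ]
  have hφb : φ b = 0 := by simp [hφ]
  have hφm : ∀ x s, 0 ≤ s → 2 * φ x ≤ φ (x - s) + φ (x + s) := by
    intro x s hs
    simp only [hφ]
    have := hm x s hs
    have hba : 0 < b - a := sub_pos.mpr hab
    nlinarith
  obtain ⟨p₀, hp₀, hmax⟩ := isCompact_Icc.exists_isMaxOn ⟨a, left_mem_Icc.mpr hab.le⟩ hφc.continuousOn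
    (s := Icc a b)
  by_contra hcon
  rw [not_le] at hcon
  have hφy : 0 < φ y := by simp only [hφ]; linarith
  have hφp : 0 < φ p₀ := lt_of_lt_of_le hφy (hmax hy)
  have hK : IsCompact (Icc a b ∩ φ ⁻¹' {φ p₀}) :=
    isCompact_Icc.inter_right (isClosed_singleton.preimage hφc)
  obtain ⟨p, hp, hpl⟩ := hK.exists_isLeast ⟨p₀, hp₀, rfl⟩
  have hpp : φ p = φ p₀ := hp.2
  have hpa : a < p := by
    rcases lt_or_eq_of_le hp.1.1 with h | h
    · exact h
    · rw [← h, hφa] at hpp; linarith
  have hpb : p < b := by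
    rcases lt_or_eq_of_le hp.1.2 with h | h
    · exact h
    · rw [h, hφb] at hpp; linarith
  have hs : 0 < min (p - a) (b - p) := lt_min (by linarith) (by linarith)
  set s := min (p - a) (b - p)
  have hs1 : s ≤ p - a := min_le_left _ _
  have hs2 : s ≤ b - p := min_le_right _ _
  have h1 := hφm p s hs.le
  have h2 : φ (p - s) ≤ φ p₀ := hmax ⟨by linarith, by linarith⟩
  have h3 : φ (p + s) ≤ φ p₀ := hmax ⟨by linarith, by linarith⟩
  have h4 : φ (p - s) = φ p₀ := by linarith
  have h5 : p ≤ p - s := hpl ⟨⟨by linarith, by linarith⟩, h4⟩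
  linarith

theorem w_mono {a b : ℝ} (h0 : 0 ≤ a) (hab : a ≤ b) (h1 : b ≤ 1) : w a ≤ w b := by
  unfold w
  have h := Real.add_one_le_exp (a - b)
  have h2 : Real.exp (-b) = Real.exp (a - b) * Real.exp (-a) := by rw [← Real.exp_add]; ring_nf
  rw [h2]
  have h3 := Real.exp_pos (-a)
  have h4 : a ≤ b * Real.exp (a - b) := by
    nlinarith
  nlinarith

theorem w_anti {a b : ℝ} (h1 : 1 ≤ a) (hab : a ≤ b) : w b ≤ w a := by
  unfold w
  have h := Real.add_one_le_exp (b - a)
  have h2 : Real.exp (-a) = Real.exp (b - a) * Real.exp (-b) := by rw [← Real.exp_add]; ring_nf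
  rw [h2]
  have h3 := Real.exp_pos (-b)
  have h4 : b ≤ a * Real.exp (b - a) := by
    nlinarith
  nlinarith

section abstract

variable (P : Measure ℝ) [IsProbabilityMeasure P]

/-- `-log S`. -/
def Lg (y : ℝ) : ℝ := -Real.log (S P y)

variable {P}

theorem Lg_pos (h1 : ∀ y, 0 < S P y) (h2 : ∀ y, S P y < 1) (y : ℝ) : 0 < Lg P y := by
  unfold Lg
  have := Real.log_neg (h1 y) (h2 y)
  linarith

theorem S_eq_exp (h1 : ∀ y, 0 < S P y) (y : ℝ) : S P y = Real.exp (-Lg P y) := by
  unfold Lg
  rw [neg_neg, Real.exp_log (h1 y)]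

theorem Lg_cont (h1 : ∀ y, 0 < S P y) (hc : Continuous (S P)) : Continuous (Lg P) := by
  unfold Lg
  exact (hc.log (fun x => (h1 x).ne')).neg

theorem Lg_mid (h1 : ∀ y, 0 < S P y)
    (hlc : ∀ x s, 0 ≤ s → S P (x - s) * S P (x + s) ≤ S P x ^ 2) :
    ∀ x s, 0 ≤ s → 2 * Lg P x ≤ Lg P (x - s) + Lg P (x + s) := by
  intro x s hs
  unfold Lg
  have := Real.log_le_log (mul_pos (h1 _) (h1 _)) (hlc x s hs)
  rw [Real.log_mul (h1 _).ne' (h1 _).ne', Real.log_pow] at this
  push_cast at this
  linarith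

theorem Lg_strictMono (h1 : ∀ y, 0 < S P y) (h2 : ∀ y, S P y < 1) (hc : Continuous (S P))
    (hlc : ∀ x s, 0 ≤ s → S P (x - s) * S P (x + s) ≤ S P x ^ 2) : StrictMono (Lg P) := by
  have hmono : Monotone (Lg P) := by
    intro a b hab
    unfold Lg
    have := Real.log_le_log (h1 b) (S_anti P hab)
    linarith
  intro a b hab
  rcases lt_or_eq_of_le (hmono hab.le) with h | h
  · exact h
  · exfalso
    have h3 : ∀ x, x < a → Lg P a ≤ Lg P x := by
      intro x hx
      have := three_point (Lg_cont h1 hc) (Lg_mid h1 hlc) (a := x) (b := b) (hx.trans hab) (y := a)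
        ⟨hx.le, hab.le⟩
      rw [← h] at this
      have hba : 0 < b - a := sub_pos.mpr hab
      by_contra hcon
      rw [not_le] at hcon
      nlinarith
    have h4 : ∀ x, x < a → S P x ≤ S P a := by
      intro x hx
      rw [S_eq_exp h1, S_eq_exp h1 a]
      apply Real.exp_le_exp.mpr
      linarith [h3 x hx]
    have h5 : ∀ x, x < a → P (Ici x) ≤ ENNReal.ofReal (S P a) := by
      intro x hx
      calc P (Ici x) ≤ P (Ioi (x - 1)) := by
            apply measure_mono
            intro z hz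
            simp only [mem_Ici, mem_Ioi] at *
            linarith
        _ = ENNReal.ofReal (S P (x - 1)) := by unfold S; rw [ofReal_measureReal]
        _ ≤ ENNReal.ofReal (S P a) := ENNReal.ofReal_le_ofReal (h4 _ (by linarith))
    have h6 := le_of_tendsto (tendsto_measure_Ici_atBot P)
      ((eventually_lt_atBot a).mono fun x hx => h5 x hx)
    rw [measure_univ] at h6
    have h7 : ENNReal.ofReal (S P a) < 1 := by
      rw [ENNReal.ofReal_lt_one]
      exact h2 a
    exact absurd h6 (not_le.mpr h7)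

/-- left crossing -/
def u1 (r : ℝ) : ℝ := Real.log r / (r - 1)

theorem u1_pos {r : ℝ} (hr : 1 < r) : 0 < u1 r := div_pos (Real.log_pos hr) (by linarith)

theorem u1_lt {r : ℝ} (hr : 1 < r) : u1 r < 1 := by
  unfold u1
  rw [div_lt_one (by linarith)]
  exact Real.log_lt_sub_one_of_pos (by linarith) hr.ne'

theorem lt_u2 {r : ℝ} (hr : 1 < r) : 1 < r * u1 r := by
  unfold u1
  rw [← mul_div_assoc, one_lt_div (by linarith)]
  have h := Real.log_lt_sub_one_of_pos (x := r⁻¹) (by positivity) (by
    intro h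
    rw [inv_eq_one] at h
    linarith)
  rw [Real.log_inv] at h
  have h2 : r * r⁻¹ = 1 := mul_inv_cancel₀ (by linarith)
  nlinarith

theorem u2_sub {r : ℝ} (hr : 1 < r) : r * u1 r - u1 r = Real.log r := by
  unfold u1
  have : r - 1 ≠ 0 := by linarith
  field_simp

theorem w_u2 {r : ℝ} (hr : 1 < r) : w (r * u1 r) = w (u1 r) := by
  unfold w
  have h : Real.exp (-(r * u1 r)) = Real.exp (-u1 r) * Real.exp (-Real.log r) := by
    rw [← Real.exp_add]
    congr 1
    have := u2_sub hr
    linarith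
  rw [h, Real.exp_neg (Real.log r), Real.exp_log (by linarith)]
  have : r ≠ 0 := by linarith
  field_simp

theorem u1_contOn : ContinuousOn u1 (Ioi 1) := by
  unfold u1
  apply ContinuousOn.div
  · apply Real.continuousOn_log.mono
    intro x hx
    simp only [mem_Ioi] at hx
    simp only [mem_compl_iff, mem_singleton_iff]
    linarith
  · fun_prop
  · intro x hx
    simp only [mem_Ioi] at hx
    linarith

variable (P) in
/-- scale -/
def tt (r : ℝ) : ℝ := Real.log r / (Lg P (r * u1 r) - Lg P (u1 r))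

variable (P) in
def cc (r : ℝ) : ℝ := u1 r - tt P r * Lg P (u1 r)

variable (P) in
def G (r : ℝ) : ℝ := cc P r + tt P r

theorem tt_pos (hs : StrictMono (Lg P)) {r : ℝ} (hr : 1 < r) : 0 < tt P r := by
  unfold tt
  apply div_pos (Real.log_pos hr)
  have : u1 r < r * u1 r := (u1_lt hr).trans (lt_u2 hr)
  have := hs this
  linarith

theorem G_contOn (hs : StrictMono (Lg P)) (hc : Continuous (Lg P)) : ContinuousOn (G P) (Ioi 1) := by
  have h1 : ContinuousOn (fun r => Lg P (u1 r)) (Ioi 1) := hc.comp_continuousOn u1_contOn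
  have h2 : ContinuousOn (fun r => Lg P (r * u1 r)) (Ioi 1) :=
    hc.comp_continuousOn (continuousOn_id.mul u1_contOn)
  have h3 : ContinuousOn (tt P) (Ioi 1) := by
    unfold tt
    apply ContinuousOn.div
    · apply Real.continuousOn_log.mono
      intro x hx
      simp only [mem_Ioi] at hx
      simp only [mem_compl_iff, mem_singleton_iff]
      linarith
    · exact h2.sub h1
    · intro r hr
      have : u1 r < r * u1 r := (u1_lt hr).trans (lt_u2 hr)
      have := hs this
      linarith
  unfold G cc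
  exact (u1_contOn.sub (h3.mul h1)).add h3

/-- Exponential survival comparison. -/
theorem S_V_eq (hs : StrictMono (Lg P)) {r : ℝ} (hr : 1 < r) (y : ℝ) :
    S (V (cc P r) (tt P r)) y =
      Real.exp (-max (Lg P (u1 r) + (y - u1 r) / tt P r) 0) := by
  rw [V_S (tt_pos hs hr)]
  congr 3
  have := (tt_pos hs hr).ne'
  unfold cc
  field_simp
  ring

theorem slope_eq (hs : StrictMono (Lg P)) {r : ℝ} (hr : 1 < r) (z : ℝ) :
    z / tt P r = z * (Lg P (r * u1 r) - Lg P (u1 r)) / (r * u1 r - u1 r) := by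
  unfold tt
  rw [u2_sub hr]
  have h1 := (Real.log_pos hr).ne'
  have h2 : Lg P (r * u1 r) - Lg P (u1 r) ≠ 0 := by
    have : u1 r < r * u1 r := (u1_lt hr).trans (lt_u2 hr)
    have := hs this
    linarith
  field_simp

theorem outside (hs : StrictMono (Lg P)) (h1 : ∀ y, 0 < S P y) (h2 : ∀ y, S P y < 1)
    (hc : Continuous (Lg P))
    (hm : ∀ x s, 0 ≤ s → 2 * Lg P x ≤ Lg P (x - s) + Lg P (x + s))
    {r : ℝ} (hr : 1 < r) {y : ℝ} (hy : y < u1 r ∨ r * u1 r < y) :
    S P y ≤ S (V (cc P r) (tt P r)) y := by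
  rw [S_V_eq hs hr, S_eq_exp h1, Real.exp_le_exp, neg_le_neg_iff, max_le_iff]
  refine ⟨?_, (Lg_pos h1 h2 y).le⟩
  rw [slope_eq hs hr]
  have hu : 0 < r * u1 r - u1 r := by rw [u2_sub hr]; exact Real.log_pos hr
  rw [← sub_nonneg]
  have e : Lg P y - (Lg P (u1 r) + (y - u1 r) * (Lg P (r * u1 r) - Lg P (u1 r)) / (r * u1 r - u1 r)) =
    ((r * u1 r - u1 r) * Lg P y - (r * u1 r - y) * Lg P (u1 r) - (y - u1 r) * Lg P (r * u1 r)) /
      (r * u1 r - u1 r) := by
    have hu' := hu.ne'
    set D := r * u1 r - u1 r with hD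
    have hr1 : r * u1 r = D + u1 r := by rw [hD]; ring
    rw [hr1]
    field_simp
    ring
  rw [e]
  apply div_nonneg _ hu.le
  rcases hy with hy | hy
  · have := three_point hc hm (a := y) (b := r * u1 r) (y := u1 r) (by linarith) ⟨hy.le, by linarith⟩
    linarith
  · have := three_point hc hm (a := u1 r) (b := y) (y := r * u1 r) (by linarith) ⟨by linarith, hy.le⟩
    linarith

theorem inside (hs : StrictMono (Lg P)) (h1 : ∀ y, 0 < S P y)
    (hc : Continuous (Lg P))
    (hm : ∀ x s, 0 ≤ s → 2 * Lg P x ≤ Lg P (x - s) + Lg P (x + s))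
    {r : ℝ} (hr : 1 < r) {y : ℝ} (hy : y ∈ Icc (u1 r) (r * u1 r)) :
    S (V (cc P r) (tt P r)) y ≤ S P y := by
  rw [S_V_eq hs hr, S_eq_exp h1, Real.exp_le_exp, neg_le_neg_iff]
  refine le_trans ?_ (le_max_left _ _)
  rw [slope_eq hs hr]
  have hu : 0 < r * u1 r - u1 r := by rw [u2_sub hr]; exact Real.log_pos hr
  rw [← sub_nonneg]
  have e : (Lg P (u1 r) + (y - u1 r) * (Lg P (r * u1 r) - Lg P (u1 r)) / (r * u1 r - u1 r)) - Lg P y =
    -((r * u1 r - u1 r) * Lg P y - (r * u1 r - y) * Lg P (u1 r) - (y - u1 r) * Lg P (r * u1 r)) /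
      (r * u1 r - u1 r) := by
    have hu' := hu.ne'
    set D := r * u1 r - u1 r with hD
    have hr1 : r * u1 r = D + u1 r := by rw [hD]; ring
    rw [hr1]
    field_simp
    ring
  rw [e]
  apply div_nonneg _ hu.le
  have := three_point hc hm (a := u1 r) (b := r * u1 r) (y := y) (by linarith) hy
  linarith

/-- The tangent inequality. -/
theorem main_ineq (hs : StrictMono (Lg P)) (h1 : ∀ y, 0 < S P y) (h2 : ∀ y, S P y < 1)
    (hc : Continuous (Lg P))
    (hm : ∀ x s, 0 ≤ s → 2 * Lg P x ≤ Lg P (x - s) + Lg P (x + s))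
    (hP : Integrable (fun y => y) P)
    {r : ℝ} (hr : 1 < r) :
    (∫ y, F2 y ∂(V (cc P r) (tt P r))) - w (u1 r) * G P r ≤ (∫ y, F2 y ∂P) - w (u1 r) * ∫ y, y ∂P := by
  have := compare P (V (cc P r) (tt P r)) hP (V_integrable _ _) (w (u1 r)) (w_nonneg (u1_pos hr).le) ?_ ?_
  · rwa [V_mean] at this
  · intro t ht
    by_cases hm1 : t < u1 r
    · have a1 := outside hs h1 h2 hc hm hr (Or.inl hm1)
      have a2 := w_mono ht.le hm1.le (u1_lt hr).le
      nlinarith
    · rw [not_lt] at hm1
      by_cases hm2 : r * u1 r < t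
      · have a1 := outside hs h1 h2 hc hm hr (Or.inr hm2)
        have a2 := w_anti (lt_u2 hr).le hm2.le
        rw [w_u2 hr] at a2
        nlinarith
      · rw [not_lt] at hm2
        have a1 := inside hs h1 hc hm hr ⟨hm1, hm2⟩
        have a2 : w (u1 r) ≤ w t := by
          rcases le_total t 1 with h | h
          · exact w_mono (u1_pos hr).le hm1 h
          · rw [← w_u2 hr]
            exact w_anti h hm2
        exact mul_nonneg (by linarith) (by linarith)
  · intro t ht
    apply outside hs h1 h2 hc hm hr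
    left
    have := u1_pos hr
    linarith

theorem G_lower (hs : StrictMono (Lg P)) (h1 : ∀ y, 0 < S P y) (h2 : ∀ y, S P y < 1)
    (hc : Continuous (Lg P))
    (hm : ∀ x s, 0 ≤ s → 2 * Lg P x ≤ Lg P (x - s) + Lg P (x + s))
    (hP : Integrable (fun y => y) P)
    {r : ℝ} (hr : 1 < r) :
    ∫ y, y ∂P ≤ G P r + Real.log r := by
  have := compare_mean P (V (cc P r) (tt P r)) hP (V_integrable _ _) (u1 r) (r * u1 r)
    ((u1_lt hr).trans (lt_u2 hr)).le (u1_pos hr) ?_ ?_ ?_
  · rw [V_mean, u2_sub hr] at this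
    exact this
  · intro t _ ht
    exact outside hs h1 h2 hc hm hr (Or.inl ht)
  · intro t ht
    exact outside hs h1 h2 hc hm hr (Or.inr ht)
  · intro t ht
    apply outside hs h1 h2 hc hm hr
    left
    have := u1_pos hr
    linarith

theorem G_upper (hs : StrictMono (Lg P)) (h1 : ∀ y, 0 < S P y) (h2 : ∀ y, S P y < 1)
    (hc : Continuous (Lg P))
    (hm : ∀ x s, 0 ≤ s → 2 * Lg P x ≤ Lg P (x - s) + Lg P (x + s))
    {r : ℝ} (hr : 1 < r) :
    G P r ≤ 1 + 1 / (Lg P 0 - Lg P (-1)) := by
  have k0 : 0 < Lg P 0 - Lg P (-1) := sub_pos.mpr (hs (by norm_num))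
  have hu1 := u1_pos hr
  have hu12 : u1 r < r * u1 r := (u1_lt hr).trans (lt_u2 hr)
  have ht := tt_pos hs hr
  have a1 := three_point hc hm (a := -1) (b := u1 r) (y := 0) (by linarith) ⟨by norm_num, hu1.le⟩
  have a2 := three_point hc hm (a := 0) (b := r * u1 r) (y := u1 r) (by linarith) ⟨hu1.le, hu12.le⟩
  have a3 : u1 r * (Lg P 0 - Lg P (-1)) ≤ (Lg P (u1 r) - Lg P 0) := by linarith
  have a4 : (r * u1 r - u1 r) * (Lg P (u1 r) - Lg P 0) ≤ u1 r * (Lg P (r * u1 r) - Lg P (u1 r)) := by
    linarith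
  have a5 : (r * u1 r - u1 r) * (Lg P 0 - Lg P (-1)) ≤ (Lg P (r * u1 r) - Lg P (u1 r)) := by
    by_contra hcon
    rw [not_le] at hcon
    have : 0 < r * u1 r - u1 r := by linarith
    have b1 := mul_le_mul_of_nonneg_left a3 this.le
    have b2 := mul_lt_mul_of_pos_left hcon hu1
    linarith
  rw [u2_sub hr] at a5
  have a6 : tt P r ≤ 1 / (Lg P 0 - Lg P (-1)) := by
    unfold tt
    rw [div_le_div_iff₀ (sub_pos.mpr (hs hu12)) k0]
    linarith
  unfold G cc
  have := Lg_pos h1 h2 (u1 r)
  have := u1_lt hr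
  nlinarith

theorem abstract_main (h1 : ∀ y, 0 < S P y) (h2 : ∀ y, S P y < 1) (hc : Continuous (S P))
    (hlc : ∀ x s, 0 ≤ s → S P (x - s) * S P (x + s) ≤ S P x ^ 2)
    (hP : Integrable (fun y => y) P) (hmean : ∫ y, y ∂P = 4 / 3) :
    M ≤ ∫ y, F2 y ∂P := by
  have hs := Lg_strictMono h1 h2 hc hlc
  have hLc := Lg_cont h1 hc
  have hm := Lg_mid h1 hlc
  have key := fun r (hr : 1 < r) => main_ineq hs h1 h2 hLc hm hP hr
  have low := fun r (hr : 1 < r) => G_lower hs h1 h2 hLc hm hP hr
  have upp := fun r (hr : 1 < r) => G_upper hs h1 h2 hLc hm hr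
  simp only [hmean] at key low
  by_cases hex : ∃ r, 1 < r ∧ G P r = 4 / 3
  · obtain ⟨r, hr, hG⟩ := hex
    have := key r hr
    rw [hG] at this
    have h3 := J_ge (tt_pos hs hr) (le_of_eq hG.symm)
    linarith
  · have hcase : (∀ r, 1 < r → 4 / 3 < G P r) ∨ (∀ r, 1 < r → G P r < 4 / 3) := by
      by_contra hcon
      rw [not_or] at hcon
      obtain ⟨hcon1, hcon2⟩ := hcon
      push Not at hcon1 hcon2
      obtain ⟨a, ha, hGa⟩ := hcon1
      obtain ⟨b, hb, hGb⟩ := hcon2
      obtain ⟨x, hx, hGx⟩ := isPreconnected_Ioi.intermediate_value₂ (f := G P) (g := fun _ => 4 / 3)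
        (a := a) (b := b) ha hb (G_contOn hs hLc) continuousOn_const hGa hGb
      exact hex ⟨x, hx, hGx⟩
    rcases hcase with hgt | hlt
    · -- `G > 4/3` always: let `r → ∞`
      have hlim : Tendsto (fun r => M - u1 r * (1 + 1 / (Lg P 0 - Lg P (-1)))) atTop
          (𝓝 (M - 0 * (1 + 1 / (Lg P 0 - Lg P (-1))))) := by
        apply Tendsto.const_sub
        apply Tendsto.mul_const
        unfold u1
        have t1 : Tendsto (fun r : ℝ => Real.log r / r) atTop (𝓝 0) := by
          simpa using Real.tendsto_pow_log_div_mul_add_atTop 1 0 1 one_ne_zero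
        have t2 := Real.tendsto_pow_log_div_mul_add_atTop 1 (-1) 1 one_ne_zero
        refine t2.congr fun x => ?_
        simp only [pow_one, one_mul]
        rfl
      rw [zero_mul, sub_zero] at hlim
      refine le_of_tendsto hlim ?_
      filter_upwards [eventually_gt_atTop 1] with r hr
      have e1 := key r hr
      have e2 := hgt r hr
      have e3 := upp r hr
      have e4 := J_ge (tt_pos hs hr) e2.le
      have e5 : w (u1 r) ≤ u1 r := by
        unfold w
        have : Real.exp (-u1 r) ≤ 1 := Real.exp_le_one_iff.mpr (by linarith [u1_pos hr])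
        nlinarith [u1_pos hr]
      have e6 := w_nonneg (u1_pos hr).le
      have e7 : w (u1 r) * (G P r - 4 / 3) ≤ u1 r * (1 + 1 / (Lg P 0 - Lg P (-1))) := by
        apply mul_le_mul e5 (by linarith) (by linarith) (u1_pos hr).le
      linarith
    · -- `G < 4/3` always: let `r → 1`
      have hlim : Tendsto (fun r => M - Real.log r) (𝓝[>] 1) (𝓝 (M - Real.log 1)) := by
        apply Tendsto.const_sub
        exact (Real.continuousAt_log one_ne_zero).tendsto.mono_left nhdsWithin_le_nhds
      rw [Real.log_one, sub_zero] at hlim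
      refine le_of_tendsto hlim ?_
      filter_upwards [self_mem_nhdsWithin] with r hr
      have hr : 1 < r := hr
      have e1 := key r hr
      have e2 := hlt r hr
      have e3 := low r hr
      have e4 := J_ge_approx (tt_pos hs hr) (c := cc P r) e2.le
      have e6 := w_nonneg (u1_pos hr).le
      have e7 : 0 ≤ w (u1 r) * (4 / 3 - G P r) := mul_nonneg e6 (by linarith)
      have e8 : cc P r + tt P r = G P r := rfl
      rw [e8] at e4
      linarith

end abstract



/-- Log-concavity (in the total positivity form). -/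
def LC (h : ℝ → ℝ) : Prop := ∀ x y t, x ≤ y → 0 ≤ t → h x * h (y + t) ≤ h (x + t) * h y

def stp (a : ℝ) (h : ℝ → ℝ) (y : ℝ) : ℝ := ∫ s, h (y - a * s) ∂nu

theorem stp_eq (a : ℝ) (h : ℝ → ℝ) (y : ℝ) :
    stp a h y = ∫ s in Ioi (0:ℝ), Real.exp (-s) * h (y - a * s) := by
  unfold stp
  rw [integral_nu]

structure Nice (h : ℝ → ℝ) : Prop where
  meas : Measurable h
  nn : ∀ y, 0 ≤ h y
  le : ∀ y, h y ≤ 1

theorem Nice.int {h : ℝ → ℝ} (hh : Nice h) (a y : ℝ) : Integrable (fun s => h (y - a * s)) nu := by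
  refine Integrable.of_bound (hh.meas.comp (by fun_prop)).aestronglyMeasurable 1
    (Eventually.of_forall fun s => ?_)
  rw [Real.norm_eq_abs, abs_of_nonneg (hh.nn _)]
  exact hh.le _

theorem Nice.int' {h : ℝ → ℝ} (hh : Nice h) (a y : ℝ) :
    IntegrableOn (fun s => Real.exp (-s) * h (y - a * s)) (Ioi 0) := by
  have h1 := integrableOn_exp_neg_Ioi 0
  refine h1.mono' ?_ (Eventually.of_forall fun s => ?_)
  · exact ((by fun_prop : Measurable (fun s : ℝ => Real.exp (-s))).mul
      (hh.meas.comp (by fun_prop))).aestronglyMeasurable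
  · rw [norm_mul, Real.norm_eq_abs, Real.norm_eq_abs, abs_of_nonneg (hh.nn _), abs_of_pos (Real.exp_pos _)]
    have := hh.le (y - a * s)
    have := Real.exp_pos (-s)
    nlinarith

theorem stp_nonneg {h : ℝ → ℝ} (hh : Nice h) (a y : ℝ) : 0 ≤ stp a h y :=
  integral_nonneg fun s => hh.nn _

theorem stp_le_one {h : ℝ → ℝ} (hh : Nice h) (a y : ℝ) : stp a h y ≤ 1 := by
  have : stp a h y ≤ ∫ s, (1:ℝ) ∂nu := by
    apply integral_mono (hh.int a y) (integrable_const _)
    intro s
    exact hh.le _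
  simpa using this

theorem stp_split {h : ℝ → ℝ} (hh : Nice h) {a : ℝ} (ha : 0 < a) (y : ℝ) {t : ℝ} (ht : 0 ≤ t) :
    stp a h (y + t) = (∫ s in Ioc 0 (t / a), Real.exp (-s) * h (y + t - a * s)) +
      Real.exp (-(t / a)) * stp a h y := by
  have hta : 0 ≤ t / a := div_nonneg ht ha.le
  rw [stp_eq]
  have hi := hh.int' a (y + t)
  have hu : Ioi (0:ℝ) = Ioc 0 (t / a) ∪ Ioi (t / a) := (Ioc_union_Ioi_eq_Ioi hta).symm
  rw [hu] at hi ⊢
  rw [setIntegral_union (Ioc_disjoint_Ioi le_rfl) measurableSet_Ioi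
    (hi.mono_set subset_union_left) (hi.mono_set subset_union_right)]
  congr 1
  have h1 := (measurePreserving_add_right volume (t / a)).setIntegral_preimage_emb
    (measurableEmbedding_addRight (t / a)) (fun s => Real.exp (-s) * h (y + t - a * s)) (Ioi (t / a))
  rw [← h1]
  have h2 : (fun x => x + t / a) ⁻¹' Ioi (t / a) = Ioi 0 := by
    ext x
    simp
  rw [h2, stp_eq, ← integral_const_mul]
  refine setIntegral_congr_fun measurableSet_Ioi fun s _ => ?_
  have e1 : y + t - a * (s + t / a) = y - a * s := by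
    field_simp
    ring
  rw [e1, neg_add, Real.exp_add]
  ring

theorem stp_pointwise {h : ℝ → ℝ} (hh : Nice h) (hl : LC h) {a : ℝ} (ha : 0 < a) {x y r : ℝ}
    (hxy : x ≤ y) (hr : 0 ≤ r) : stp a h x * h (y + r) ≤ stp a h y * h (x + r) := by
  rw [stp_eq, stp_eq, ← integral_mul_const, ← integral_mul_const]
  apply setIntegral_mono_on ((hh.int' a x).mul_const _) ((hh.int' a y).mul_const _) measurableSet_Ioi
  intro s hs
  have hs : 0 < s := hs
  have := hl (x - a * s) (y - a * s) (r + a * s) (by linarith) (by positivity)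
  have e1 : y - a * s + (r + a * s) = y + r := by ring
  have e2 : x - a * s + (r + a * s) = x + r := by ring
  rw [e1, e2] at this
  have h0 := Real.exp_pos (-s)
  rw [mul_assoc, mul_assoc]
  apply mul_le_mul_of_nonneg_left _ h0.le
  linarith

theorem stp_LC_pos {h : ℝ → ℝ} (hh : Nice h) (hl : LC h) {a : ℝ} (ha : 0 < a) : LC (stp a h) := by
  intro x y t hxy ht
  rw [stp_split hh ha y ht, stp_split hh ha x ht]
  have : stp a h x * (∫ s in Ioc 0 (t / a), Real.exp (-s) * h (y + t - a * s)) ≤
      (∫ s in Ioc 0 (t / a), Real.exp (-s) * h (x + t - a * s)) * stp a h y := by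
    rw [← integral_const_mul, ← integral_mul_const]
    apply setIntegral_mono_on
    · exact ((hh.int' a (y + t)).mono_set Ioc_subset_Ioi_self).const_mul _
    · exact ((hh.int' a (x + t)).mono_set Ioc_subset_Ioi_self).mul_const _
    · exact measurableSet_Ioc
    · intro s hs
      have hs2 : a * s ≤ t := by
        have := hs.2
        rw [le_div_iff₀ ha] at this
        linarith
      have h1 := stp_pointwise hh hl ha hxy (r := t - a * s) (by linarith)
      have e1 : y + (t - a * s) = y + t - a * s := by ring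
      have e2 : x + (t - a * s) = x + t - a * s := by ring
      rw [e1, e2] at h1
      have h0 := Real.exp_pos (-s)
      nlinarith
  nlinarith

theorem LC.refl {h : ℝ → ℝ} (hl : LC h) : LC (fun z => h (-z)) := by
  intro x y t hxy ht
  have := hl (-(y + t)) (-(x + t)) t (by linarith) ht
  have e1 : -(x + t) + t = -x := by ring
  have e2 : -(y + t) + t = -y := by ring
  rw [e1, e2] at this
  simp only
  linarith

theorem Nice.refl {h : ℝ → ℝ} (hh : Nice h) : Nice (fun z => h (-z)) :=
  ⟨hh.meas.comp measurable_neg, fun _ => hh.nn _, fun _ => hh.le _⟩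

theorem stp_refl (h : ℝ → ℝ) (a y : ℝ) : stp a h y = stp (-a) (fun z => h (-z)) (-y) := by
  unfold stp
  congr 1
  ext s
  congr 1
  ring

theorem stp_zero (h : ℝ → ℝ) (y : ℝ) : stp 0 h y = h y := by
  unfold stp
  simp

theorem stp_LC {h : ℝ → ℝ} (hh : Nice h) (hl : LC h) (a : ℝ) : LC (stp a h) := by
  rcases lt_trichotomy a 0 with ha | ha | ha
  · have h1 := stp_LC_pos hh.refl hl.refl (a := -a) (by linarith)
    have h2 := h1.refl
    intro x y t hxy ht
    have := h2 x y t hxy ht
    rw [stp_refl h a, stp_refl h a, stp_refl h a, stp_refl h a]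
    exact this
  · subst ha
    intro x y t hxy ht
    simp only [stp_zero]
    exact hl x y t hxy ht
  · exact stp_LC_pos hh hl ha

def Lip (C : ℝ) (h : ℝ → ℝ) : Prop := ∀ y t, 0 ≤ t → |h (y + t) - h y| ≤ C * t

theorem stp_lip_pos {h : ℝ → ℝ} (hh : Nice h) {a : ℝ} (ha : 0 < a) : Lip (1 / a) (stp a h) := by
  intro y t ht
  rw [stp_split hh ha y ht]
  have hta : 0 ≤ t / a := div_nonneg ht ha.le
  have h1 : 0 ≤ ∫ s in Ioc 0 (t / a), Real.exp (-s) * h (y + t - a * s) := by
    apply setIntegral_nonneg measurableSet_Ioc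
    intro s _
    exact mul_nonneg (Real.exp_pos _).le (hh.nn _)
  have h2 : ∫ s in Ioc 0 (t / a), Real.exp (-s) * h (y + t - a * s) ≤ t / a := by
    have : ∫ s in Ioc 0 (t / a), Real.exp (-s) * h (y + t - a * s) ≤ ∫ s in Ioc 0 (t / a), (1:ℝ) := by
      apply setIntegral_mono_on
      · exact (hh.int' a (y + t)).mono_set Ioc_subset_Ioi_self
      · simp
      · exact measurableSet_Ioc
      · intro s hs
        have h3 : Real.exp (-s) ≤ 1 := Real.exp_le_one_iff.mpr (by linarith [hs.1])
        have h4 := hh.le (y + t - a * s)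
        have h5 := hh.nn (y + t - a * s)
        have h6 := Real.exp_pos (-s)
        nlinarith
    simpa [hta] using this
  have h3 := Real.add_one_le_exp (-(t / a))
  have h4 : Real.exp (-(t / a)) ≤ 1 := Real.exp_le_one_iff.mpr (by linarith)
  have h5 := stp_nonneg hh a y
  have h6 := stp_le_one hh a y
  have e : 1 / a * t = t / a := by ring
  rw [e, abs_le]
  constructor <;> nlinarith

theorem Lip.refl {C : ℝ} {h : ℝ → ℝ} (hl : Lip C h) : Lip C (fun z => h (-z)) := by
  intro y t ht
  have := hl (-(y + t)) t ht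
  have e1 : -(y + t) + t = -y := by ring
  rw [e1, abs_sub_comm] at this
  exact this

theorem stp_lip {h : ℝ → ℝ} (hh : Nice h) {a : ℝ} (ha : a ≠ 0) : Lip (1 / |a|) (stp a h) := by
  rcases lt_or_gt_of_ne ha with ha | ha
  · have h1 := stp_lip_pos hh.refl (a := -a) (by linarith)
    have h2 := h1.refl
    rw [abs_of_neg ha]
    intro y t ht
    have := h2 y t ht
    rw [stp_refl h a, stp_refl h a]
    exact this
  · rw [abs_of_pos ha]
    exact stp_lip_pos hh ha

theorem Lip.cont {C : ℝ} {h : ℝ → ℝ} (hl : Lip C h) : Continuous h := by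
  have hC : 0 ≤ C := by
    have := hl 0 1 zero_le_one
    have h2 := abs_nonneg (h (0 + 1) - h 0)
    linarith
  have : LipschitzWith (Real.toNNReal C) h := by
    apply LipschitzWith.of_dist_le_mul
    intro a b
    rw [Real.coe_toNNReal _ hC, Real.dist_eq, Real.dist_eq]
    rcases le_total a b with hab | hab
    · have := hl a (b - a) (by linarith)
      rw [add_sub_cancel] at this
      rw [abs_sub_comm, abs_sub_comm a b, abs_of_nonneg (sub_nonneg.mpr hab)]
      exact this
    · have := hl b (a - b) (by linarith)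
      rw [add_sub_cancel] at this
      rw [abs_of_nonneg (sub_nonneg.mpr hab)]
      exact this
  exact this.continuous

/-- law of `c + ∑ a_i X_i` -/
def law {N : ℕ} (c : ℝ) (a : Fin N → ℝ) : Measure ℝ :=
  (Measure.pi (fun _ : Fin N => nu)).map (fun x => c + ∑ i, a i * x i)

theorem law_meas {N : ℕ} (c : ℝ) (a : Fin N → ℝ) : Measurable (fun x : Fin N → ℝ => c + ∑ i, a i * x i) := by
  fun_prop

instance {N : ℕ} (c : ℝ) (a : Fin N → ℝ) : IsProbabilityMeasure (law c a) := by
  unfold law
  exact Measure.isProbabilityMeasure_map (law_meas c a).aemeasurable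

theorem S_law {N : ℕ} (c : ℝ) (a : Fin N → ℝ) (y : ℝ) :
    S (law c a) y = (Measure.pi (fun _ : Fin N => nu)).real {x | y < c + ∑ i, a i * x i} := by
  unfold S law
  rw [map_measureReal_apply (law_meas c a) measurableSet_Ioi]
  rfl

theorem S_nice (P : Measure ℝ) [IsProbabilityMeasure P] : Nice (S P) :=
  ⟨S_meas P, S_nonneg P, S_le_one P⟩

theorem S_law_zero (c : ℝ) (a : Fin 0 → ℝ) (y : ℝ) : S (law c a) y = if y < c then 1 else 0 := by
  rw [S_law]
  simp only [Finset.univ_eq_empty, Finset.sum_empty, add_zero]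
  split_ifs with h
  · simp [h]
  · simp [h]

theorem S_law_succ {N : ℕ} (c : ℝ) (a : Fin (N + 1) → ℝ) (y : ℝ) :
    S (law c a) y = stp (a 0) (S (law c (fun i => a i.succ))) y := by
  rw [S_law]
  have hmp := measurePreserving_piFinSuccAbove (fun _ : Fin (N + 1) => nu) 0
  set B : Set (ℝ × (Fin N → ℝ)) := {p | y < c + (a 0 * p.1 + ∑ i : Fin N, a i.succ * p.2 i)} with hB
  have hBm : MeasurableSet B := by
    apply measurableSet_lt measurable_const
    fun_prop
  have h1 : {x : Fin (N + 1) → ℝ | y < c + ∑ i, a i * x i} =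
      (MeasurableEquiv.piFinSuccAbove (fun _ => ℝ) 0) ⁻¹' B := by
    ext x
    simp only [mem_ofPred_eq, mem_preimage, hB, Fin.sum_univ_succ]
    rfl
  have h2 := hmp.measure_preimage hBm.nullMeasurableSet
  unfold Measure.real
  rw [h1, h2, Measure.prod_apply hBm]
  have h3 : ∀ s, (Measure.pi fun _ : Fin N => nu) (Prod.mk s ⁻¹' B) =
      ENNReal.ofReal (S (law c (fun i => a i.succ)) (y - a 0 * s)) := by
    intro s
    rw [S_law, ofReal_measureReal]
    congr 1
    ext z
    simp only [mem_preimage, hB, mem_ofPred_eq]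
    constructor <;> intro h <;> linarith
  have h4 : ∀ s, (Measure.pi fun j : Fin N => (fun _ : Fin (N + 1) => nu) ((0 : Fin (N+1)).succAbove j)) (Prod.mk s ⁻¹' B) =
      ENNReal.ofReal (S (law c (fun i => a i.succ)) (y - a 0 * s)) := h3
  simp_rw [h4]
  unfold stp
  rw [integral_eq_lintegral_of_nonneg_ae]
  · exact Eventually.of_forall fun s => S_nonneg _ _
  · exact ((S_nice (law c (fun i => a i.succ))).int (a 0) y).aestronglyMeasurable

theorem LC_ind (c : ℝ) : LC (fun y => if y < c then 1 else 0) := by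
  intro x y t hxy ht
  simp only
  by_cases h : y + t < c
  · rw [if_pos h, if_pos (by linarith), if_pos (by linarith), if_pos (by linarith)]
  · rw [if_neg h]
    split_ifs <;> norm_num

theorem law_LC : ∀ {N : ℕ} (c : ℝ) (a : Fin N → ℝ), LC (S (law c a)) := by
  intro N
  induction N with
  | zero =>
    intro c a
    have : S (law c a) = fun y => if y < c then 1 else 0 := by
      ext y
      exact S_law_zero c a y
    rw [this]
    exact LC_ind c
  | succ n ih =>
    intro c a
    have : S (law c a) = stp (a 0) (S (law c (fun i => a i.succ))) := by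
      ext y
      exact S_law_succ c a y
    rw [this]
    exact stp_LC (S_nice _) (ih c _) _

theorem law_cont : ∀ {N : ℕ} (c : ℝ) (a : Fin N → ℝ), a ≠ 0 → Continuous (S (law c a)) := by
  intro N
  induction N with
  | zero =>
    intro c a ha
    exact absurd (Subsingleton.elim a 0) ha
  | succ n ih =>
    intro c a ha
    have e : S (law c a) = stp (a 0) (S (law c (fun i => a i.succ))) := by
      ext y
      exact S_law_succ c a y
    rw [e]
    by_cases h0 : a 0 = 0
    · rw [h0]
      have : (fun i : Fin n => a i.succ) ≠ 0 := by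
        intro h
        apply ha
        ext i
        refine Fin.cases ?_ ?_ i
        · exact h0
        · intro j
          exact congrFun h j
      have := ih c _ this
      have e2 : stp 0 (S (law c (fun i => a i.succ))) = S (law c (fun i => a i.succ)) := by
        ext y
        exact stp_zero _ _
      rw [e2]
      exact this
    · exact (stp_lip (S_nice _) h0).cont

theorem nu_Ioi_pos (T : ℝ) : 0 < nu (Ioi T) := by
  have : 0 < nu.real (Ioi T) := by rw [nu_real_Ioi]; exact Real.exp_pos _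
  exact (ENNReal.toReal_pos_iff.mp this).1

theorem nu_Ioc_pos : 0 < nu (Ioc 0 1) := by
  have h : Ioc (0:ℝ) 1 = Ioi 0 \ Ioi 1 := by
    ext x
    simp
  have : 0 < nu.real (Ioc 0 1) := by
    rw [h, measureReal_sdiff (Ioi_subset_Ioi zero_le_one) measurableSet_Ioi, nu_real_Ioi, nu_real_Ioi]
    simp
  exact (ENNReal.toReal_pos_iff.mp this).1

theorem law_pos {N : ℕ} (c : ℝ) (a : Fin N → ℝ) {i : Fin N} (hi : 0 < a i) (y : ℝ) :
    0 < S (law c a) y := by
  classical
  rw [S_law]
  set A := ∑ j, |a j|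
  set T : ℝ := max 0 ((y - c + A) / a i) with hT
  set B : Fin N → Set ℝ := fun j => if j = i then Ioi T else Ioc 0 1 with hB
  have h1 : 0 < (Measure.pi (fun _ : Fin N => nu)) (Set.pi univ B) := by
    rw [Measure.pi_pi]
    rw [pos_iff_ne_zero, Finset.prod_ne_zero_iff]
    intro j _
    simp only [hB]
    split_ifs
    · exact (nu_Ioi_pos T).ne'
    · exact nu_Ioc_pos.ne'
  have h2 : Set.pi univ B ⊆ {x | y < c + ∑ j, a j * x j} := by
    intro x hx
    simp only [Set.mem_pi, mem_univ, true_implies] at hx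
    simp only [mem_ofPred_eq]
    have hxi : T < x i := by
      have := hx i
      simp only [hB, if_true] at this
      exact this
    have h3 : a i * x i + ∑ j ∈ Finset.univ.erase i, a j * x j = ∑ j, a j * x j :=
      Finset.add_sum_erase _ (fun j => a j * x j) (Finset.mem_univ i)
    have h4 : |a i| + ∑ j ∈ Finset.univ.erase i, |a j| = A :=
      Finset.add_sum_erase _ (fun j => |a j|) (Finset.mem_univ i)
    have h5 : ∑ j ∈ Finset.univ.erase i, (-|a j|) ≤ ∑ j ∈ Finset.univ.erase i, a j * x j := by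
      apply Finset.sum_le_sum
      intro j hj
      have hji : j ≠ i := Finset.ne_of_mem_erase hj
      have := hx j
      simp only [hB, if_neg hji] at this
      have h6 := neg_abs_le (a j)
      have h7 := abs_nonneg (a j)
      have h8 := this.1
      have h9 := this.2
      nlinarith
    rw [Finset.sum_neg_distrib] at h5
    have h6 : (y - c + A) / a i < x i := lt_of_le_of_lt (le_max_right _ _) hxi
    rw [div_lt_iff₀ hi] at h6
    have h7 := abs_nonneg (a i)
    linarith
  have h3 : 0 < (Measure.pi (fun _ : Fin N => nu)) {x | y < c + ∑ j, a j * x j} :=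
    lt_of_lt_of_le h1 (measure_mono h2)
  exact ENNReal.toReal_pos h3.ne' (measure_ne_top _ _)

theorem law_lt_one {N : ℕ} (c : ℝ) (a : Fin N → ℝ) {i : Fin N} (hi : a i < 0) (y : ℝ) :
    S (law c a) y < 1 := by
  have h1 := law_pos (-c) (fun j => - a j) (i := i) (by linarith) (-y)
  rw [S_law] at h1 ⊢
  set μ := (Measure.pi (fun _ : Fin N => nu))
  have h2 : {x : Fin N → ℝ | -y < -c + ∑ i, -a i * x i} ⊆ {x | y < c + ∑ i, a i * x i}ᶜ := by
    intro x hx
    simp only [mem_ofPred_eq, mem_compl_iff, not_lt, neg_mul, Finset.sum_neg_distrib] at *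
    linarith
  have h3 : MeasurableSet {x : Fin N → ℝ | y < c + ∑ i, a i * x i} :=
    measurableSet_lt measurable_const (law_meas c a)
  have h4 := measureReal_mono (μ := μ) h2
  rw [probReal_compl_eq_one_sub h3] at h4
  linarith

theorem law_int {N : ℕ} (c : ℝ) (a : Fin N → ℝ) : Integrable (fun y => y) (law c a) := by
  unfold law
  rw [integrable_map_measure (by fun_prop) (law_meas c a).aemeasurable]
  refine (integrable_const c).add ?_
  apply integrable_finsetSum
  intro i _
  exact (integrable_comp_eval (μ := fun _ : Fin N => nu) (f := fun x => x) (i := i) nu_integrable_id).const_mul _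

theorem law_mean {N : ℕ} (c : ℝ) (a : Fin N → ℝ) : ∫ y, y ∂(law c a) = c + ∑ i, a i := by
  unfold law
  rw [integral_map (law_meas c a).aemeasurable (by fun_prop)]
  have hi : ∀ i : Fin N, Integrable (fun x : Fin N → ℝ => a i * x i) (Measure.pi (fun _ : Fin N => nu)) := by
    intro i
    exact (integrable_comp_eval (μ := fun _ : Fin N => nu) (f := fun x => x) (i := i) nu_integrable_id).const_mul _
  rw [integral_add (integrable_const c) (integrable_finsetSum _ fun i _ => hi i),
    integral_finsetSum _ (fun i _ => hi i)]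
  congr 1
  · simp
  · refine Finset.sum_congr rfl fun i _ => ?_
    rw [integral_const_mul, integral_comp_eval (μ := fun _ : Fin N => nu) (f := fun x => x)
      (by fun_prop), nu_mean, mul_one]

theorem law_F2 {N : ℕ} (c : ℝ) (a : Fin N → ℝ) :
    ∫ y, F2 y ∂(law c a) = ∫ x, F2 (c + ∑ i, a i * x i) ∂(Measure.pi (fun _ : Fin N => nu)) := by
  unfold law
  rw [integral_map (law_meas c a).aemeasurable F2_cont.aestronglyMeasurable]

/-- Upper bound half. -/
theorem upper {N : ℕ} (a : Fin N → ℝ) (ha : ∑ i, a i = 0) :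
    M ≤ ∫ x, F2 (4 / 3 + ∑ i, a i * x i) ∂(Measure.pi (fun _ : Fin N => nu)) := by
  by_cases h0 : a = 0
  · subst h0
    simp only [Pi.zero_apply, zero_mul, Finset.sum_const_zero, add_zero, integral_const,
      probReal_univ, smul_eq_mul, one_mul]
    have h1 := f_mono (t := 0) le_rfl (by norm_num)
    have h2 := num1
    unfold F2
    rw [if_neg (by norm_num)]
    have e : Real.exp (0 - 4 / 3) * (7 / 3 + 7 / 3 * 0 - 0 ^ 2) / (1 + 0) ^ 2 =
      (1 + 4 / 3) * Real.exp (-(4 / 3)) := by
      rw [zero_sub]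
      ring
    rw [e] at h1
    linarith
  · rw [← law_F2]
    have hne : ∃ i, a i ≠ 0 := by
      by_contra hcon
      push Not at hcon
      exact h0 (funext hcon)
    have hp : ∃ i, 0 < a i := by
      by_contra hcon
      push Not at hcon
      have := (Finset.sum_eq_zero_iff_of_nonpos (fun i _ => hcon i)).mp ha
      obtain ⟨i, hi⟩ := hne
      exact hi (this i (Finset.mem_univ i))
    have hn : ∃ i, a i < 0 := by
      by_contra hcon
      push Not at hcon
      have := (Finset.sum_eq_zero_iff_of_nonneg (fun i _ => hcon i)).mp ha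
      obtain ⟨i, hi⟩ := hne
      exact hi (this i (Finset.mem_univ i))
    obtain ⟨i, hi⟩ := hp
    obtain ⟨j, hj⟩ := hn
    apply abstract_main (law_pos _ a hi) (law_lt_one _ a hj) (law_cont _ a h0)
    · intro x s hs
      have := law_LC (4 / 3) a (x - s) x s (by linarith) hs
      rw [sub_add_cancel] at this
      rw [sq]
      exact this
    · exact law_int _ a
    · rw [law_mean, ha, add_zero]

open ProbabilityTheory


theorem nu_memLp : MemLp (fun x => x) 2 nu := by
  rw [memLp_two_iff_integrable_sq (by fun_prop)]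
  unfold nu
  rw [integrable_withDensity_iff_integrable_smul' (by fun_prop) (by simp)]
  have := Real.GammaIntegral_convergent (s := 3) (by norm_num)
  refine this.congr ?_
  refine Eventually.of_forall fun x => ?_
  simp only [smul_eq_mul]
  rw [ENNReal.toReal_ofReal (Real.exp_pos _).le]
  norm_num

theorem var_sum {N : ℕ} (b : Fin N → ℝ) :
    ∫ x, ((∑ i, b i * x i) - ∑ i, b i) ^ 2 ∂(Measure.pi (fun _ : Fin N => nu)) =
      (∑ i, b i ^ 2) * Var[fun x => x; nu] := by
  have h1 := variance_sum_pi (μ := fun _ : Fin N => nu) (X := fun i x => b i * x)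
    (fun i => nu_memLp.const_mul (b i))
  have h2 : (∑ i, fun x : Fin N → ℝ => b i * x i) = fun x : Fin N → ℝ => ∑ i, b i * x i := by
    ext x
    simp
  rw [h2] at h1
  rw [variance_eq_integral (Measurable.aemeasurable (by fun_prop))] at h1
  have hi : ∀ i : Fin N, Integrable (fun x : Fin N → ℝ => b i * x i) (Measure.pi (fun _ : Fin N => nu)) := by
    intro i
    exact (integrable_comp_eval (μ := fun _ : Fin N => nu) (f := fun x => x) (i := i) nu_integrable_id).const_mul _
  have h3 : ∫ x : Fin N → ℝ, ∑ i, b i * x i ∂(Measure.pi (fun _ : Fin N => nu)) = ∑ i, b i := by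
    rw [integral_finsetSum _ (fun i _ => hi i)]
    refine Finset.sum_congr rfl fun i _ => ?_
    rw [integral_const_mul, integral_comp_eval (μ := fun _ : Fin N => nu) (f := fun x => x)
      (by fun_prop), nu_mean, mul_one]
  rw [h3] at h1
  rw [h1, Finset.sum_mul]
  refine Finset.sum_congr rfl fun i _ => ?_
  rw [variance_const_mul]

theorem F2_abs (a b : ℝ) : F2 b ≤ F2 a + |b - a| := by
  rcases le_total a b with h | h
  · have := F2_lip h
    rw [abs_of_nonneg (by linarith)]
    linarith
  · have := F2_mono h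
    have := abs_nonneg (b - a)
    linarith

theorem lower_aux {n : ℕ} (hn : 0 < n) {δ : ℝ} (hδ : 0 < δ) :
    ∫ x, F2 (4 / 3 + ∑ i, (Fin.cons 2 (fun _ => -(2 / (n:ℝ))) : Fin (n + 1) → ℝ) i * x i)
      ∂(Measure.pi (fun _ : Fin (n + 1) => nu)) ≤
    M + (δ + (4 / n * Var[fun x => x; nu]) / δ) / 2 := by
  set μ := Measure.pi (fun _ : Fin (n + 1) => nu) with hμ
  set b : Fin (n + 1) → ℝ := Fin.cons 0 (fun _ => 2 / (n:ℝ)) with hb
  set Z : (Fin (n + 1) → ℝ) → ℝ := fun x => (∑ i, b i * x i) - ∑ i, b i with hZ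
  have hn' : (n:ℝ) ≠ 0 := by exact_mod_cast hn.ne'
  have hbs : ∑ i, b i = 2 := by
    rw [Fin.sum_univ_succ]
    simp only [hb, Fin.cons_zero, Fin.cons_succ, Finset.sum_const, Finset.card_univ, Fintype.card_fin,
      nsmul_eq_mul]
    field_simp
    ring
  have hb2 : ∑ i, b i ^ 2 = 4 / n := by
    rw [Fin.sum_univ_succ]
    simp only [hb, Fin.cons_zero, Fin.cons_succ, Finset.sum_const, Finset.card_univ, Fintype.card_fin,
      nsmul_eq_mul]
    field_simp
    ring
  have hv := var_sum b
  rw [hb2] at hv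
  have hZm : MemLp Z 2 μ := by
    apply MemLp.sub
    · have h2 : (fun x : Fin (n + 1) → ℝ => ∑ i, b i * x i) = (∑ i, fun x : Fin (n+1) → ℝ => b i * x i) := by
        ext x
        simp
      rw [h2]
      apply memLp_finsetSum'
      intro i _
      exact (nu_memLp.comp_measurePreserving (measurePreserving_eval (fun _ : Fin (n + 1) => nu) i)).const_mul _
    · exact memLp_const _
  have hZ2 : Integrable (fun x => Z x ^ 2) μ := hZm.integrable_sq
  have hF0 : Integrable (fun x : Fin (n + 1) → ℝ => F2 (-(2 / 3) + 2 * x 0)) μ := by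
    refine Integrable.of_bound (F2_cont.comp (by fun_prop)).aestronglyMeasurable 1 (Eventually.of_forall fun y => ?_)
    rw [Real.norm_eq_abs, abs_of_nonneg (F2_nonneg _)]; exact F2_le_one _
  have hF1 : Integrable (fun x : Fin (n + 1) → ℝ => F2 (4 / 3 + ∑ i, (Fin.cons 2 (fun _ => -(2 / (n:ℝ))) : Fin (n + 1) → ℝ) i * x i)) μ := by
    refine Integrable.of_bound (F2_cont.comp (by fun_prop)).aestronglyMeasurable 1 (Eventually.of_forall fun y => ?_)
    rw [Real.norm_eq_abs, abs_of_nonneg (F2_nonneg _)]; exact F2_le_one _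
  have hG : Integrable (fun x => (δ + Z x ^ 2 / δ) / 2) μ :=
    ((integrable_const δ).add (hZ2.div_const δ)).div_const 2
  have hpt : ∀ x, F2 (4 / 3 + ∑ i, (Fin.cons 2 (fun _ => -(2 / (n:ℝ))) : Fin (n + 1) → ℝ) i * x i) ≤
      F2 (-(2 / 3) + 2 * x 0) + (δ + Z x ^ 2 / δ) / 2 := by
    intro x
    have h1 := F2_abs (-(2 / 3) + 2 * x 0) (4 / 3 + ∑ i, (Fin.cons 2 (fun _ => -(2 / (n:ℝ))) : Fin (n + 1) → ℝ) i * x i)
    have h2 : (4 / 3 + ∑ i, (Fin.cons 2 (fun _ => -(2 / (n:ℝ))) : Fin (n + 1) → ℝ) i * x i) -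
      (-(2 / 3) + 2 * x 0) = - Z x := by
      simp only [hZ, hbs]
      rw [Fin.sum_univ_succ, Fin.sum_univ_succ]
      simp only [hb, Fin.cons_zero, Fin.cons_succ, neg_mul, Finset.sum_neg_distrib]
      ring
    rw [h2, abs_neg] at h1
    have h3 : |Z x| ≤ (δ + Z x ^ 2 / δ) / 2 := by
      have h4 : 0 ≤ (|Z x| - δ) ^ 2 := sq_nonneg _
      have h5 : |Z x| ^ 2 = Z x ^ 2 := sq_abs _
      have h6 : (δ + Z x ^ 2 / δ) / 2 = (δ ^ 2 + Z x ^ 2) / (2 * δ) := by
        field_simp
      rw [h6, le_div_iff₀ (by positivity)]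
      nlinarith
    linarith
  have h1 := integral_mono hF1 (hF0.add hG) hpt
  rw [integral_add' hF0 hG] at h1
  have h2 : ∫ x, F2 (-(2 / 3) + 2 * x 0) ∂μ = M := by
    rw [integral_comp_eval (μ := fun _ : Fin (n + 1) => nu) (f := fun x => F2 (-(2 / 3) + 2 * x))
      (F2_cont.comp (by fun_prop)).aestronglyMeasurable, ← V_F2, J_neg (by norm_num) (by norm_num)]
    unfold M
    rw [mul_comm]
    congr 1
    · norm_num
    · congr 1
      norm_num
  have h3 : ∫ x, (δ + Z x ^ 2 / δ) / 2 ∂μ = (δ + (4 / n * Var[fun x => x; nu]) / δ) / 2 := by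
    rw [integral_div, integral_add (integrable_const δ) (hZ2.div_const δ), integral_div, hv]
    simp
  rw [h2, h3] at h1
  exact h1

theorem trunc_eq (y : ℝ) : Crest.AlgGeometry.truncExpWeight y = 1 - F2 y := by
  unfold Crest.AlgGeometry.truncExpWeight F2
  split_ifs <;> ring

theorem integral_conv (N : ℕ) (a : Fin N → ℝ) :
    ∫ x in Set.pi Set.univ (fun _ : Fin N => Set.Ioi (0 : ℝ)),
            Crest.AlgGeometry.truncExpWeight (4 / 3 + ∑ i, a i * x i) * Real.exp (-∑ i, x i) =
      1 - ∫ x, F2 (4 / 3 + ∑ i, a i * x i) ∂(Measure.pi (fun _ : Fin N => nu)) := by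
  rw [integral_pi_eq]
  simp_rw [trunc_eq]
  rw [integral_sub (integrable_const _)]
  · simp
  · refine Integrable.of_bound (F2_cont.comp (by fun_prop)).aestronglyMeasurable 1 (Eventually.of_forall fun y => ?_)
    rw [Real.norm_eq_abs, abs_of_nonneg (F2_nonneg _)]; exact F2_le_one _

theorem const_eq : Real.exp (4 / 3) / (4 / 3) * (1 - M) = 3 / 4 * Real.exp (4 / 3) - Real.exp 1 / 3 := by
  unfold M
  have : Real.exp 1 = Real.exp (4 / 3) * Real.exp (-(1 / 3)) := by
    rw [← Real.exp_add]
    norm_num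
  rw [this]
  ring

end

end Aux

/-- For independent mean-one exponential random variables `X_1, …, X_N` (written as an integral over the positive orthant against the density `exp (-(x_1 + ⋯ + x_N))`), real coefficients `a_1, …, a_N` summing to zero, and the weight `g = truncExpWeight`, the quantity `(e^{4/3} / (4/3)) · E[g(4/3 + a_1 X_1 + ⋯ + a_N X_N)]` has supremum over all `N ≥ 1` and all such `a` exactly `(3/4) e^{4/3} − e/3`: it never exceeds this value, and comes within any `ε > 0` of it for some `N` and `a`. -/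
theorem result :
    (∀ (N : ℕ) (a : Fin N → ℝ), 1 ≤ N → ∑ i, a i = 0 →
      Real.exp (4 / 3) / (4 / 3) *
          ∫ x in Set.pi Set.univ (fun _ : Fin N => Set.Ioi (0 : ℝ)),
            Crest.AlgGeometry.truncExpWeight (4 / 3 + ∑ i, a i * x i) * Real.exp (-∑ i, x i)
        ≤ 3 / 4 * Real.exp (4 / 3) - Real.exp 1 / 3) ∧
    (∀ ε : ℝ, 0 < ε → ∃ (N : ℕ) (a : Fin N → ℝ), 1 ≤ N ∧ ∑ i, a i = 0 ∧
      3 / 4 * Real.exp (4 / 3) - Real.exp 1 / 3 - ε <
        Real.exp (4 / 3) / (4 / 3) *
          ∫ x in Set.pi Set.univ (fun _ : Fin N => Set.Ioi (0 : ℝ)),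
            Crest.AlgGeometry.truncExpWeight (4 / 3 + ∑ i, a i * x i) * Real.exp (-∑ i, x i)) := by
  have hK : 0 < Real.exp (4 / 3) / (4 / 3) := by positivity
  constructor
  · intro N a _ ha
    rw [integral_conv, ← const_eq]
    have := upper a ha
    apply mul_le_mul_of_nonneg_left _ hK.le
    linarith
  · intro ε hε
    set K := Real.exp (4 / 3) / (4 / 3) with hKd
    set v := ProbabilityTheory.variance (fun x => x) nu with hv
    have hv0 : 0 ≤ v := ProbabilityTheory.variance_nonneg _ _
    set δ := ε / K with hδd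
    have hδ : 0 < δ := div_pos hε hK
    obtain ⟨n, hn⟩ := exists_nat_gt (4 * v / δ ^ 2)
    have hn0' : (0:ℝ) < n := lt_of_le_of_lt (by positivity) hn
    have hn0 : 0 < n := by exact_mod_cast hn0'
    refine ⟨n + 1, Fin.cons 2 (fun _ => -(2 / (n:ℝ))), by omega, ?_, ?_⟩
    · rw [Fin.sum_univ_succ]
      simp only [Fin.cons_zero, Fin.cons_succ, Finset.sum_const, Finset.card_univ, Fintype.card_fin,
        nsmul_eq_mul]
      field_simp
      ring
    · rw [integral_conv, ← const_eq, ← hKd]
      have h1 := lower_aux hn0 hδ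
      have h2 : 4 / n * v / δ < δ := by
        rw [div_lt_iff₀ (by positivity)] at hn
        rw [div_lt_iff₀ hδ, div_mul_eq_mul_div, div_lt_iff₀ hn0']
        nlinarith
      have h3 : ε = K * δ := by
        rw [hδd]
        field_simp
      rw [h3, ← mul_sub]
      apply mul_lt_mul_of_pos_left _ hK
      linarith

end Crest.Agent.S0423
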